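import Vale.Agent.P088.R2.H794.S4.Fill

/-!
# P088, stage 4: affine change of coordinates in the equations
-/

open MeasureTheory Set
open scoped ContDiff Matrix Topology

noncomputable section

namespace Vale.Agent.P088.R2.H794.S4

open Vale.Agent.P088.LR Vale.Agent.P088.LR.U Vale.Agent.P088.LR.H158
open Vale.Agent.P088.PJ
open Vale.Agent.P088.R2.H238.S3.A
open Vale.Agent.P088.S4 (MoV pdv)

variable {n N : ℕ}

/-- `∑_k A⁻¹_ki X_k`. -/
def loG (A : Matrix (Fin n) (Fin n) ℝ) (v : V n) (G : Fin n → MC n N) (i : Fin n) : MC n N :=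
  fun z => ∑ k, ((A⁻¹ k i : ℝ) : ℂ) • G k (fa A v z)

/-- `P ∘ fa`. -/
def pbM (A : Matrix (Fin n) (Fin n) ℝ) (v : V n) (P : MC n N) : MC n N := fun z => P (fa A v z)

section Alg

variable {W : Type*} [AddCommGroup W] [Module ℂ W] {A : Matrix (Fin n) (Fin n) ℝ}

theorem ctr1 (hA : A.det ≠ 0) (X : Fin n → W) (l : Fin n) :
    ∑ i, ((A i l : ℝ) : ℂ) • ∑ k, ((A⁻¹ k i : ℝ) : ℂ) • X k = X l := by
  have h1 : ∀ k, ∑ i, ((A⁻¹ k i : ℝ) : ℂ) * ((A i l : ℝ) : ℂ) = if k = l then 1 else 0 := by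
    intro k
    have h2 := congrFun (congrFun (Matrix.nonsing_inv_mul A hA.isUnit) k) l
    rw [Matrix.mul_apply] at h2
    have h3 := congrArg (fun r : ℝ => (r : ℂ)) h2
    simp only [Complex.ofReal_sum, Complex.ofReal_mul] at h3
    rw [h3, Matrix.one_apply]
    split_ifs <;> simp
  calc ∑ i, ((A i l : ℝ) : ℂ) • ∑ k, ((A⁻¹ k i : ℝ) : ℂ) • X k
      = ∑ k, (∑ i, ((A⁻¹ k i : ℝ) : ℂ) * ((A i l : ℝ) : ℂ)) • X k := by
        simp only [Finset.smul_sum, smul_smul, Finset.sum_smul]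
        rw [Finset.sum_comm]
        exact Finset.sum_congr rfl fun k _ => Finset.sum_congr rfl fun i _ => by rw [mul_comm]
    _ = X l := by
        simp only [h1, ite_smul, one_smul, zero_smul, Finset.sum_ite_eq', Finset.mem_univ, if_true]

theorem psl_e (c : ℝ) (A : Matrix (Fin n) (Fin n) ℝ) (v : V n) (s : MF n) (z : V n) (i j : Fin n) :
    psl c A v s z i j = c * ∑ k, A i k * ∑ l, s (fa A v z) k l * A j l := by
  unfold psl
  rw [Matrix.smul_apply, smul_eq_mul, Matrix.mul_assoc, Matrix.mul_apply]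
  congr 1

/-- Raising of an index. -/
theorem rai (hA : A.det ≠ 0) (c : ℝ) (v : V n) (s : MF n) (z : V n) (X : Fin n → W) (i : Fin n) :
    ∑ j, ((psl c A v s z i j : ℝ) : ℂ) • ∑ k, ((A⁻¹ k j : ℝ) : ℂ) • X k =
      (c : ℂ) • ∑ k, ((A i k : ℝ) : ℂ) • ∑ l, ((s (fa A v z) k l : ℝ) : ℂ) • X l := by
  have h1 : ∀ j, ((psl c A v s z i j : ℝ) : ℂ) • ∑ k, ((A⁻¹ k j : ℝ) : ℂ) • X k =
      (c : ℂ) • ∑ k, ((A i k : ℝ) : ℂ) • ∑ l, ((s (fa A v z) k l : ℝ) : ℂ) •
        ((A j l : ℝ) : ℂ) • ∑ m, ((A⁻¹ m j : ℝ) : ℂ) • X m := by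
    intro j
    rw [psl_e]
    push_cast
    rw [mul_smul, Finset.sum_smul]
    congr 1
    refine Finset.sum_congr rfl fun k _ => ?_
    rw [mul_smul, Finset.sum_smul]
    congr 1
    exact Finset.sum_congr rfl fun l _ => by rw [mul_smul]
  simp only [h1]
  rw [← Finset.smul_sum]
  congr 1
  rw [Finset.sum_comm]
  refine Finset.sum_congr rfl fun k _ => ?_
  rw [← Finset.smul_sum]
  congr 1
  rw [Finset.sum_comm]
  refine Finset.sum_congr rfl fun l _ => ?_
  rw [← Finset.smul_sum, ctr1 hA]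

end Alg

variable {A : Matrix (Fin n) (Fin n) ℝ}

/-! ### derivatives -/

theorem pdm_fa (A : Matrix (Fin n) (Fin n) ℝ) (v : V n) {F : MC n N} (hF : SmC F) (i : Fin n)
    (z : V n) : pdm i (pbM A v F) z = ∑ k, ((A⁻¹ k i : ℝ) : ℂ) • pdm k F (fa A v z) := by
  ext a b
  have h := pd_faF A v (f := fun x => F x a b) (x := z) (dfa (hF a b) _) i
  show pd i (fun z => F (fa A v z) a b) z = _
  rw [h, Matrix.sum_apply]
  refine Finset.sum_congr rfl fun k _ => ?_
  rw [Matrix.smul_apply]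
  rfl

theorem sm_pb (A : Matrix (Fin n) (Fin n) ℝ) (v : V n) {F : MC n N} (hF : SmC F) :
    SmC (pbM A v F) := fun a b => (hF a b).comp (fa_cd A v)

theorem sm_lo (A : Matrix (Fin n) (Fin n) ℝ) (v : V n) {G : Fin n → MC n N} (hG : ∀ i, SmC (G i))
    (i : Fin n) : SmC (loG A v G i) := by
  refine H605.smC_sum fun k => fun a b => ?_
  exact contDiff_const.mul ((hG k a b).comp (fa_cd A v))

/-- The divergence of a raised field. -/
theorem div_rai (hA : A.det ≠ 0) (c : ℝ) (v : V n) {F : Fin n → MC n N} (hF : ∀ k, SmC (F k))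
    (z : V n) : ∑ i, pdm i (fun y => (c : ℂ) • ∑ k, ((A i k : ℝ) : ℂ) • F k (fa A v y)) z =
      (c : ℂ) • ∑ k, pdm k (F k) (fa A v z) := by
  have h1 : ∀ i, pdm i (fun y => (c : ℂ) • ∑ k, ((A i k : ℝ) : ℂ) • F k (fa A v y)) z =
      (c : ℂ) • ∑ k, ((A i k : ℝ) : ℂ) • ∑ m, ((A⁻¹ m i : ℝ) : ℂ) • pdm m (F k) (fa A v z) := by
    intro i
    have h2 := H605.pdm_of_HD (H605.HD.smulc (c : ℂ) (H605.HD.sum fun k =>
      H605.HD.smulc ((A i k : ℝ) : ℂ) (H605.hd_pdm (sm_pb A v (hF k)) i))) z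
    refine h2.trans ?_
    congr 1
    refine Finset.sum_congr rfl fun k _ => ?_
    rw [pdm_fa A v (hF k)]
  simp only [h1]
  rw [← Finset.smul_sum, Finset.sum_comm]
  congr 1
  exact Finset.sum_congr rfl fun k _ => ctr1 hA (fun m => pdm m (F k) (fa A v z)) k

theorem kp_aff (hA : A.det ≠ 0) (c : ℝ) (v : V n) (s : MF n) (G : Fin n → MC n N) (i : Fin n)
    (z : V n) : kp (psl c A v s) (loG A v G) i z =
      (c : ℂ) • ∑ k, ((A i k : ℝ) : ℂ) • kp s G k (fa A v z) :=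
  rai hA c v s z (fun k => G k (fa A v z)) i

theorem dq_aff (hA : A.det ≠ 0) (c : ℝ) (v : V n) {s : MF n} (hs : SmM s) {G : Fin n → MC n N}
    (hG : ∀ i, SmC (G i)) (z : V n) : ∑ i, pdm i (kp (psl c A v s) (loG A v G) i) z =
      (c : ℂ) • ∑ k, pdm k (kp s G k) (fa A v z) := by
  have h1 : ∀ i, kp (psl c A v s) (loG A v G) i =
      fun z => (c : ℂ) • ∑ k, ((A i k : ℝ) : ℂ) • kp s G k (fa A v z) := fun i =>
    funext fun z => kp_aff hA c v s G i z
  simp only [h1]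
  exact div_rai hA c v (fun k => H605.smC_kp hs hG k) z

/-- The flux. -/
theorem fl_aff (hA : A.det ≠ 0) (c : ℝ) (v : V n) (s : MF n) (P : MC n N) {U : MC n N}
    (hU : SmC U) (i : Fin n) (z : V n) :
    ∑ j, TP (psl c A v s) (pbM A v P) i j z * pdm j (pbM A v U) z =
      (c : ℂ) • ∑ k, ((A i k : ℝ) : ℂ) • ∑ l, TP s P k l (fa A v z) * pdm l U (fa A v z) := by
  have h1 := rai hA c v s z (fun k => P (fa A v z) * pdm k U (fa A v z)) i
  have h2 : ∀ j, TP (psl c A v s) (pbM A v P) i j z * pdm j (pbM A v U) z =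
      ((psl c A v s z i j : ℝ) : ℂ) • ∑ k, ((A⁻¹ k j : ℝ) : ℂ) •
        (P (fa A v z) * pdm k U (fa A v z)) := by
    intro j
    rw [pdm_fa A v hU]
    unfold TP pbM
    rw [Matrix.smul_mul, Finset.mul_sum]
    congr 1
    exact Finset.sum_congr rfl fun k _ => by rw [Matrix.mul_smul]
  simp only [h2]
  rw [h1]
  congr 1
  refine Finset.sum_congr rfl fun k _ => ?_
  congr 1
  exact Finset.sum_congr rfl fun l _ => by unfold TP; rw [Matrix.smul_mul]

/-- **The operator.** -/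
theorem MoC_aff (hA : A.det ≠ 0) (c : ℝ) (v : V n) {s : MF n} (hs : SmM s) {P : MC n N}
    (hP : SmC P) {G : Fin n → MC n N} {U : MC n N} (hU : SmC U) (z : V n) :
    MoC (TP (psl c A v s) (pbM A v P)) (kp (psl c A v s) (loG A v G)) (pbM A v U) z =
      (c : ℂ) • MoC (TP s P) (kp s G) U (fa A v z) := by
  unfold MoC
  have h1 : ∀ i, (fun y => ∑ j, TP (psl c A v s) (pbM A v P) i j y * pdm j (pbM A v U) y) =
      fun z => (c : ℂ) • ∑ k, ((A i k : ℝ) : ℂ) •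
        (fun x => ∑ l, TP s P k l x * pdm l U x) (fa A v z) := fun i =>
    funext fun z => fl_aff hA c v s P hU i z
  simp only [h1]
  rw [div_rai hA c v (F := fun k x => ∑ l, TP s P k l x * pdm l U x)
    (fun k => H605.smC_sum fun l => SmC_mul (H605.smC_TP hs hP k l) (H605.smC_pdm hU l)) z,
    smul_add]
  congr 1
  have h2 : ∀ i, kp (psl c A v s) (loG A v G) i z * pdm i (pbM A v U) z =
      (c : ℂ) • ∑ k, kp s G k (fa A v z) * (((A i k : ℝ) : ℂ) •
        ∑ m, ((A⁻¹ m i : ℝ) : ℂ) • pdm m U (fa A v z)) := by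
    intro i
    rw [kp_aff hA, pdm_fa A v hU, Matrix.smul_mul, Finset.sum_mul]
    congr 1
    refine Finset.sum_congr rfl fun k _ => ?_
    rw [Matrix.smul_mul, Matrix.mul_smul]
  simp only [h2]
  rw [← Finset.smul_sum, Finset.sum_comm]
  congr 1
  refine Finset.sum_congr rfl fun k _ => ?_
  rw [← Finset.mul_sum, ctr1 hA (fun m => pdm m U (fa A v z)) k]

/-- The equation of `P`, left side. -/
theorem pe1_aff (hA : A.det ≠ 0) (c : ℝ) (v : V n) {s : MF n} (hs : SmM s) {P : MC n N}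
    (hP : SmC P) (z : V n) :
    ∑ i, pdm i (fun y => ∑ j, (psl c A v s y i j : ℂ) • pdm j (pbM A v P) y) z =
      (c : ℂ) • ∑ i, pdm i (fun y => ∑ j, (s y i j : ℂ) • pdm j P y) (fa A v z) := by
  have h1 : ∀ i, (fun y => ∑ j, (psl c A v s y i j : ℂ) • pdm j (pbM A v P) y) =
      fun z => (c : ℂ) • ∑ k, ((A i k : ℝ) : ℂ) •
        (fun x => ∑ l, (s x k l : ℂ) • pdm l P x) (fa A v z) := fun i => funext fun z => by
    have h2 := rai hA c v s z (fun k => pdm k P (fa A v z)) i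
    refine Eq.trans ?_ h2
    exact Finset.sum_congr rfl fun j _ => by rw [pdm_fa A v hP]
  simp only [h1]
  exact div_rai hA c v (F := fun k x => ∑ l, (s x k l : ℂ) • pdm l P x)
    (fun k => H605.smC_sum fun l => H605.smC_smulr (hs k l) (H605.smC_pdm hP l)) z

/-- The equation of `P`, right side. -/
theorem pe2_aff (hA : A.det ≠ 0) (c : ℝ) (v : V n) (s : MF n) {P : MC n N}
    (hP : SmC P) (G : Fin n → MC n N) (z : V n) :
    ∑ i, ∑ j, (psl c A v s z i j : ℂ) •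
      ((pdm i (pbM A v P) z - loG A v G i z) * (pbM A v P z)⁻¹ *
        (pdm j (pbM A v P) z + loG A v G j z)) =
      (c : ℂ) • ∑ i, ∑ j, (s (fa A v z) i j : ℂ) •
        ((pdm i P (fa A v z) - G i (fa A v z)) * (P (fa A v z))⁻¹ *
          (pdm j P (fa A v z) + G j (fa A v z))) := by
  obtain ⟨x, hx⟩ : ∃ x, x = fa A v z := ⟨_, rfl⟩
  have h1 : ∀ i, pdm i (pbM A v P) z - loG A v G i z =
      ∑ k, ((A⁻¹ k i : ℝ) : ℂ) • (pdm k P x - G k x) := by
    intro i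
    rw [pdm_fa A v hP, ← hx]
    unfold loG
    rw [← hx, ← Finset.sum_sub_distrib]
    exact Finset.sum_congr rfl fun k _ => by rw [smul_sub]
  have h2 : ∀ j, pdm j (pbM A v P) z + loG A v G j z =
      ∑ k, ((A⁻¹ k j : ℝ) : ℂ) • (pdm k P x + G k x) := by
    intro i
    rw [pdm_fa A v hP, ← hx]
    unfold loG
    rw [← hx, ← Finset.sum_add_distrib]
    exact Finset.sum_congr rfl fun k _ => by rw [smul_add]
  have h3 : ∀ i, ∑ j, (psl c A v s z i j : ℂ) •
      ((pdm i (pbM A v P) z - loG A v G i z) * (pbM A v P z)⁻¹ *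
        (pdm j (pbM A v P) z + loG A v G j z)) =
      (pdm i (pbM A v P) z - loG A v G i z) * (P x)⁻¹ *
        ((c : ℂ) • ∑ k, ((A i k : ℝ) : ℂ) • ∑ l, ((s x k l : ℝ) : ℂ) • (pdm l P x + G l x)) := by
    intro i
    have h4 := rai hA c v s z (fun k => pdm k P x + G k x) i
    rw [← hx] at h4
    rw [← h4, Finset.mul_sum]
    refine Finset.sum_congr rfl fun j _ => ?_
    rw [Matrix.mul_smul, ← h2 j]
    unfold pbM
    rw [← hx]
  simp only [h3]
  rw [← hx]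
  obtain ⟨Z, hZ⟩ : ∃ Z : Fin n → Matrix (Fin N) (Fin N) ℂ,
      Z = fun k => ∑ l, ((s x k l : ℝ) : ℂ) • (pdm l P x + G l x) := ⟨_, rfl⟩
  have h5 : ∀ i, (pdm i (pbM A v P) z - loG A v G i z) * (P x)⁻¹ *
        ((c : ℂ) • ∑ k, ((A i k : ℝ) : ℂ) • ∑ l, ((s x k l : ℝ) : ℂ) • (pdm l P x + G l x)) =
      (c : ℂ) • ∑ k, (((A i k : ℝ) : ℂ) • ∑ m, ((A⁻¹ m i : ℝ) : ℂ) • (pdm m P x - G m x)) *
        ((P x)⁻¹ * Z k) := by
    intro i
    rw [h1, Matrix.mul_smul, Finset.mul_sum]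
    congr 1
    refine Finset.sum_congr rfl fun k _ => ?_
    rw [Matrix.mul_smul, Matrix.smul_mul, Matrix.mul_assoc, hZ]
  simp only [h5]
  rw [← Finset.smul_sum, Finset.sum_comm]
  congr 1
  refine Finset.sum_congr rfl fun k _ => ?_
  rw [← Finset.sum_mul, ctr1 hA (fun m => pdm m P x - G m x) k, hZ]
  simp only [Finset.mul_sum, Matrix.mul_smul, Matrix.mul_assoc]

/-! ### columns -/

theorem pdv_fa (A : Matrix (Fin n) (Fin n) ℝ) (v : V n) {u : V n → Fin N → ℂ} {z : V n}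
    (hu : ∀ a, DifferentiableAt ℝ (fun x => u x a) (fa A v z)) (i : Fin n) :
    pdv i (fun y => u (fa A v y)) z = ∑ k, ((A⁻¹ k i : ℝ) : ℂ) • pdv k u (fa A v z) := by
  funext a
  have h := pd_faF A v (f := fun x => u x a) (x := z) (hu a) i
  show pd i (fun z => u (fa A v z) a) z = _
  rw [h, Finset.sum_apply]
  refine Finset.sum_congr rfl fun k _ => ?_
  rw [Pi.smul_apply]
  rfl

theorem pdv_af (A : Matrix (Fin n) (Fin n) ℝ) (v : V n) {u : V n → Fin N → ℂ} {x : V n}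
    (hu : ∀ a, DifferentiableAt ℝ (fun x => u x a) (af A v x)) (i : Fin n) :
    pdv i (fun y => u (af A v y)) x = ∑ k, ((A k i : ℝ) : ℂ) • pdv k u (af A v x) := by
  funext a
  have h := pd_afF A v (f := fun x => u x a) (x := x) (hu a) i
  show pd i (fun z => u (af A v z) a) x = _
  rw [h, Finset.sum_apply]
  refine Finset.sum_congr rfl fun k _ => ?_
  rw [Pi.smul_apply]
  rfl

end Vale.Agent.P088.R2.H794.S4
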