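import Vale.Agent.P088.R2.H794.S4.StN2
import Vale.Agent.P088.R2.H238.S3.Norm

/-!
# P088, stage 4: the touching point, cut-offs, smallness
-/

open MeasureTheory Set
open scoped ContDiff Matrix Topology

noncomputable section

namespace Vale.Agent.P088.R2.H794.S4

open Vale.Agent.P088.LR Vale.Agent.P088.LR.U Vale.Agent.P088.LR.H158
open Vale.Agent.P088.PJ
open Vale.Agent.P088.HY.T3 (Eb e0)
open Vale.Agent.P088.R2.H238.S3 Vale.Agent.P088.R2.H238.S3.A Vale.Agent.P088.R2.H238.S3.Nm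

variable {n N : ℕ}

/-- A function which vanishes on a ball touching `0` vanishes at `0`. -/
theorem touch {E : Type*} [TopologicalSpace E] [T2Space E] [Zero E] {g : V n → E} {a : V n}
    {r R : ℝ} (hR : 0 < R) (hr : 0 < r) (har : HY.sq a = r ^ 2) (hg : ContinuousAt g 0)
    (h0 : ∀ x ∈ Eb a r ∩ Eb 0 R, g x = 0) : g 0 = 0 := by
  have m0 : (0 : V n) ∈ Eb (0 : V n) R := by
    show HY.sq (0 - 0) < R ^ 2
    rw [sub_zero]
    have : HY.sq (0 : V n) = 0 := by unfold HY.sq; simp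
    rw [this]; positivity
  have k2 : Filter.Tendsto (fun τ : ℝ => τ • a) (𝓝[>] 0) (𝓝 0) := by
    have : Filter.Tendsto (fun τ : ℝ => τ • a) (𝓝 0) (𝓝 ((0 : ℝ) • a)) :=
      (continuous_id.smul continuous_const).tendsto 0
    rw [zero_smul] at this
    exact this.mono_left nhdsWithin_le_nhds
  have k3 := hg.tendsto.comp k2
  have k4 : ∀ᶠ τ : ℝ in 𝓝[>] 0, (g ∘ fun τ : ℝ => τ • a) τ = 0 := by
    have h0' : ∀ᶠ τ : ℝ in 𝓝[>] 0, 0 < τ := eventually_mem_nhdsWithin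
    have h1 : ∀ᶠ τ : ℝ in 𝓝[>] 0, τ < 1 :=
      (Filter.tendsto_id.mono_left nhdsWithin_le_nhds).eventually (gt_mem_nhds one_pos)
    have h2 : ∀ᶠ τ : ℝ in 𝓝[>] 0, τ • a ∈ Eb (0 : V n) R :=
      k2.eventually ((Eb_open 0 R).mem_nhds m0)
    filter_upwards [h0', h1, h2] with τ t0 t1 t2
    have h3 : τ • a ∈ Eb a r := by
      show HY.sq (τ • a - a) < r ^ 2
      have e : τ • a - a = (τ - 1) • a := by rw [sub_smul, one_smul]
      rw [e, sq_sm, har]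
      have : (τ - 1) ^ 2 < 1 := by nlinarith
      have hr2 : 0 < r ^ 2 := by positivity
      nlinarith
    exact h0 _ ⟨h3, t2⟩
  have k5 : Filter.Tendsto (g ∘ fun τ : ℝ => τ • a) (𝓝[>] 0) (𝓝 0) :=
    tendsto_const_nhds.congr' (by filter_upwards [k4] with τ h using h.symm)
  exact tendsto_nhds_unique k3 k5

section fd

variable {F : Type*} [NormedAddCommGroup F] [NormedSpace ℝ F]

/-- The derivative vanishes as well. -/
theorem touch1 {g : V n → F} {a : V n} {r R : ℝ} (hR : 0 < R) (hr : 0 < r)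
    (har : HY.sq a = r ^ 2) (hg : ContDiffOn ℝ ∞ g (Eb 0 R))
    (h0 : ∀ x ∈ Eb a r ∩ Eb 0 R, g x = 0) : g 0 = 0 ∧ fderiv ℝ g 0 = 0 := by
  have m0 : (0 : V n) ∈ Eb (0 : V n) R := by
    show HY.sq (0 - 0) < R ^ 2
    rw [sub_zero]
    have : HY.sq (0 : V n) = 0 := by unfold HY.sq; simp
    rw [this]; positivity
  refine ⟨touch hR hr har (hg.continuousOn.continuousAt ((Eb_open 0 R).mem_nhds m0)) h0, ?_⟩
  have h1 : ContDiffOn ℝ ∞ (fderiv ℝ g) (Eb 0 R) := hg.fderiv_of_isOpen (Eb_open 0 R) (by simp)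
  refine touch hR hr har (h1.continuousOn.continuousAt ((Eb_open 0 R).mem_nhds m0)) ?_
  intro x hx
  have h2 : g =ᶠ[𝓝 x] fun _ => 0 := by
    filter_upwards [((Eb_open a r).inter (Eb_open 0 R)).mem_nhds hx] with y hy using h0 y hy
  rw [h2.fderiv_eq]
  simp

theorem fd_of_pd {f : V n → F} (h : ∀ i, pd i f 0 = 0) : fderiv ℝ f 0 = 0 := by
  ext v
  have hv : v = ∑ i, v i • (Pi.single i (1 : ℝ) : V n) := by
    funext j
    rw [Finset.sum_apply]
    simp [Pi.single_apply]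
  rw [hv, map_sum]
  refine (Finset.sum_eq_zero fun i _ => ?_)
  rw [map_smul]
  have := h i
  unfold pd at this
  rw [this, smul_zero]

/-- The derivative of `χ f` at `0`, if `χ = 1` near `0`. -/
theorem fd_cut {χ : V n → ℝ} {f : V n → F} {r : ℝ} (hr : 0 < r) (h1 : ∀ x ∈ Eb (0 : V n) r, χ x = 1)
    (hf : fderiv ℝ f 0 = 0) : fderiv ℝ (fun x => χ x • f x) 0 = 0 := by
  have m0 : (0 : V n) ∈ Eb (0 : V n) r := by
    show HY.sq (0 - 0) < r ^ 2
    rw [sub_zero]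
    have : HY.sq (0 : V n) = 0 := by unfold HY.sq; simp
    rw [this]; positivity
  have h2 : (fun x => χ x • f x) =ᶠ[𝓝 0] f := by
    filter_upwards [(Eb_open 0 r).mem_nhds m0] with y hy
    rw [h1 y hy, one_smul]
  rw [h2.fderiv_eq, hf]

theorem cl_sm {k : ℕ} {a : ℝ} {f : V n → F} (hf : ContDiff ℝ ∞ f) (h : Cl k a f) (r : ℝ) :
    Cl k (|r| * a) (fun x => r • f x) := by
  intro l hl x
  have e : iteratedFDeriv ℝ l (fun x => r • f x) x = r • iteratedFDeriv ℝ l f x :=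
    iteratedFDeriv_const_smul_apply' (hf.contDiffAt.of_le (mod_cast le_top))
  rw [e, norm_smul, Real.norm_eq_abs]
  exact mul_le_mul_of_nonneg_left (h l hl x) (abs_nonneg r)

end fd

/-- The data of a zoom. -/
structure Zm (K : ℕ) (C L t : ℝ) (χ' : V n → ℝ) (Q : Matrix (Fin n) (Fin n) ℝ) : Prop where
  n0 : 0 < n
  Qd : Q.det ≠ 0
  t0 : 0 < t
  t1 : t * L ≤ 1
  L0 : 0 ≤ L
  hL : ‖lm Q⁻¹‖ ≤ L
  s' : ContDiff ℝ ∞ χ'
  c' : tsupport χ' ⊆ Eb 0 32
  hC : Cl K C χ'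

section zoom

variable {K : ℕ} {C L t : ℝ} {χ' : V n → ℝ} {Q : Matrix (Fin n) (Fin n) ℝ}
  {F : Type*} [NormedAddCommGroup F] [NormedSpace ℝ F]

theorem Zm.nrm (h : Zm K C L t χ' Q) : ‖lm (t⁻¹ • Q)⁻¹‖ ≤ t * L := by
  have e : lm (t⁻¹ • Q)⁻¹ = t • lm Q⁻¹ := by
    rw [inv_sP h.Qd h.t0]
    ext x : 1
    rw [lm_apply, smul_apply, lm_apply, Matrix.smul_mulVec]
  rw [e, norm_smul, Real.norm_of_nonneg h.t0.le]
  exact mul_le_mul_of_nonneg_left h.hL h.t0.le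

theorem Zm.sup (h : Zm K C L t χ' Q) (y : V n) (hy : y ∈ tsupport χ') : ‖y‖ ≤ 32 := by
  have h1 := h.c' hy
  unfold Eb at h1
  rw [mem_setOf_eq, sub_zero] at h1
  exact nm_le (by norm_num) h1.le

theorem Zm.dst (h : Zm K C L t χ' Q) {y : V n} (hy : ‖y‖ ≤ 32) : ‖y - e0 n‖ ≤ 33 := by
  have he : ‖e0 n‖ ≤ 1 := nm_le zero_le_one (by rw [sq_dot, e0_dot h.n0]; norm_num)
  exact (norm_sub_le _ _).trans (by linarith)

theorem Zm.C0 (h : Zm K C L t χ' Q) : 0 ≤ C := (norm_nonneg _).trans (h.hC 0 (by omega) 0)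

/-- A bounded function. -/
theorem Zm.z0 (h : Zm K C L t χ' Q) {f : V n → F} (hf : ContDiff ℝ ∞ f) {B : ℝ} (hB : Cl K B f) :
    Cl K (2 ^ K * (C * B)) (fun z => χ' z • f (fa (t⁻¹ • Q) (e0 n) z)) :=
  cl_cutF h.s' (hf.comp (fa_cd _ _)) h.hC h.sup
    (fun y _ l hl => near0 hf hB _ _ (h.nrm.trans h.t1) y l hl)
    ((norm_nonneg _).trans (hB 0 (by omega) 0))

/-- A function with a zero. -/
theorem Zm.z1 (h : Zm K C L t χ' Q) {f : V n → F} (hf : ContDiff ℝ ∞ f) {B : ℝ}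
    (hB : Cl (K + 1) B f) (hf0 : f 0 = 0) :
    Cl K (2 ^ K * (C * (B * (t * L) * 33))) (fun z => χ' z • f (fa (t⁻¹ • Q) (e0 n) z)) := by
  have hB0 : 0 ≤ B := (norm_nonneg _).trans (hB 0 (by omega) 0)
  have hL := h.L0
  have ht := h.t0
  exact cl_cutF h.s' (hf.comp (fa_cd _ _)) h.hC h.sup
    (fun y hy l hl => near1 hf hB hf0 _ _ h.nrm h.t1 (by norm_num) (h.dst hy) l hl)
    (by positivity)

/-- A function with a zero of second order. -/
theorem Zm.z2 (h : Zm K C L t χ' Q) {f : V n → F} (hf : ContDiff ℝ ∞ f) {B : ℝ}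
    (hB : Cl (K + 2) B f) (hf0 : f 0 = 0) (hf1 : fderiv ℝ f 0 = 0) :
    Cl K (2 ^ K * (C * (B * (t * L) ^ 2 * 33 ^ 2)))
      (fun z => χ' z • f (fa (t⁻¹ • Q) (e0 n) z)) := by
  have hB0 : 0 ≤ B := (norm_nonneg _).trans (hB 0 (by omega) 0)
  exact cl_cutF h.s' (hf.comp (fa_cd _ _)) h.hC h.sup
    (fun y hy l hl => near2 hf hB hf0 hf1 _ _ h.nrm h.t1 (by norm_num) (h.dst hy) l hl)
    (by positivity)

end zoom

/-- A bound for a finite family. -/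
theorem exB {ι : Type*} [Finite ι] {F : Type*} [NormedAddCommGroup F] [NormedSpace ℝ F]
    {f : ι → V n → F} (h : ∀ i, ContDiff ℝ ∞ (f i)) (hc : ∀ i, HasCompactSupport (f i)) (k : ℕ) :
    ∃ B : ℝ, 0 < B ∧ ∀ i, Cl k B (f i) := by
  haveI := Fintype.ofFinite ι
  have h1 : ∀ i, ∃ C > 0, Cl k C (f i) := fun i => cl_compactF (h i) (hc i) k
  choose C hC hC' using h1
  refine ⟨1 + ∑ i, C i, ?_, fun i => H605.cl_le' (hC' i) le_rfl ?_⟩
  · have : 0 ≤ ∑ i, C i := Finset.sum_nonneg fun i _ => (hC i).le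
    linarith
  · have : C i ≤ ∑ i, C i :=
      Finset.single_le_sum (f := C) (fun i _ => (hC i).le) (Finset.mem_univ i)
    linarith

end Vale.Agent.P088.R2.H794.S4
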