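import Vale.Agent.P088.R2.H794.S4.Nf

/-!
# P088, stage 4: the normalised data of one pair
-/

open MeasureTheory Set
open scoped ContDiff Matrix Topology

noncomputable section

namespace Vale.Agent.P088.R2.H794.S4

open Vale.Agent.P088.LR Vale.Agent.P088.LR.U Vale.Agent.P088.LR.H158
open Vale.Agent.P088.PJ
open Vale.Agent.P088.HY.T3 (Eb e0)
open Vale.Agent.P088.R2.H238.S3 Vale.Agent.P088.R2.H238.S3.A Vale.Agent.P088.R2.H238.S3.Nm
open Vale.Agent.P088.S4 (Da L1)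

variable {n N : ℕ}

/-- The cut-off in the chart. -/
structure Ct (R t : ℝ) (χ χ' : V n → ℝ) (Q : Matrix (Fin n) (Fin n) ℝ) : Prop where
  R0 : 0 < R
  c1 : ContDiff ℝ ∞ χ
  c2 : tsupport χ ⊆ Eb 0 R
  c3 : ∀ x ∈ Eb (0 : V n) (R / 2), χ x = 1
  d3 : ∀ x ∈ Eb (0 : V n) 24, χ' x = 1
  hin : ∀ z ∈ Eb (0 : V n) 24, px Q t z ∈ Eb (0 : V n) (R / 2)

section

variable {K : ℕ} {C L t R B δ q : ℝ} {χ' χ : V n → ℝ} {Q : Matrix (Fin n) (Fin n) ℝ}

theorem Ct.sub (c : Ct R t χ χ' Q) : Eb (0 : V n) (R / 2) ⊆ Eb 0 R :=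
  Eb_mono (by linarith [c.R0]) (by linarith [c.R0]) 0

theorem Ct.in' (c : Ct R t χ χ' Q) (z : V n) (hz : z ∈ Eb (0 : V n) 24) : px Q t z ∈ Eb 0 R :=
  c.sub (c.hin z hz)

theorem cM_on (c : Ct R t χ χ' Q) (P : MC n N) (S : Matrix (Fin N) (Fin N) ℂ) {x : V n}
    (hx : x ∈ Eb (0 : V n) (R / 2)) : cM χ P S x = P x - S := by
  unfold cM
  rw [c.c3 x hx, Complex.ofReal_one, one_smul]

theorem tP_on (c : Ct R t χ χ' Q) (P : MC n N) {x : V n} (hx : x ∈ Eb (0 : V n) (R / 2)) :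
    tP χ P x = P x := by
  unfold tP
  rw [cM_on c P 1 hx, add_sub_cancel]

theorem tS_on (c : Ct R t χ χ' Q) (S : Matrix (Fin n) (Fin n) ℝ) (s : MF n) {x : V n}
    (hx : x ∈ Eb (0 : V n) (R / 2)) : tS χ S s x = s x := by
  unfold tS
  rw [c.c3 x hx, one_smul, add_sub_cancel]

theorem cM_off (c : Ct R t χ χ' Q) (P : MC n N) (S : Matrix (Fin N) (Fin N) ℂ) {x : V n}
    (hx : x ∉ Eb (0 : V n) R) : cM χ P S x = 0 := by
  unfold cM
  rw [image_eq_zero_of_notMem_tsupport fun h => hx (c.c2 h), Complex.ofReal_zero, zero_smul]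

theorem sn_on (h : Zm K C L t χ' Q) (c : Ct R t χ χ' Q) (S : Matrix (Fin n) (Fin n) ℝ) (s : MF n)
    {z : V n} (hz : z ∈ Eb (0 : V n) 24) :
    sn χ' χ Q t s z = psl (t ^ 2) (t⁻¹ • Q) (e0 n) (tS χ S s) z := by
  rw [psl_P h.t0, tS_on c S s (c.hin z hz)]
  ext i j
  show (1 : Matrix (Fin n) (Fin n) ℝ) i j + χ' z * fs χ Q s i j (fa (t⁻¹ • Q) (e0 n) z) = _
  unfold fs
  rw [c.d3 z hz, c.c3 _ (c.hin z hz)]
  ring

theorem nP_on (c : Ct R t χ χ' Q) (P : MC n N) {z : V n} (hz : z ∈ Eb (0 : V n) 24) :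
    nP χ' χ Q t P z = pbM (t⁻¹ • Q) (e0 n) (tP χ P) z := by
  unfold nP pbM tP
  rw [c.d3 z hz, Complex.ofReal_one, one_smul]

theorem nG_on (c : Ct R t χ χ' Q) (G : Fin n → MC n N) (i : Fin n) {z : V n}
    (hz : z ∈ Eb (0 : V n) 24) :
    nG χ' χ Q t G i z = loG (t⁻¹ • Q) (e0 n) (fun k => cM χ (G k) 0) i z := by
  unfold nG loG
  simp only [c.d3 z hz, Complex.ofReal_one, one_smul]

theorem cM_h {P : MC n N} (c : Ct R t χ χ' Q) (hP : ∀ x ∈ Eb (0 : V n) R, (P x)ᴴ = P x) (x : V n) :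
    (cM χ P 1 x)ᴴ = cM χ P 1 x := by
  by_cases hx : x ∈ Eb (0 : V n) R
  · unfold cM
    rw [Matrix.conjTranspose_smul, Matrix.conjTranspose_sub, hP x hx, Matrix.conjTranspose_one]
    simp
  · rw [cM_off c P 1 hx, Matrix.conjTranspose_zero]

theorem cM_k {G : MC n N} (c : Ct R t χ χ' Q) (hG : ∀ x ∈ Eb (0 : V n) R, (G x)ᴴ = -G x) (x : V n) :
    (cM χ G 0 x)ᴴ = -cM χ G 0 x := by
  by_cases hx : x ∈ Eb (0 : V n) R
  · unfold cM
    rw [sub_zero, Matrix.conjTranspose_smul, hG x hx]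
    simp
  · rw [cM_off c G 0 hx, Matrix.conjTranspose_zero, neg_zero]

theorem sn_facts (h : Zm K C L t χ' Q) (c : Ct R t χ χ' Q) {s : MF n}
    (hs : ∀ i j, ContDiffOn ℝ ∞ (fun x => s x i j) (Eb 0 R))
    (hp : ∀ x ∈ Eb (0 : V n) R, (s x).PosDef) (h0 : Q * s 0 * Qᵀ = 1)
    (hB : ∀ i j, Cl (K + 1) B (fs χ Q s i j)) (e1 : 2 ^ K * (C * (B * (t * L) * 33)) ≤ δ) :
    SmM (sn χ' χ Q t s) ∧ (∀ x, (sn χ' χ Q t s x).IsSymm) ∧
    (∀ i j, Cl K δ (fun x => sn χ' χ Q t s x i j - (1 : Matrix (Fin n) (Fin n) ℝ) i j)) ∧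
    ∀ x ∉ Eb (0 : V n) 32, sn χ' χ Q t s x = 1 := by
  refine ⟨fun i j => ?_, fun x => ?_, fun i j => ?_, fun x hx => ?_⟩
  · show ContDiff ℝ ∞ fun z => (1 : Matrix (Fin n) (Fin n) ℝ) i j +
      χ' z * fs χ Q s i j (fa (t⁻¹ • Q) (e0 n) z)
    exact contDiff_const.add (h.s'.mul ((sm_fs c.c1 c.c2 Q hs i j).comp (fa_cd _ _)))
  · refine Matrix.IsSymm.ext fun i j => ?_
    show (1 : Matrix (Fin n) (Fin n) ℝ) j i + χ' x * fs χ Q s j i (fa (t⁻¹ • Q) (e0 n) x) =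
      (1 : Matrix (Fin n) (Fin n) ℝ) i j + χ' x * fs χ Q s i j (fa (t⁻¹ • Q) (e0 n) x)
    have e1 : (1 : Matrix (Fin n) (Fin n) ℝ) j i = (1 : Matrix (Fin n) (Fin n) ℝ) i j := by
      rw [Matrix.one_apply, Matrix.one_apply]; simp only [eq_comm]
    have e2 : ∀ y, fs χ Q s j i y = fs χ Q s i j y := by
      intro y
      unfold fs
      by_cases hy : y ∈ Eb (0 : V n) R
      · have hsy : (s y)ᵀ = s y := by
          have h := (hp y hy).isHermitian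
          unfold Matrix.IsHermitian at h
          rwa [Matrix.conjTranspose_eq_transpose_of_trivial] at h
        have h1 : (Q * s y * Qᵀ).IsSymm := by
          unfold Matrix.IsSymm
          rw [Matrix.transpose_mul, Matrix.transpose_mul, Matrix.transpose_transpose,
            hsy, Matrix.mul_assoc]
        rw [e1, h1.apply]
      · rw [image_eq_zero_of_notMem_tsupport fun h => hy (c.c2 h)]
        simp
    rw [e1, e2]
  · have e : (fun x => sn χ' χ Q t s x i j - (1 : Matrix (Fin n) (Fin n) ℝ) i j) =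
        fun x => χ' x • fs χ Q s i j (fa (t⁻¹ • Q) (e0 n) x) := by
      funext x
      show (1 : Matrix (Fin n) (Fin n) ℝ) i j + χ' x * fs χ Q s i j (fa (t⁻¹ • Q) (e0 n) x) - _ = _
      rw [smul_eq_mul]
      ring
    rw [e]
    have hf0 : fs χ Q s i j 0 = 0 := by
      unfold fs; rw [h0, sub_self, mul_zero]
    exact H605.cl_le' (h.z1 (sm_fs c.c1 c.c2 Q hs i j) (hB i j) hf0) le_rfl e1
  · ext i j
    show (1 : Matrix (Fin n) (Fin n) ℝ) i j + χ' x * fs χ Q s i j (fa (t⁻¹ • Q) (e0 n) x) = _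
    rw [image_eq_zero_of_notMem_tsupport fun h' => hx (h.c' h')]
    ring

/-- **One pair.** -/
theorem one_pair (h : Zm K C L t χ' Q) (c : Ct R t χ χ' Q) {s : MF n} {P : MC n N}
    {G : Fin n → MC n N} {Gs : Set (V n)} (hL : L1 (Eb 0 R) (Eb 0 R ∩ Gsᶜ) s P G)
    (hQ : Q * s 0 * Qᵀ = 1) (hP0 : P 0 = 1) (bS : ∀ i j, Cl (K + 1) B (fs χ Q s i j))
    (bP : ClC (K + 1) B (cM χ P 1)) (bG : ∀ i, ClC K B (cM χ (G i) 0))
    (hq : ∀ k i, |Q⁻¹ k i| ≤ q) (e1 : 2 ^ K * (C * (B * (t * L) * 33)) ≤ δ)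
    (e2 : n * (t * q * (2 ^ K * (C * B))) ≤ δ) :
    Da K δ (Eb 0 24 ∩ ((px Q t) ⁻¹' Gs)ᶜ) (sn χ' χ Q t s) (nP χ' χ Q t P) (nG χ' χ Q t G) := by
  obtain ⟨f1, f2, f3, -⟩ := sn_facts h c hL.ss hL.ps hQ bS e1
  have sP : SmC (cM χ P 1) := sm_cM c.c1 c.c2 hL.sP 1
  have sG : ∀ i, SmC (cM χ (G i) 0) := fun i => sm_cM c.c1 c.c2 (hL.sG i) 0
  have hA : (t⁻¹ • Q).det ≠ 0 := det_sP h.Qd h.t0
  have hinv : ∀ k i, (t⁻¹ • Q)⁻¹ k i = t * Q⁻¹ k i := fun k i => by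
    rw [inv_sP h.Qd h.t0]; rfl
  have sS := sm_tS c.c1 c.c2 hL.ss (s 0)
  have stP := sm_tP c.c1 c.c2 hL.sP
  refine ⟨f1, f2, ?_, fun z => ?_, fun i => ?_, fun i z => ?_, f3, ?_, fun i => ?_,
    fun z hz => ?_, fun z hz => ?_⟩
  · exact H605.smC_add H91.sm_one (sm_z h sP)
  · unfold nP
    rw [Matrix.conjTranspose_add, Matrix.conjTranspose_one, Matrix.conjTranspose_smul,
      cM_h c hL.hP]
    simp
  · exact sm_comb (F := fun k z => ((χ' z : ℝ) : ℂ) • cM χ (G k) 0 (px Q t z))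
      (fun k => sm_z h (sG k)) _
  · unfold nG
    rw [Matrix.conjTranspose_sum, ← Finset.sum_neg_distrib]
    refine Finset.sum_congr rfl fun k _ => ?_
    rw [Matrix.conjTranspose_smul, Matrix.conjTranspose_smul, cM_k c (hL.hG k)]
    simp
  · have e : (fun z => nP χ' χ Q t P z - 1) = fun z => ((χ' z : ℝ) : ℂ) • cM χ P 1 (px Q t z) := by
      funext z
      unfold nP
      rw [add_sub_cancel_left]
    rw [e]
    have h0 : cM χ P 1 0 = 0 := by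
      unfold cM; rw [hP0, sub_self, smul_zero]
    exact H605.clC_mono (cl_z1 h sP bP h0) le_rfl e1
  · refine H605.clC_mono (cl_comb (F := fun k z => ((χ' z : ℝ) : ℂ) • cM χ (G k) 0 (px Q t z))
      (fun k => sm_z h (sG k)) (fun k => cl_z0 h (sG k) (bG k)) (q := t * q) (fun k => ?_))
      le_rfl e2
    rw [hinv, abs_mul, abs_of_pos h.t0]
    exact mul_le_mul_of_nonneg_left (hq k i) h.t0.le
  · rw [dq_loc (Eb_open 0 24) (fun x hx => sn_on h c (s 0) s hx) (fun i x hx => nG_on c G i hx)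
      hz.1, dq_aff hA (t ^ 2) (e0 n) sS sG z,
      dq_loc (Eb_open 0 (R / 2)) (fun x hx => tS_on c (s 0) s hx) (G := G) (fun i x hx => by
        rw [cM_on c (G i) 0 hx, sub_zero]) (c.hin z hz.1),
      hL.dq _ ⟨c.in' z hz.1, hz.2⟩, smul_zero]
  · rw [pe1_loc (Eb_open 0 24) (fun x hx => sn_on h c (s 0) s hx) (fun x hx => nP_on c P hx)
      hz.1, pe1_aff hA (t ^ 2) (e0 n) sS stP z,
      pe1_loc (Eb_open 0 (R / 2)) (fun x hx => tS_on c (s 0) s hx) (fun x hx => tP_on c P hx)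
        (c.hin z hz.1), hL.pe _ ⟨c.in' z hz.1, hz.2⟩,
      pe2_loc (Eb_open 0 24) (fun x hx => sn_on h c (s 0) s hx) (fun x hx => nP_on c P hx)
        (fun i x hx => nG_on c G i hx) hz.1, pe2_aff hA (t ^ 2) (e0 n) _ stP,
      pe2_loc (Eb_open 0 (R / 2)) (fun x hx => tS_on c (s 0) s hx) (fun x hx => tP_on c P hx)
        (G := G) (fun i x hx => by rw [cM_on c (G i) 0 hx, sub_zero]) (c.hin z hz.1), smul_comm]

/-- The operator of one pair in the new coordinates. -/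
theorem mo_pair (h : Zm K C L t χ' Q) (c : Ct R t χ χ' Q) {s : MF n} {P : MC n N}
    {G : Fin n → MC n N} {E Gs : Set (V n)} (hL : L1 (Eb 0 R) E s P G) {U' : MC n N}
    {W W' : Fin n → MC n N} (sW : ∀ b, SmC (W' b)) {S : Fin n → Matrix (Fin N) (Fin N) ℂ}
    (hW : ∀ b, ∀ x ∈ Eb (0 : V n) (R / 2), W' b x = W b x - S b) (cc : Fin n → ℂ)
    (S' : Matrix (Fin N) (Fin N) ℂ)
    (hU : ∀ z ∈ Eb (0 : V n) 24, U' z = ∑ b, cc b • W' b (px Q t z) + S')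
    (hz0 : ∀ b, ∀ x ∈ Eb 0 R ∩ Gsᶜ, MoC (TP s P) (kp s G) (W b) x = 0) {z : V n}
    (hz : z ∈ Eb 0 24 ∩ ((px Q t) ⁻¹' Gs)ᶜ) :
    MoC (TP (sn χ' χ Q t s) (nP χ' χ Q t P)) (kp (sn χ' χ Q t s) (nG χ' χ Q t G)) U' z = 0 := by
  have sG : ∀ i, SmC (cM χ (G i) 0) := fun i => sm_cM c.c1 c.c2 (hL.sG i) 0
  have hA : (t⁻¹ • Q).det ≠ 0 := det_sP h.Qd h.t0
  have sS := sm_tS c.c1 c.c2 hL.ss (s 0)
  have stP := sm_tP c.c1 c.c2 hL.sP
  have sU : SmC (fun x => ∑ b, cc b • W' b x + S') :=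
    H605.smC_add (H605.smC_sum fun b => fun α β => contDiff_const.mul (sW b α β))
      (fun _ _ => contDiff_const)
  rw [mo_loc (Eb_open 0 24) (fun x hx => sn_on h c (s 0) s hx) (fun x hx => nP_on c P hx)
    (fun i x hx => nG_on c G i hx) (U := pbM (t⁻¹ • Q) (e0 n) (fun x => ∑ b, cc b • W' b x + S'))
    (fun x hx => hU x hx) hz.1,
    MoC_aff hA (t ^ 2) (e0 n) sS stP sU z,
    MoC_sum (fun i j => H605.smC_TP sS stP i j) _ sW cc S']
  have h1 : ∀ b, MoC (TP (tS χ (s 0) s) (tP χ P)) (kp (tS χ (s 0) s) fun k => cM χ (G k) 0) (W' b)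
      (fa (t⁻¹ • Q) (e0 n) z) = 0 := by
    intro b
    rw [mo_loc (Eb_open 0 (R / 2)) (fun x hx => tS_on c (s 0) s hx) (fun x hx => tP_on c P hx)
      (G := G) (fun i x hx => by rw [cM_on c (G i) 0 hx, sub_zero])
      (U := fun x => W b x - S b) (fun x hx => hW b x hx) (c.hin z hz.1), mo_subc]
    exact hz0 b _ ⟨c.in' z hz.1, hz.2⟩
  simp only [h1, smul_zero, Finset.sum_const_zero]

end

end Vale.Agent.P088.R2.H794.S4
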