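import Vale.Agent.P088.R2.H794.S4.Dp

/-!
# P088, stage 4: the normalised coordinate solutions, the transfer
-/

open MeasureTheory Set
open scoped ContDiff Matrix Topology

noncomputable section

namespace Vale.Agent.P088.R2.H794.S4

open Vale.Agent.P088.LR Vale.Agent.P088.LR.U Vale.Agent.P088.LR.H158
open Vale.Agent.P088.PJ
open Vale.Agent.P088.HY.T3 (Eb e0)
open Vale.Agent.P088.R2.H238.S3 Vale.Agent.P088.R2.H238.S3.A Vale.Agent.P088.R2.H238.S3.Nm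
open Vale.Agent.P088.S4 (Da L1 StpN)

variable {n N : ℕ}

section

variable {K : ℕ} {C L t R B δ q : ℝ} {χ' χ : V n → ℝ} {Q : Matrix (Fin n) (Fin n) ℝ}

theorem px_A (h : Zm K C L t χ' Q) (z : V n) (a : Fin n) :
    z a = ∑ b, (t⁻¹ • Q) a b * px Q t z b + e0 n a := by
  have h1 := congrFun (af_fa (det_sP h.Qd h.t0) (e0 n) z) a
  rw [← h1]
  rfl

theorem zA (h : Zm K C L t χ' Q) (z : V n) (a : Fin n) :
    ((z a : ℝ) : ℂ) • (1 : Matrix (Fin N) (Fin N) ℂ) =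
      ∑ b, (((t⁻¹ • Q) a b : ℝ) : ℂ) • (((px Q t z b : ℝ) : ℂ) • (1 : Matrix (Fin N) (Fin N) ℂ)) +
        ((e0 n a : ℝ) : ℂ) • 1 := by
  have h1 := px_A h z a
  rw [h1]
  push_cast
  rw [add_smul, Finset.sum_smul]
  congr 1
  exact Finset.sum_congr rfl fun b _ => by rw [mul_smul]

/-- `Y_b` cut off. -/
def tY (χ : V n → ℝ) (Y : Fin n → MC n N) (b : Fin n) : MC n N := fun x =>
  ((x b : ℝ) : ℂ) • 1 + cM χ (yx Y b) (Y b 0) x

theorem yx_sm {Y : Fin n → MC n N} (sY : ∀ i a b, ContDiffOn ℝ ∞ (fun x => Y i x a b) (Eb 0 R))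
    (b : Fin n) (α β : Fin N) : ContDiffOn ℝ ∞ (fun x => yx Y b x α β) (Eb 0 R) :=
  (sY b α β).sub (sm_xa b α β).contDiffOn

theorem sm_tY (c : Ct R t χ χ' Q) {Y : Fin n → MC n N}
    (sY : ∀ i a b, ContDiffOn ℝ ∞ (fun x => Y i x a b) (Eb 0 R)) (b : Fin n) : SmC (tY χ Y b) :=
  H605.smC_add (sm_xa b) (sm_cM c.c1 c.c2 (yx_sm sY b) _)

theorem tY_on (c : Ct R t χ χ' Q) (Y : Fin n → MC n N) (b : Fin n) {x : V n}
    (hx : x ∈ Eb (0 : V n) (R / 2)) : tY χ Y b x = Y b x - Y b 0 := by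
  unfold tY
  rw [cM_on c _ _ hx]
  unfold yx
  abel

theorem nY_on (h : Zm K C L t χ' Q) (c : Ct R t χ χ' Q) (Y : Fin n → MC n N) (a : Fin n) {z : V n}
    (hz : z ∈ Eb (0 : V n) 24) :
    nY χ' χ Q t Y a z = ∑ b, (((t⁻¹ • Q) a b : ℝ) : ℂ) • tY χ Y b (px Q t z) +
      ((e0 n a : ℝ) : ℂ) • 1 := by
  unfold nY tY
  rw [zA h z a]
  simp only [c.d3 z hz, Complex.ofReal_one, one_smul, smul_add, Finset.sum_add_distrib]
  abel

theorem nD_on (c : Ct R t χ χ' Q) (D : Fin n → MC n N) (a : Fin n) {z : V n}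
    (hz : z ∈ Eb (0 : V n) 24) :
    nD χ' χ Q t D a z = ∑ b, (((t⁻¹ • Q) a b : ℝ) : ℂ) • cM χ (D b) 0 (px Q t z) := by
  unfold nD
  simp only [c.d3 z hz, Complex.ofReal_one, one_smul]

theorem Y_facts (h : Zm K C L t χ' Q) (c : Ct R t χ χ' Q) {Y : Fin n → MC n N}
    (sY : ∀ i a b, ContDiffOn ℝ ∞ (fun x => Y i x a b) (Eb 0 R))
    (hY0 : ∀ a i, pdm i (Y a) 0 = if a = i then 1 else 0)
    (bY : ∀ b, ClC (K + 2) B (cM χ (yx Y b) (Y b 0))) (hq : ∀ a b, |Q a b| ≤ q)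
    (e3 : n * (t⁻¹ * q * (2 ^ K * (C * (B * (t * L) ^ 2 * 33 ^ 2)))) ≤ δ) (a : Fin n) :
    SmC (nY χ' χ Q t Y a) ∧ ClC K δ (fun z => nY χ' χ Q t Y a z - ((z a : ℝ) : ℂ) • 1) := by
  have s1 : ∀ b, SmC (cM χ (yx Y b) (Y b 0)) := fun b => sm_cM c.c1 c.c2 (yx_sm sY b) _
  have m0 : (0 : V n) ∈ Eb (0 : V n) (R / 2) := by
    show HY.sq (0 - 0) < (R / 2) ^ 2
    rw [sub_zero]
    have : HY.sq (0 : V n) = 0 := by unfold HY.sq; simp
    rw [this]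
    have := c.R0
    positivity
  have z0 : ∀ b, cM χ (yx Y b) (Y b 0) 0 = 0 := by
    intro b
    rw [cM_on c _ _ m0]
    unfold yx
    simp
  have z1 : ∀ b α β, fderiv ℝ (fun x => cM χ (yx Y b) (Y b 0) x α β) 0 = 0 := by
    intro b α β
    have e : (fun x => cM χ (yx Y b) (Y b 0) x α β) = fun x => χ x • ((yx Y b x - Y b 0) α β) := by
      funext x
      unfold cM
      rw [Matrix.smul_apply, smul_eq_mul, Complex.real_smul]
    rw [e]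
    refine fd_cut (half_pos c.R0) c.c3 (fd_of_pd fun i => ?_)
    have e2 : (fun x => (yx Y b x - Y b 0) α β) = fun x =>
        (Y b x α β - ((x b : ℝ) : ℂ) * (1 : Matrix (Fin N) (Fin N) ℂ) α β) - Y b 0 α β := by
      funext x
      unfold yx
      rw [Matrix.sub_apply, Matrix.sub_apply, Matrix.smul_apply, smul_eq_mul]
    rw [e2]
    have d1 : DifferentiableAt ℝ (fun x => Y b x α β) 0 :=
      ((sY b α β).contDiffAt ((Eb_open 0 R).mem_nhds (c.sub m0))).differentiableAt (by simp)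
    have d2 : DifferentiableAt ℝ (fun x : V n => ((x b : ℝ) : ℂ) *
        (1 : Matrix (Fin N) (Fin N) ℂ) α β) 0 := dfa (sm_xa b α β) 0
    have d3 : DifferentiableAt ℝ (fun x : V n => Y b x α β - ((x b : ℝ) : ℂ) *
        (1 : Matrix (Fin N) (Fin N) ℂ) α β) 0 := d1.sub d2
    rw [pd_sub d3 (differentiableAt_const (Y b 0 α β)) i, pd_sub d1 d2 i, pd_const, pd_xa,
      sub_zero]
    have h2 := congrFun (congrFun (hY0 b i) α) β
    have h3 : pd i (fun x => Y b x α β) 0 = pdm i (Y b) 0 α β := rfl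
    rw [h3, h2]
    by_cases hbi : b = i
    · subst hbi; simp
    · rw [if_neg hbi, if_neg fun h => hbi h.symm]; simp
  have s2 : ∀ b, SmC (fun z => ((χ' z : ℝ) : ℂ) • cM χ (yx Y b) (Y b 0) (px Q t z)) := fun b =>
    sm_z h (s1 b)
  refine ⟨H605.smC_add (sm_xa a) (sm_comb s2 _), ?_⟩
  have e : (fun z => nY χ' χ Q t Y a z - ((z a : ℝ) : ℂ) • 1) = fun z =>
      ∑ b, (((t⁻¹ • Q) a b : ℝ) : ℂ) • ((χ' z : ℝ) : ℂ) • cM χ (yx Y b) (Y b 0) (px Q t z) := by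
    funext z
    unfold nY
    rw [add_sub_cancel_left]
  rw [e]
  refine H605.clC_mono (cl_comb s2 (fun b => cl_z2 h (s1 b) (bY b) (z0 b) (z1 b))
    (q := t⁻¹ * q) (fun b => ?_)) le_rfl e3
  have ht := h.t0
  rw [Matrix.smul_apply, smul_eq_mul, abs_mul, abs_of_pos (inv_pos.2 ht)]
  exact mul_le_mul_of_nonneg_left (hq a b) (inv_pos.2 ht).le

theorem D_facts (h : Zm K C L t χ' Q) (c : Ct R t χ χ' Q) {D : Fin n → MC n N}
    (sD : ∀ i a b, ContDiffOn ℝ ∞ (fun x => D i x a b) (Eb 0 R))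
    (hD0 : ∀ a α β, D a 0 α β = 0 ∧ fderiv ℝ (fun x => D a x α β) 0 = 0)
    (bD : ∀ b, ClC (K + 2) B (cM χ (D b) 0)) (hq : ∀ a b, |Q a b| ≤ q)
    (e3 : n * (t⁻¹ * q * (2 ^ K * (C * (B * (t * L) ^ 2 * 33 ^ 2)))) ≤ δ) (a : Fin n) :
    SmC (nD χ' χ Q t D a) ∧ ClC K δ (nD χ' χ Q t D a) := by
  have s1 : ∀ b, SmC (cM χ (D b) 0) := fun b => sm_cM c.c1 c.c2 (sD b) _
  have m0 : (0 : V n) ∈ Eb (0 : V n) (R / 2) := by
    show HY.sq (0 - 0) < (R / 2) ^ 2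
    rw [sub_zero]
    have : HY.sq (0 : V n) = 0 := by unfold HY.sq; simp
    rw [this]
    have := c.R0
    positivity
  have z0 : ∀ b, cM χ (D b) 0 0 = 0 := by
    intro b
    rw [cM_on c _ _ m0, sub_zero]
    ext α β
    exact (hD0 b α β).1
  have z1 : ∀ b α β, fderiv ℝ (fun x => cM χ (D b) 0 x α β) 0 = 0 := by
    intro b α β
    have e : (fun x => cM χ (D b) 0 x α β) = fun x => χ x • (D b x α β) := by
      funext x
      unfold cM
      rw [sub_zero, Matrix.smul_apply, smul_eq_mul, Complex.real_smul]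
    rw [e]
    exact fd_cut (half_pos c.R0) c.c3 (hD0 b α β).2
  have s2 : ∀ b, SmC (fun z => ((χ' z : ℝ) : ℂ) • cM χ (D b) 0 (px Q t z)) := fun b =>
    sm_z h (s1 b)
  refine ⟨sm_comb s2 _, ?_⟩
  refine H605.clC_mono (cl_comb s2 (fun b => cl_z2 h (s1 b) (bD b) (z0 b) (z1 b))
    (q := t⁻¹ * q) (fun b => ?_)) le_rfl e3
  have ht := h.t0
  rw [Matrix.smul_apply, smul_eq_mul, abs_mul, abs_of_pos (inv_pos.2 ht)]
  exact mul_le_mul_of_nonneg_left (hq a b) (inv_pos.2 ht).le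

/-! ### off the ball -/

theorem off_all (h : Zm K C L t χ' Q) (P : MC n N) (G Y D : Fin n → MC n N) {x : V n}
    (hx : x ∉ Eb (0 : V n) 32) : nP χ' χ Q t P x = 1 ∧ (∀ i, nG χ' χ Q t G i x = 0) ∧
      (∀ a, nD χ' χ Q t D a x = 0) ∧ ∀ a, nY χ' χ Q t Y a x = ((x a : ℝ) : ℂ) • 1 := by
  have h0 : χ' x = 0 := image_eq_zero_of_notMem_tsupport fun h' => hx (h.c' h')
  unfold nP nG nD nY
  simp only [h0, Complex.ofReal_zero, zero_smul, smul_zero, Finset.sum_const_zero, add_zero,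
    implies_true, and_self]

theorem off_b (h : Zm K C L t χ' Q) (s : MF n) (Y : Fin n → MC n N) {x : V n}
    (hx : x ∉ Eb (0 : V n) 32) (b : Fin n) (hs : ∀ a, SmC (nY χ' χ Q t Y a)) :
    btY s (nY χ' χ Q t Y) b x = 0 := by
  have hO : IsOpen (tsupport χ')ᶜ := (isClosed_tsupport χ').isOpen_compl
  have hx' : x ∈ (tsupport χ')ᶜ := fun h' => hx (h.c' h')
  have h1 : ∀ a, ∀ y ∈ (tsupport χ')ᶜ, nY χ' χ Q t Y a y - ((y a : ℝ) : ℂ) • 1 = 0 := by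
    intro a y hy
    have h0 : χ' y = 0 := image_eq_zero_of_notMem_tsupport hy
    unfold nY
    simp only [h0, Complex.ofReal_zero, zero_smul, smul_zero, Finset.sum_const_zero, add_zero,
      sub_self]
  have h2 : ∀ a i j, pdm i (pdm j (nY χ' χ Q t Y a)) x = 0 := by
    intro a i j
    rw [pdm2_Y hs i j a]
    have h3 : ∀ y ∈ (tsupport χ')ᶜ, pdm j (fun x => nY χ' χ Q t Y a x - ((x a : ℝ) : ℂ) • 1) y =
        0 := by
      intro y hy
      rw [pdm_congr hO (Q := fun _ => 0) (h1 a) hy j, pdm_const]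
    rw [pdm_congr hO (Q := fun _ => 0) h3 hx' i, pdm_const]
  unfold btY d2Y
  simp only [h2, smul_zero, Finset.sum_const_zero, Matrix.zero_mul, neg_zero]

/-! ### the transfer -/

theorem TP_ra (c : ℝ) (A : Matrix (Fin n) (Fin n) ℝ) (v : V n) (s : MF n) (P : MC n N)
    (i j : Fin n) (z : V n) :
    TP (psl c A v s) (pbM A v P) i j z = raT c A v (TP s P) i j z := by
  unfold TP raT ra2 pbM
  rw [psl_e]
  push_cast
  rw [mul_smul, Finset.sum_smul]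
  congr 1
  refine Finset.sum_congr rfl fun k _ => ?_
  rw [mul_smul, Finset.sum_smul]
  congr 1
  refine Finset.sum_congr rfl fun l _ => ?_
  rw [smul_smul, mul_comm]

theorem stp_all (h : Zm K C L t χ' Q) (c : Ct R t χ χ' Q) {s₁ s₂ : MF n} {P₁ P₂ : MC n N}
    {G₁ G₂ : Fin n → MC n N} {E Gs : Set (V n)} (oG : IsOpen Gs) (h₁ : L1 (Eb 0 R) E s₁ P₁ G₁)
    (hst : StpN (Eb 0 R) Gs (TP s₁ P₁) (kp s₁ G₁) (TP s₂ P₂) (kp s₂ G₂)) :
    StpN (Eb 0 24) ((px Q t) ⁻¹' Gs) (TP (sn χ' χ Q t s₁) (nP χ' χ Q t P₁))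
      (kp (sn χ' χ Q t s₁) (nG χ' χ Q t G₁)) (TP (sn χ' χ Q t s₂) (nP χ' χ Q t P₂))
      (kp (sn χ' χ Q t s₂) (nG χ' χ Q t G₂)) := by
  have hA : (t⁻¹ • Q).det ≠ 0 := det_sP h.Qd h.t0
  have oG' : IsOpen ((px Q t) ⁻¹' Gs) := oG.preimage (fa_c (t⁻¹ • Q) (e0 n))
  have k1 := stpN_res (Eb_open 0 R) oG.measurableSet c.sub hst
  have k2 : StpN (Eb 0 (R / 2)) Gs (TP (tS χ (s₁ 0) s₁) (tP χ P₁))
      (kp (tS χ (s₁ 0) s₁) (fun k => cM χ (G₁ k) 0)) (TP (tS χ (s₂ 0) s₂) (tP χ P₂))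
      (kp (tS χ (s₂ 0) s₂) (fun k => cM χ (G₂ k) 0)) := by
    refine stpN_congr (Eb_open 0 (R / 2)) oG.measurableSet (fun i l x hx => ?_)
      (fun i l x hx => ?_) (fun i x hx => ?_) (fun i x hx => ?_) k1
    · unfold TP; rw [tS_on c _ _ hx, tP_on c _ hx]
    · unfold TP; rw [tS_on c _ _ hx, tP_on c _ hx]
    · unfold kp; simp only [tS_on c _ _ hx, cM_on c _ _ hx, sub_zero]
    · unfold kp; simp only [tS_on c _ _ hx, cM_on c _ _ hx, sub_zero]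
  have sS := sm_tS c.c1 c.c2 h₁.ss (s₁ 0)
  have stP := sm_tP c.c1 c.c2 h₁.sP
  have ht := h.t0
  have k3 := stpN_aff hA (e0 n) (by positivity : (0 : ℝ) < t ^ 2) (Eb_open 0 (R / 2))
    (fun i j => H605.smC_TP sS stP i j) k2
  have k4 := stpN_res (D₁ := Eb 0 24) ((Eb_open 0 (R / 2)).preimage (fa_c (t⁻¹ • Q) (e0 n)))
    oG'.measurableSet (fun z hz => c.hin z hz) k3
  refine stpN_congr (Eb_open 0 24) oG'.measurableSet (fun i l x hx => ?_)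
      (fun i l x hx => ?_) (fun i x hx => ?_) (fun i x hx => ?_) k4
  · rw [← TP_ra]
    unfold TP
    rw [sn_on h c (s₁ 0) s₁ hx, nP_on c P₁ hx]
  · rw [← TP_ra]
    unfold TP
    rw [sn_on h c (s₂ 0) s₂ hx, nP_on c P₂ hx]
  · have e := kp_aff hA (t ^ 2) (e0 n) (tS χ (s₁ 0) s₁) (fun k => cM χ (G₁ k) 0) i x
    refine Eq.trans ?_ e
    unfold kp
    simp only [sn_on h c (s₁ 0) s₁ hx, nG_on c G₁ _ hx]
  · have e := kp_aff hA (t ^ 2) (e0 n) (tS χ (s₂ 0) s₂) (fun k => cM χ (G₂ k) 0) i x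
    refine Eq.trans ?_ e
    unfold kp
    simp only [sn_on h c (s₂ 0) s₂ hx, nG_on c G₂ _ hx]

end

end Vale.Agent.P088.R2.H794.S4
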