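import Vale.Agent.P088.R2.H794.S4.Ig
import Vale.Agent.P088.R2.H605.V.Kla
import Vale.Agent.P088.R2.H455.S4.SpecN

/-!
# P088, stage 4: `β`, `Γ`, `τ` of a normalised situation
-/

open MeasureTheory Set
open scoped ContDiff Matrix Topology

noncomputable section

namespace Vale.Agent.P088.R2.H794.S4

open Vale.Agent.P088.LR Vale.Agent.P088.LR.U Vale.Agent.P088.LR.H158
open Vale.Agent.P088.PJ

variable {n N : ℕ}

/-- `∑ s_ij ∂_i ∂_j Y`. -/
def d2Y (s : MF n) (Y : MC n N) : MC n N := fun x =>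
  ∑ i, ∑ j, (s x i j : ℂ) • pdm i (pdm j Y) x

/-- `β_b = -∑_a (∑ s_ij ∂_i ∂_j Y_a) Γ_ab`. -/
def btY (s : MF n) (Y : Fin n → MC n N) (b : Fin n) : MC n N := fun x =>
  -∑ a, d2Y s (Y a) x * gmY Y a b x

theorem btY_L (s : MF n) {Y : Fin n → MC n N} {x : V n} (h : IsUnit (bkY Y x).det) (c : Fin n) :
    ∑ i, ∑ j, (s x i j : ℂ) • pdm i (pdm j (Y c)) x + ∑ i, btY s Y i x * pdm i (Y c) x = 0 := by
  have h1 : ∑ i, btY s Y i x * pdm i (Y c) x = -d2Y s (Y c) x := by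
    unfold btY
    simp only [Matrix.neg_mul, Finset.sum_neg_distrib, Finset.sum_mul]
    rw [Finset.sum_comm]
    have h2 : ∀ a, ∑ i, d2Y s (Y a) x * gmY Y a i x * pdm i (Y c) x =
        d2Y s (Y a) x * if a = c then 1 else 0 := fun a => by
      rw [← gm_ri h a c, Finset.mul_sum]
      exact Finset.sum_congr rfl fun i _ => by rw [Matrix.mul_assoc]
    simp only [h2, mul_ite, mul_one, mul_zero, Finset.sum_ite_eq', Finset.mem_univ, if_true]
  rw [h1]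
  exact add_neg_cancel _

theorem btY_bL {s : MF n} (hs : SmM s) {P : MC n N} (hP : SmC P) (G : Fin n → MC n N)
    {Y : Fin n → MC n N} (hY : ∀ a, SmC (Y a)) {x : V n} (hu : IsUnit (P x).det)
    (h : IsUnit (bkY Y x).det) (hM : ∀ a, MoC (TP s P) (kp s G) (Y a) x = 0) (b : Fin n) :
    btY s Y b x = bL s P G b x := by
  have h1 : ∀ a, d2Y s (Y a) x = -∑ i, bL s P G i x * pdm i (Y a) x := by
    intro a
    have h2 := hM a
    rw [H605.MoC_eq hs hP G (hY a) hu] at h2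
    have h3 : H605.Lc s (bL s P G) (Y a) x = 0 := by
      have h4 := congrArg (fun A => (P x)⁻¹ * A) h2
      simp only [Matrix.mul_zero] at h4
      rw [← Matrix.mul_assoc, Matrix.nonsing_inv_mul _ hu, Matrix.one_mul] at h4
      exact h4
    exact eq_neg_of_add_eq_zero_left h3
  unfold btY
  simp only [h1, Matrix.neg_mul, Finset.sum_neg_distrib, neg_neg, Finset.sum_mul]
  rw [Finset.sum_comm]
  have h2 : ∀ i, ∑ a, bL s P G i x * pdm i (Y a) x * gmY Y a b x =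
      bL s P G i x * if i = b then 1 else 0 := fun i => by
    rw [← gm_li h i b, Finset.mul_sum]
    exact Finset.sum_congr rfl fun a _ => by rw [Matrix.mul_assoc]
  simp only [h2, mul_ite, mul_one, mul_zero, Finset.sum_ite_eq', Finset.mem_univ, if_true]

theorem sm_xa (a : Fin n) : SmC (fun x : V n => ((x a : ℝ) : ℂ) • (1 : Matrix (Fin N) (Fin N) ℂ)) :=
  fun _ _ => (Complex.ofRealCLM.contDiff.comp (contDiff_apply ℝ ℝ a)).mul contDiff_const

theorem pdm_xa (i a : Fin n) (x : V n) :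
    pdm i (fun x : V n => ((x a : ℝ) : ℂ) • (1 : Matrix (Fin N) (Fin N) ℂ)) x =
      if i = a then 1 else 0 := by
  ext α β
  have h := pd_xa i a ((1 : Matrix (Fin N) (Fin N) ℂ) α β) x
  show pd i (fun x : V n => ((x a : ℝ) : ℂ) * (1 : Matrix (Fin N) (Fin N) ℂ) α β) x = _
  rw [h]
  split_ifs <;> rfl

theorem pdm2_Y {Y : Fin n → MC n N} (hY : ∀ a, SmC (Y a)) (i j a : Fin n) :
    pdm i (pdm j (Y a)) = pdm i (pdm j fun x => Y a x - ((x a : ℝ) : ℂ) • 1) := by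
  have h1 : pdm j (fun x => Y a x - ((x a : ℝ) : ℂ) • 1) = fun x => pdm j (Y a) x -
      (if j = a then 1 else 0) := by
    funext x
    rw [H605.pdm_of_HD ((H605.hd_pdm (hY a) j).sub (H605.hd_pdm (sm_xa a) j)) x, pdm_xa]
  rw [h1, H605.pdm_sub_const]

theorem sm_d2 {s : MF n} (hs : SmM s) {Y : MC n N} (hY : SmC Y) : SmC (d2Y s Y) :=
  H605.smC_sum fun i => H605.smC_sum fun j => H605.smC_smulr (hs i j)
    (H605.smC_pdm (H605.smC_pdm hY j) i)

theorem sm_gm {Y : Fin n → MC n N} {k : ℕ} {δ : ℝ} (h : Vale.Agent.P088.S4.IG k δ Y (gmY Y))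
    (a b : Fin n) : SmC (gmY Y a b) := h.sm a b

theorem sm_bt {s : MF n} (hs : SmM s) {Y : Fin n → MC n N} (hY : ∀ a, SmC (Y a))
    (hg : ∀ a b, SmC (gmY Y a b)) (b : Fin n) : SmC (btY s Y b) := by
  have h1 : SmC (fun x => ∑ a, d2Y s (Y a) x * gmY Y a b x) :=
    H605.smC_sum fun a => SmC_mul (sm_d2 hs (hY a)) (hg a b)
  exact fun α β => (h1 α β).neg

/-- The inverse of a real matrix function near `1`. -/
theorem ex_tau (n k : ℕ) : ∃ δ₀ : ℝ, 0 < δ₀ ∧ ∀ s : MF n, SmM s →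
    (∀ i j, Cl k δ₀ (fun x => s x i j - (1 : Matrix (Fin n) (Fin n) ℝ) i j)) →
    ∃ τ : MF n, SmM τ ∧ ∀ x, s x * τ x = 1 := by
  obtain ⟨C, ε₀, hC, hε, h⟩ := H91.inv n n k
  refine ⟨ε₀, hε, fun s hs hcl => ?_⟩
  obtain ⟨S, hS⟩ : ∃ S : MC n n, S = fun x => (s x).map (fun r : ℝ => (r : ℂ)) := ⟨_, rfl⟩
  have hSe : ∀ x i j, S x i j = ((s x i j : ℝ) : ℂ) := fun x i j => by rw [hS]; rfl
  have hS1 : SmC S := fun i j => by
    simp only [hSe]
    exact Complex.ofRealCLM.contDiff.comp (hs i j)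
  have hS2 : ClC k ε₀ (fun x => S x - 1) := by
    intro i j
    have e : (fun x => (S x - 1) i j) =
        fun x => ((s x i j - (1 : Matrix (Fin n) (Fin n) ℝ) i j : ℝ) : ℂ) := by
      funext x
      rw [Matrix.sub_apply, hSe, Complex.ofReal_sub]
      congr 1
      by_cases hij : i = j
      · subst hij; simp
      · simp [Matrix.one_apply_ne hij]
    rw [e]
    exact H605.cl_ofR ((hs i j).sub contDiff_const) (hcl i j)
  obtain ⟨h1, h2, -⟩ := h S hS1 ε₀ hε.le le_rfl hS2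
  refine ⟨fun x => Matrix.of fun i j => ((S x)⁻¹ i j).re, fun i j => ?_, fun x => ?_⟩
  · exact Complex.reCLM.contDiff.comp (h2 i j)
  · have h3 := Matrix.mul_nonsing_inv (S x) (h1 x)
    ext i j
    have h4 := congrFun (congrFun h3 i) j
    rw [Matrix.mul_apply] at h4 ⊢
    have h5 := congrArg Complex.re h4
    rw [Complex.re_sum] at h5
    have h6 : ((1 : Matrix (Fin n) (Fin n) ℂ) i j).re = (1 : Matrix (Fin n) (Fin n) ℝ) i j := by
      by_cases hij : i = j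
      · subst hij; simp
      · simp [Matrix.one_apply_ne hij]
    rw [h6] at h5
    rw [← h5]
    refine Finset.sum_congr rfl fun l _ => ?_
    rw [hSe, Complex.re_ofReal_mul]
    rfl

theorem clC_nearC {k : ℕ} {δ : ℝ} {P : MC n N} {C : Matrix (Fin N) (Fin N) ℂ} (hP : SmC P)
    (hC : ∀ α β, ‖C α β‖ ≤ 1) (h : ClC k δ (fun x => P x - C)) : ClC k (1 + δ) P := by
  intro α β
  have h0 : ContDiff ℝ ∞ (fun x => (P x - C) α β) := (hP α β).sub contDiff_const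
  have h1 := H91.cl_add2 h0 (contDiff_const (c := C α β)) (h α β)
    (H605.cl_cst (k := k) (hC α β))
  have e : (fun x => P x α β) = fun x => (P x - C) α β + C α β := by
    funext x
    rw [Matrix.sub_apply, sub_add_cancel]
  rw [e]
  exact H605.cl_le' h1 le_rfl (by linarith)

/-- `β`, `Γ`, `τ`. -/
theorem fill (n N k : ℕ) {ε : ℝ} (hε : 0 < ε) : ∃ δ₁ : ℝ, 0 < δ₁ ∧ δ₁ ≤ ε ∧
    ∀ (s : MF n) (Y : Fin n → MC n N), SmM s →
    (∀ i j, Cl k δ₁ (fun x => s x i j - (1 : Matrix (Fin n) (Fin n) ℝ) i j)) →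
    (∀ a, SmC (Y a)) → (∀ a, ClC (k + 2) δ₁ (fun x => Y a x - (x a : ℂ) • 1)) →
    (∀ x, IsUnit (bkY Y x).det) ∧ Vale.Agent.P088.S4.IG k ε Y (gmY Y) ∧
    (∀ b, SmC (btY s Y b)) ∧ (∀ b, ClC k ε (btY s Y b)) ∧
    (∃ τ : MF n, SmM τ ∧ ∀ x, s x * τ x = 1) ∧
    ∀ P : MC n N, SmC P → ClC k δ₁ (fun x => P x - 1) → ∀ x, IsUnit (P x).det := by
  obtain ⟨C₁, ε₁, hC₁, hε₁, h1⟩ := ex_IG n N k
  obtain ⟨ε₂, hε₂, h2⟩ := ex_tau n k
  obtain ⟨C₃, ε₃, hC₃, hε₃, h3⟩ := H91.inv n N k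
  obtain ⟨B, hB⟩ : ∃ B : ℝ, B = n * (N * (2 ^ k * (n * (n * (2 ^ k * 2)) * (2 + C₁)))) := ⟨_, rfl⟩
  have hB0 : 0 ≤ B := by rw [hB]; positivity
  obtain ⟨δ₁, hδ₁⟩ : ∃ δ₁ : ℝ, δ₁ = min (min (min ε₁ ε₂) (min ε₃ 1))
      (min ε (min (ε / C₁) (ε / (B + 1)))) := ⟨_, rfl⟩
  have d1 : δ₁ ≤ ε₁ := by
    rw [hδ₁]; exact (min_le_left _ _).trans ((min_le_left _ _).trans (min_le_left _ _))
  have d2 : δ₁ ≤ ε₂ := by
    rw [hδ₁]; exact (min_le_left _ _).trans ((min_le_left _ _).trans (min_le_right _ _))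
  have d3 : δ₁ ≤ ε₃ := by
    rw [hδ₁]; exact (min_le_left _ _).trans ((min_le_right _ _).trans (min_le_left _ _))
  have d4 : δ₁ ≤ 1 := by
    rw [hδ₁]; exact (min_le_left _ _).trans ((min_le_right _ _).trans (min_le_right _ _))
  have d5 : δ₁ ≤ ε := by rw [hδ₁]; exact (min_le_right _ _).trans (min_le_left _ _)
  have d6 : δ₁ ≤ ε / C₁ := by
    rw [hδ₁]; exact (min_le_right _ _).trans ((min_le_right _ _).trans (min_le_left _ _))
  have d7 : δ₁ ≤ ε / (B + 1) := by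
    rw [hδ₁]; exact (min_le_right _ _).trans ((min_le_right _ _).trans (min_le_right _ _))
  have d0 : 0 < δ₁ := by
    rw [hδ₁]
    exact lt_min (lt_min (lt_min hε₁ hε₂) (lt_min hε₃ one_pos))
      (lt_min hε (lt_min (div_pos hε hC₁) (div_pos hε (by linarith))))
  refine ⟨δ₁, d0, d5, fun s Y hs hcs hY hcY => ?_⟩
  obtain ⟨u, ig⟩ := h1 Y hY δ₁ d0.le d1 (fun a α β => H605.cl_le' (hcY a α β) (by omega) le_rfl)
  have hC1 : C₁ * δ₁ ≤ ε := by
    rw [le_div_iff₀ hC₁] at d6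
    linarith
  refine ⟨u, ⟨ig.sm, ig.li, ig.ri, fun a b α β => H605.cl_le' (ig.cl a b α β) le_rfl hC1⟩,
    sm_bt hs hY ig.sm, fun b => ?_, h2 s hs (fun i j => H605.cl_le' (hcs i j) le_rfl d2),
    fun P hP hcP => (h3 P hP δ₁ d0.le d3 hcP).1⟩
  -- the bound of `β`
  have e1 : ∀ a i j, ClC k δ₁ (pdm i (pdm j (Y a))) := by
    intro a i j
    rw [pdm2_Y hY i j a]
    exact H605.clC_pdm (H605.smC_pdm (H605.smC_sub (hY a) (sm_xa a)) j)
      (H605.clC_pdm (H605.smC_sub (hY a) (sm_xa a)) (hcY a) j) i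
  have e2 : ∀ a i j, ClC k (2 ^ k * 2 * δ₁) (fun x => (s x i j : ℂ) • pdm i (pdm j (Y a)) x) := by
    intro a i j
    refine H605.clC_mono (H605.clC_smulr (hs i j) (H605.smC_pdm (H605.smC_pdm (hY a) j) i)
      (H605.cl_entry hs hcs i j) (e1 a i j)) le_rfl ?_
    have : (0 : ℝ) ≤ 2 ^ k * δ₁ := by positivity
    nlinarith
  have e3 : ∀ a, ClC k (n * (n * (2 ^ k * 2)) * δ₁) (d2Y s (Y a)) := by
    intro a
    have f1 : ∀ i, ClC k (n * (2 ^ k * 2 * δ₁)) (fun x => ∑ j, (s x i j : ℂ) •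
        pdm i (pdm j (Y a)) x) := by
      intro i
      have := H605.clC_sumc (k := k) (fun j => H605.smC_smulr (hs i j)
        (H605.smC_pdm (H605.smC_pdm (hY a) j) i)) (fun j => e2 a i j)
      rwa [Fintype.card_fin] at this
    have f2 := H605.clC_sumc (k := k) (fun i => H605.smC_sum fun j => H605.smC_smulr (hs i j)
        (H605.smC_pdm (H605.smC_pdm (hY a) j) i)) f1
    rw [Fintype.card_fin] at f2
    exact H605.clC_mono f2 le_rfl (le_of_eq (by ring))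
  have e4 : ∀ a, ClC k (2 + C₁) (gmY Y a b) := by
    intro a
    refine H605.clC_mono (clC_nearC (ig.sm a b) (fun α β => ?_) (ig.cl a b)) le_rfl ?_
    · by_cases hab : a = b
      · simp only [hab, if_true]
        by_cases h : α = β
        · subst h
          rw [Matrix.one_apply_eq, norm_one]
        · rw [Matrix.one_apply_ne h, norm_zero]
          exact zero_le_one
      · simp [hab]
    · have : C₁ * δ₁ ≤ C₁ := mul_le_of_le_one_right hC₁.le d4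
      linarith
  have e7 : ∀ a, ClC k (N * (2 ^ k * (n * (n * (2 ^ k * 2)) * δ₁ * (2 + C₁))))
      (fun x => d2Y s (Y a) x * gmY Y a b x) := fun a =>
    H605.clC_mul (sm_d2 hs (hY a)) (ig.sm a b) (e3 a) (e4 a)
  have e8 : ∀ a, SmC (fun x => d2Y s (Y a) x * gmY Y a b x) := fun a =>
    SmC_mul (sm_d2 hs (hY a)) (ig.sm a b)
  have e5 := H605.clC_sumc e8 e7
  rw [Fintype.card_fin] at e5
  refine H605.clC_mono (H605.clC_neg e5) le_rfl ?_
  have e6 : (n : ℝ) * (N * (2 ^ k * (n * (n * (2 ^ k * 2)) * δ₁ * (2 + C₁)))) = B * δ₁ := by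
    rw [hB]; ring
  rw [e6]
  rw [le_div_iff₀ (by linarith)] at d7
  nlinarith

end Vale.Agent.P088.R2.H794.S4
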