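import Vale.Agent.P088.R2.H794.S4.T1

/-!
# P088, stage 4: the inverse of the block matrix `(∂_l Y_a)`
-/

open MeasureTheory Set
open scoped ContDiff Matrix Topology

noncomputable section

namespace Vale.Agent.P088.R2.H794.S4

open Vale.Agent.P088.LR Vale.Agent.P088.LR.U Vale.Agent.P088.LR.H158
open Vale.Agent.P088.R2.H238.S3.A

variable {n N : ℕ}

/-- The block matrix `(∂_l Y_a)`. -/
def bkY (Y : Fin n → MC n N) : MC n (n * N) := fun x => Matrix.of fun p q =>
  pdm (finProdFinEquiv.symm p).1 (Y (finProdFinEquiv.symm q).1) x (finProdFinEquiv.symm p).2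
    (finProdFinEquiv.symm q).2

/-- The blocks of the inverse. -/
def gmY (Y : Fin n → MC n N) (a b : Fin n) : MC n N := fun x => Matrix.of fun α β =>
  (bkY Y x)⁻¹ (finProdFinEquiv (a, α)) (finProdFinEquiv (b, β))

theorem bkY_app (Y : Fin n → MC n N) (x : V n) (l a : Fin n) (α γ : Fin N) :
    bkY Y x (finProdFinEquiv (l, α)) (finProdFinEquiv (a, γ)) = pdm l (Y a) x α γ := by
  unfold bkY
  rw [Matrix.of_apply, Equiv.symm_apply_apply, Equiv.symm_apply_apply]

theorem sum_blk (f : Fin (n * N) → ℂ) :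
    ∑ p, f p = ∑ a : Fin n, ∑ γ : Fin N, f (finProdFinEquiv (a, γ)) := by
  rw [← Equiv.sum_comp finProdFinEquiv f, Fintype.sum_prod_type]

theorem one_blk (l b : Fin n) (α β : Fin N) :
    (1 : Matrix (Fin (n * N)) (Fin (n * N)) ℂ) (finProdFinEquiv (l, α)) (finProdFinEquiv (b, β)) =
      (if l = b then (1 : Matrix (Fin N) (Fin N) ℂ) else 0) α β := by
  rw [Matrix.one_apply]
  by_cases h : l = b
  · subst h
    rw [if_pos rfl, Matrix.one_apply]
    congr 1
    simp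
  · rw [if_neg h, if_neg (by simp [h])]
    rfl

theorem gm_li {Y : Fin n → MC n N} {x : V n} (h : IsUnit (bkY Y x).det) (l b : Fin n) :
    ∑ a, pdm l (Y a) x * gmY Y a b x = if l = b then 1 else 0 := by
  ext α β
  rw [← one_blk l b α β, ← Matrix.mul_nonsing_inv (bkY Y x) h, Matrix.mul_apply, sum_blk,
    Matrix.sum_apply]
  refine Finset.sum_congr rfl fun a _ => ?_
  rw [Matrix.mul_apply]
  refine Finset.sum_congr rfl fun γ _ => ?_
  rw [bkY_app]
  rfl

theorem gm_ri {Y : Fin n → MC n N} {x : V n} (h : IsUnit (bkY Y x).det) (a c : Fin n) :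
    ∑ b, gmY Y a b x * pdm b (Y c) x = if a = c then 1 else 0 := by
  ext α β
  rw [← one_blk a c α β, ← Matrix.nonsing_inv_mul (bkY Y x) h, Matrix.mul_apply, sum_blk,
    Matrix.sum_apply]
  refine Finset.sum_congr rfl fun b _ => ?_
  rw [Matrix.mul_apply]
  refine Finset.sum_congr rfl fun γ _ => ?_
  rw [bkY_app]
  rfl

theorem sm_bk {Y : Fin n → MC n N} (hY : ∀ a, SmC (Y a)) : SmC (bkY Y) := fun p q => by
  unfold bkY
  simp only [Matrix.of_apply, pdm]
  exact cpF (hY _ _ _) _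

theorem pd_xa (i a : Fin n) (c : ℂ) (x : V n) :
    pd i (fun x : V n => (x a : ℂ) * c) x = if i = a then c else 0 := by
  have h1 : HasFDerivAt (fun x : V n => ((x a : ℝ) : ℂ)) (Complex.ofRealCLM.comp
      (ContinuousLinearMap.proj (R := ℝ) (φ := fun _ : Fin n => ℝ) a)) x :=
    (Complex.ofRealCLM.comp (ContinuousLinearMap.proj (R := ℝ) (φ := fun _ : Fin n => ℝ)
      a)).hasFDerivAt
  have h2 := h1.mul_const c
  unfold pd
  rw [h2.fderiv]
  simp only [smul_apply, ContinuousLinearMap.comp_apply, ContinuousLinearMap.proj_apply,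
    Pi.single_apply, Complex.ofRealCLM_apply, smul_eq_mul]
  by_cases h : i = a
  · subst h; simp
  · rw [if_neg (fun h' => h h'.symm), if_neg h]; simp

theorem cl_bk {k : ℕ} {δ : ℝ} {Y : Fin n → MC n N} (hY : ∀ a, SmC (Y a))
    (h : ∀ a, ClC (k + 1) δ (fun x => Y a x - (x a : ℂ) • 1)) :
    ClC k δ (fun x => bkY Y x - 1) := by
  intro p q
  obtain ⟨⟨l, α⟩, rfl⟩ := finProdFinEquiv.surjective p
  obtain ⟨⟨a, γ⟩, rfl⟩ := finProdFinEquiv.surjective q
  have e : (fun x => (bkY Y x - 1) (finProdFinEquiv (l, α)) (finProdFinEquiv (a, γ))) =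
      pd l (fun x => (Y a x - (x a : ℂ) • 1) α γ) := by
    funext x
    rw [Matrix.sub_apply, bkY_app, one_blk]
    have e1 : (fun x : V n => (Y a x - ((x a : ℝ) : ℂ) • (1 : Matrix (Fin N) (Fin N) ℂ)) α γ) =
        fun x => Y a x α γ - ((x a : ℝ) : ℂ) * (1 : Matrix (Fin N) (Fin N) ℂ) α γ := by
      funext x
      rw [Matrix.sub_apply, Matrix.smul_apply, smul_eq_mul]
    rw [e1, pd_sub (dfa (hY a α γ) x) ?_ l, pd_xa]
    · by_cases h : l = a
      · subst h; simp [pdm]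
      · simp [h, pdm]
    · exact (((Complex.ofRealCLM.contDiff.comp (contDiff_apply ℝ ℝ a)).mul
        contDiff_const).differentiable (n := ∞) (by simp)) x
  rw [e]
  refine cl_pdF ?_ (h a α γ) l
  have e1 : (fun x : V n => (Y a x - ((x a : ℝ) : ℂ) • (1 : Matrix (Fin N) (Fin N) ℂ)) α γ) =
      fun x => Y a x α γ - ((x a : ℝ) : ℂ) * (1 : Matrix (Fin N) (Fin N) ℂ) α γ := by
    funext x
    rw [Matrix.sub_apply, Matrix.smul_apply, smul_eq_mul]
  rw [e1]
  exact (hY a α γ).sub ((Complex.ofRealCLM.contDiff.comp (contDiff_apply ℝ ℝ a)).mul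
        contDiff_const)

/-- **The inverse of the block matrix.** -/
theorem ex_IG (n N k : ℕ) : ∃ C δ₀ : ℝ, 0 < C ∧ 0 < δ₀ ∧ ∀ Y : Fin n → MC n N,
    (∀ a, SmC (Y a)) → ∀ δ, 0 ≤ δ → δ ≤ δ₀ →
    (∀ a, ClC (k + 1) δ (fun x => Y a x - (x a : ℂ) • 1)) →
    (∀ x, IsUnit (bkY Y x).det) ∧ Vale.Agent.P088.S4.IG k (C * δ) Y (gmY Y) := by
  obtain ⟨C, ε₀, hC, hε, h⟩ := H91.inv n (n * N) k
  refine ⟨C, ε₀, hC, hε, fun Y hY δ hδ0 hδ hcl => ?_⟩
  obtain ⟨h1, h2, h3⟩ := h (bkY Y) (sm_bk hY) δ hδ0 hδ (cl_bk hY hcl)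
  refine ⟨h1, ⟨fun a b α β => ?_, fun l b x => gm_li (h1 x) l b, fun a c x => gm_ri (h1 x) a c,
    fun a b α β => ?_⟩⟩
  · exact h2 _ _
  · have h4 := h3 (finProdFinEquiv (a, α)) (finProdFinEquiv (b, β))
    have e : (fun x => ((bkY Y x)⁻¹ - 1) (finProdFinEquiv (a, α)) (finProdFinEquiv (b, β))) =
        fun x => (gmY Y a b x - if a = b then 1 else 0) α β := by
      funext x
      rw [Matrix.sub_apply, Matrix.sub_apply, one_blk]
      rfl
    rw [e] at h4
    exact h4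

end Vale.Agent.P088.R2.H794.S4
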