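import Vale.Agent.P088.R2.H794.S4.Cut

/-!
# P088, stage 4: the normalised fields of one pair
-/

open MeasureTheory Set
open scoped ContDiff Matrix Topology

noncomputable section

namespace Vale.Agent.P088.R2.H794.S4

open Vale.Agent.P088.LR Vale.Agent.P088.LR.U Vale.Agent.P088.LR.H158
open Vale.Agent.P088.PJ
open Vale.Agent.P088.HY.T3 (Eb e0)
open Vale.Agent.P088.R2.H238.S3 Vale.Agent.P088.R2.H238.S3.A Vale.Agent.P088.R2.H238.S3.Nm
open Vale.Agent.P088.S4 (Da L1)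

variable {n N : ℕ}

/-! ### local congruence of the equations -/

theorem dq_loc {O : Set (V n)} (hO : IsOpen O) {s s' : MF n} {G G' : Fin n → MC n N}
    (hs : ∀ x ∈ O, s' x = s x) (hG : ∀ i, ∀ x ∈ O, G' i x = G i x) {x : V n} (hx : x ∈ O) :
    ∑ i, pdm i (kp s' G' i) x = ∑ i, pdm i (kp s G i) x := by
  refine Finset.sum_congr rfl fun i _ => pdm_congr hO (fun y hy => ?_) hx i
  unfold kp
  exact Finset.sum_congr rfl fun j _ => by rw [hs y hy, hG j y hy]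

theorem pe1_loc {O : Set (V n)} (hO : IsOpen O) {s s' : MF n} {P P' : MC n N}
    (hs : ∀ x ∈ O, s' x = s x) (hP : ∀ x ∈ O, P' x = P x) {x : V n} (hx : x ∈ O) :
    ∑ i, pdm i (fun y => ∑ j, (s' y i j : ℂ) • pdm j P' y) x =
      ∑ i, pdm i (fun y => ∑ j, (s y i j : ℂ) • pdm j P y) x := by
  refine Finset.sum_congr rfl fun i _ => pdm_congr hO (fun y hy => ?_) hx i
  exact Finset.sum_congr rfl fun j _ => by rw [hs y hy, pdm_congr hO hP hy j]

theorem pe2_loc {O : Set (V n)} (hO : IsOpen O) {s s' : MF n} {P P' : MC n N}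
    {G G' : Fin n → MC n N} (hs : ∀ x ∈ O, s' x = s x) (hP : ∀ x ∈ O, P' x = P x)
    (hG : ∀ i, ∀ x ∈ O, G' i x = G i x) {x : V n} (hx : x ∈ O) :
    ∑ i, ∑ j, (s' x i j : ℂ) • ((pdm i P' x - G' i x) * (P' x)⁻¹ * (pdm j P' x + G' j x)) =
      ∑ i, ∑ j, (s x i j : ℂ) • ((pdm i P x - G i x) * (P x)⁻¹ * (pdm j P x + G j x)) := by
  refine Finset.sum_congr rfl fun i _ => Finset.sum_congr rfl fun j _ => ?_
  rw [hs x hx, hP x hx, hG i x hx, hG j x hx, pdm_congr hO hP hx i, pdm_congr hO hP hx j]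

theorem mo_loc {O : Set (V n)} (hO : IsOpen O) {s s' : MF n} {P P' : MC n N}
    {G G' : Fin n → MC n N} (hs : ∀ x ∈ O, s' x = s x) (hP : ∀ x ∈ O, P' x = P x)
    (hG : ∀ i, ∀ x ∈ O, G' i x = G i x) {U U' : MC n N} (hU : ∀ x ∈ O, U' x = U x) {x : V n}
    (hx : x ∈ O) : MoC (TP s' P') (kp s' G') U' x = MoC (TP s P) (kp s G) U x := by
  unfold MoC
  congr 1
  · refine Finset.sum_congr rfl fun i _ => pdm_congr hO (fun y hy => ?_) hx i
    refine Finset.sum_congr rfl fun j _ => ?_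
    unfold TP
    rw [hs y hy, hP y hy, pdm_congr hO hU hy j]
  · refine Finset.sum_congr rfl fun i _ => ?_
    unfold kp
    rw [hs x hx, pdm_congr hO hU hx i]
    congr 1
    exact Finset.sum_congr rfl fun j _ => by rw [hG j x hx]

theorem mo_subc (T : Fin n → Fin n → MC n N) (κ : Fin n → MC n N) (U : MC n N)
    (C : Matrix (Fin N) (Fin N) ℂ) (x : V n) : MoC T κ (fun x => U x - C) x = MoC T κ U x := by
  unfold MoC
  simp only [H605.pdm_sub_const]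

theorem MoC_sum {T : Fin n → Fin n → MC n N} (sT : ∀ i j, SmC (T i j)) (κ : Fin n → MC n N)
    {W : Fin n → MC n N} (hW : ∀ b, SmC (W b)) (c : Fin n → ℂ) (C : Matrix (Fin N) (Fin N) ℂ)
    (x : V n) : MoC T κ (fun x => ∑ b, c b • W b x + C) x = ∑ b, c b • MoC T κ (W b) x := by
  have h0 : ∀ j, pdm j (fun x => ∑ b, c b • W b x + C) = fun x => ∑ b, c b • pdm j (W b) x := by
    intro j
    have e : (fun x : V n => ∑ b, c b • W b x + C) = fun x => ∑ b, c b • W b x - (-C) := by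
      funext x; rw [sub_neg_eq_add]
    rw [e, H605.pdm_sub_const]
    exact (H605.HD.sum fun b => H605.HD.smulc (c b) (H605.hd_pdm (hW b) j)).eq
  have h1 : ∀ i, pdm i (fun y => ∑ j, T i j y * ∑ b, c b • pdm j (W b) y) x =
      ∑ b, c b • pdm i (H605.Uf T (W b) i) x := by
    intro i
    have e2 : (fun y => ∑ j, T i j y * ∑ b, c b • pdm j (W b) y) =
        fun y => ∑ b, c b • H605.Uf T (W b) i y := by
      funext y
      unfold H605.Uf
      simp only [Finset.mul_sum, Finset.smul_sum, Matrix.mul_smul]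
      exact Finset.sum_comm
    rw [e2]
    exact H605.pdm_of_HD (H605.HD.sum fun b => H605.HD.smulc (c b)
      (H605.hd_pdm (H605.smC_Uf sT (hW b) i) i)) x
  unfold MoC
  simp only [h0]
  simp only [h1]
  simp only [Finset.mul_sum, Matrix.mul_smul, smul_add, Finset.sum_add_distrib, Finset.smul_sum]
  congr 1
  · rw [Finset.sum_comm]
    rfl
  · exact Finset.sum_comm

/-! ### the fields in the chart, cut off -/

/-- `χ (P - C)`. -/
def cM (χ : V n → ℝ) (P : MC n N) (C : Matrix (Fin N) (Fin N) ℂ) : MC n N := fun x =>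
  ((χ x : ℝ) : ℂ) • (P x - C)

theorem sm_cM {χ : V n → ℝ} (hχ : ContDiff ℝ ∞ χ) {R : ℝ} (hs : tsupport χ ⊆ Eb 0 R) {P : MC n N}
    (hP : ∀ a b, ContDiffOn ℝ ∞ (fun x => P x a b) (Eb 0 R)) (C : Matrix (Fin N) (Fin N) ℂ) :
    SmC (cM χ P C) := by
  intro a b
  have h := smxF (Eb_open (0 : V n) R) hχ hs (f := fun x => P x a b - C a b)
    ((hP a b).sub contDiffOn_const)
  have e : (fun x => cM χ P C x a b) = fun x => χ x • (P x a b - C a b) := by
    funext x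
    unfold cM
    rw [Matrix.smul_apply, Matrix.sub_apply, smul_eq_mul, Complex.real_smul]
  rw [e]
  exact h

theorem cs_cM {χ : V n → ℝ} {R : ℝ} (hR : 0 < R) (hs : tsupport χ ⊆ Eb 0 R) (P : MC n N)
    (C : Matrix (Fin N) (Fin N) ℂ) (a b : Fin N) : HasCompactSupport fun x => cM χ P C x a b := by
  refine (cpt hR hs).of_isClosed_subset (isClosed_tsupport _) (closure_mono fun x hx => ?_)
  intro h
  refine hx ?_
  show cM χ P C x a b = 0
  unfold cM
  rw [h, Complex.ofReal_zero, zero_smul]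
  rfl

/-- `P` cut off. -/
def tP (χ : V n → ℝ) (P : MC n N) : MC n N := fun x => 1 + cM χ P 1 x

/-- `s` cut off. -/
def tS (χ : V n → ℝ) (S : Matrix (Fin n) (Fin n) ℝ) (s : MF n) : MF n := fun x =>
  S + χ x • (s x - S)

theorem sm_tP {χ : V n → ℝ} (hχ : ContDiff ℝ ∞ χ) {R : ℝ} (hs : tsupport χ ⊆ Eb 0 R) {P : MC n N}
    (hP : ∀ a b, ContDiffOn ℝ ∞ (fun x => P x a b) (Eb 0 R)) : SmC (tP χ P) :=
  H605.smC_add H91.sm_one (sm_cM hχ hs hP 1)

theorem sm_tS {χ : V n → ℝ} (hχ : ContDiff ℝ ∞ χ) {R : ℝ} (hs : tsupport χ ⊆ Eb 0 R) {s : MF n}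
    (h : ∀ i j, ContDiffOn ℝ ∞ (fun x => s x i j) (Eb 0 R)) (S : Matrix (Fin n) (Fin n) ℝ) :
    SmM (tS χ S s) := by
  intro i j
  have h := smxF (Eb_open (0 : V n) R) hχ hs (f := fun x => s x i j - S i j)
    ((h i j).sub contDiffOn_const)
  exact contDiff_const.add h

/-! ### the normalised fields -/

/-- The point of the chart. -/
abbrev px (Q : Matrix (Fin n) (Fin n) ℝ) (t : ℝ) (z : V n) : V n := fa (t⁻¹ • Q) (e0 n) z

/-- The normalised `P`. -/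
def nP (χ' χ : V n → ℝ) (Q : Matrix (Fin n) (Fin n) ℝ) (t : ℝ) (P : MC n N) : MC n N := fun z =>
  1 + ((χ' z : ℝ) : ℂ) • cM χ P 1 (px Q t z)

/-- The normalised `G`. -/
def nG (χ' χ : V n → ℝ) (Q : Matrix (Fin n) (Fin n) ℝ) (t : ℝ) (G : Fin n → MC n N) (i : Fin n) :
    MC n N := fun z =>
  ∑ k, (((t⁻¹ • Q)⁻¹ k i : ℝ) : ℂ) • ((χ' z : ℝ) : ℂ) • cM χ (G k) 0 (px Q t z)

/-- The normalised `D`. -/
def nD (χ' χ : V n → ℝ) (Q : Matrix (Fin n) (Fin n) ℝ) (t : ℝ) (D : Fin n → MC n N) (a : Fin n) :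
    MC n N := fun z =>
  ∑ b, (((t⁻¹ • Q) a b : ℝ) : ℂ) • ((χ' z : ℝ) : ℂ) • cM χ (D b) 0 (px Q t z)

/-- `Y - x`. -/
def yx (Y : Fin n → MC n N) (b : Fin n) : MC n N := fun x => Y b x - ((x b : ℝ) : ℂ) • 1

/-- The normalised `Y`. -/
def nY (χ' χ : V n → ℝ) (Q : Matrix (Fin n) (Fin n) ℝ) (t : ℝ) (Y : Fin n → MC n N) (a : Fin n) :
    MC n N := fun z => ((z a : ℝ) : ℂ) • 1 +
  ∑ b, (((t⁻¹ • Q) a b : ℝ) : ℂ) • ((χ' z : ℝ) : ℂ) • cM χ (yx Y b) (Y b 0) (px Q t z)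

section fields

variable {K : ℕ} {C L t R B : ℝ} {χ' χ : V n → ℝ} {Q : Matrix (Fin n) (Fin n) ℝ}

theorem sm_z (h : Zm K C L t χ' Q) {F : MC n N} (hF : SmC F) :
    SmC (fun z => ((χ' z : ℝ) : ℂ) • F (px Q t z)) :=
  H605.smC_smulr h.s' (fun a b => (hF a b).comp (fa_cd _ _))

theorem cl_z1 (h : Zm K C L t χ' Q) {F : MC n N} (hF : SmC F) (hB : ClC (K + 1) B F)
    (h0 : F 0 = 0) :
    ClC K (2 ^ K * (C * (B * (t * L) * 33))) (fun z => ((χ' z : ℝ) : ℂ) • F (px Q t z)) := by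
  intro a b
  exact h.z1 (hF a b) (hB a b) (by rw [h0]; rfl)

theorem cl_z0 (h : Zm K C L t χ' Q) {F : MC n N} (hF : SmC F) (hB : ClC K B F) :
    ClC K (2 ^ K * (C * B)) (fun z => ((χ' z : ℝ) : ℂ) • F (px Q t z)) := by
  intro a b
  exact h.z0 (hF a b) (hB a b)

theorem cl_z2 (h : Zm K C L t χ' Q) {F : MC n N} (hF : SmC F) (hB : ClC (K + 2) B F)
    (h0 : F 0 = 0) (h1 : ∀ a b, fderiv ℝ (fun x => F x a b) 0 = 0) :
    ClC K (2 ^ K * (C * (B * (t * L) ^ 2 * 33 ^ 2)))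
      (fun z => ((χ' z : ℝ) : ℂ) • F (px Q t z)) := by
  intro a b
  exact h.z2 (hF a b) (hB a b) (by rw [h0]; rfl) (h1 a b)

/-- Linear combinations. -/
theorem cl_comb {k : ℕ} {F : Fin n → MC n N} (hF : ∀ b, SmC (F b)) {a q : ℝ}
    (h : ∀ b, ClC k a (F b)) {c : Fin n → ℝ} (hc : ∀ b, |c b| ≤ q) :
    ClC k (n * (q * a)) (fun z => ∑ b, ((c b : ℝ) : ℂ) • F b z) := by
  have h1 : ∀ b, ClC k (q * a) (fun z => ((c b : ℝ) : ℂ) • F b z) := by
    intro b α β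
    have e : (fun z => (((c b : ℝ) : ℂ) • F b z) α β) = fun z => c b • F b z α β := by
      funext z
      rw [Matrix.smul_apply, smul_eq_mul, Complex.real_smul]
    rw [e]
    exact H605.cl_le' (cl_sm (hF b α β) (h b α β) (c b)) le_rfl
      (mul_le_mul_of_nonneg_right (hc b) (H605.cl_nn' (h b α β)))
  have h2 := H605.clC_sumc (k := k) (fun b => (fun α β => contDiff_const.mul (hF b α β) :
    SmC (fun z => ((c b : ℝ) : ℂ) • F b z))) h1
  rwa [Fintype.card_fin] at h2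

theorem sm_comb {F : Fin n → MC n N} (hF : ∀ b, SmC (F b)) (c : Fin n → ℝ) :
    SmC (fun z => ∑ b, ((c b : ℝ) : ℂ) • F b z) :=
  H605.smC_sum fun b => (fun α β => contDiff_const.mul (hF b α β) :
    SmC (fun z => ((c b : ℝ) : ℂ) • F b z))

end fields

end Vale.Agent.P088.R2.H794.S4
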