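import Vale.Agent.P088.R2.H794.S4.Fa1

/-!
# P088, stage 4: the normalisation of pairs (NORM)
-/

open MeasureTheory Set
open scoped ContDiff Matrix Topology

noncomputable section

namespace Vale.Agent.P088.R2.H794.S4

open Vale.Agent.P088.LR Vale.Agent.P088.LR.U Vale.Agent.P088.LR.H158
open Vale.Agent.P088.PJ
open Vale.Agent.P088.HY.T3 (Eb e0)
open Vale.Agent.P088.R2.H238.S3 Vale.Agent.P088.R2.H238.S3.A Vale.Agent.P088.R2.H238.S3.Nm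
open Vale.Agent.P088.S4 (Da L1 LP RL IG PD RLP NrmN EqA StpD StpN RowCORE4 RowCORE4n RowNORM4)

variable {n N : ℕ}

theorem Da_mono {k k' : ℕ} {δ δ' : ℝ} {O : Set (V n)} {s : MF n} {P : MC n N}
    {G : Fin n → MC n N} (h : Da k δ O s P G) (hk : k' ≤ k) (hδ : δ ≤ δ') : Da k' δ' O s P G :=
  ⟨h.ss, h.sy, h.sP, h.hP, h.sG, h.hG, fun i j => H605.cl_le' (h.cs i j) hk hδ,
    H605.clC_mono h.cP hk hδ, fun i => H605.clC_mono (h.cG i) hk hδ, h.dq, h.pe⟩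

/-- A common bound. -/
theorem exB8 {K : ℕ} {R : ℝ} (hR : 0 < R) {χ : V n → ℝ} (c1 : ContDiff ℝ ∞ χ)
    (c2 : tsupport χ ⊆ Eb 0 R) (Q : Matrix (Fin n) (Fin n) ℝ) {E : Set (V n)} {s₁ s₂ : MF n}
    {P₁ P₂ : MC n N} {G₁ G₂ Y D : Fin n → MC n N} (h₁ : L1 (Eb 0 R) E s₁ P₁ G₁)
    (h₂ : L1 (Eb 0 R) E s₂ P₂ G₂)
    (sY : ∀ i a b, ContDiffOn ℝ ∞ (fun x => Y i x a b) (Eb 0 R))
    (sD : ∀ i a b, ContDiffOn ℝ ∞ (fun x => D i x a b) (Eb 0 R)) :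
    ∃ B : ℝ, 0 < B ∧ (∀ i j, Cl K B (fs χ Q s₁ i j)) ∧ (∀ i j, Cl K B (fs χ Q s₂ i j)) ∧
      ClC K B (cM χ P₁ 1) ∧ ClC K B (cM χ P₂ 1) ∧ (∀ i, ClC K B (cM χ (G₁ i) 0)) ∧
      (∀ i, ClC K B (cM χ (G₂ i) 0)) ∧ (∀ b, ClC K B (cM χ (yx Y b) (Y b 0))) ∧
      ∀ b, ClC K B (cM χ (D b) 0) := by
  have hfs : ∀ {s : MF n}, (∀ i j, ContDiffOn ℝ ∞ (fun x => s x i j) (Eb 0 R)) →
      ∃ B : ℝ, 0 < B ∧ ∀ i j, Cl K B (fs χ Q s i j) := by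
    intro s hs
    obtain ⟨B, hB, h⟩ := exB (f := fun (p : Fin n × Fin n) => fs χ Q s p.1 p.2)
      (fun p => sm_fs c1 c2 Q hs p.1 p.2)
      (fun p => (cpt hR c2).mul_right (f' := fun x => (Q * s x * Qᵀ) p.1 p.2 -
        (1 : Matrix (Fin n) (Fin n) ℝ) p.1 p.2)) K
    exact ⟨B, hB, fun i j => h (i, j)⟩
  have hcm : ∀ {P : MC n N} (S : Matrix (Fin N) (Fin N) ℂ),
      (∀ a b, ContDiffOn ℝ ∞ (fun x => P x a b) (Eb 0 R)) →
      ∃ B : ℝ, 0 < B ∧ ClC K B (cM χ P S) := by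
    intro P S hP
    obtain ⟨B, hB, h⟩ := exB (f := fun (p : Fin N × Fin N) => fun x => cM χ P S x p.1 p.2)
      (fun p => sm_cM c1 c2 hP S p.1 p.2) (fun p => cs_cM hR c2 P S p.1 p.2) K
    exact ⟨B, hB, fun i j => h (i, j)⟩
  have hcmf : ∀ {P : Fin n → MC n N} (S : Fin n → Matrix (Fin N) (Fin N) ℂ),
      (∀ i a b, ContDiffOn ℝ ∞ (fun x => P i x a b) (Eb 0 R)) →
      ∃ B : ℝ, 0 < B ∧ ∀ i, ClC K B (cM χ (P i) (S i)) := by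
    intro P S hP
    have h1 : ∀ i, ∃ B : ℝ, 0 < B ∧ ClC K B (cM χ (P i) (S i)) := fun i => hcm (S i) (hP i)
    choose B hB h using h1
    refine ⟨1 + ∑ i, B i, ?_, fun i => H605.clC_mono (h i) le_rfl ?_⟩
    · have : 0 ≤ ∑ i, B i := Finset.sum_nonneg fun i _ => (hB i).le
      linarith
    · have : B i ≤ ∑ i, B i :=
        Finset.single_le_sum (f := B) (fun i _ => (hB i).le) (Finset.mem_univ i)
      linarith
  obtain ⟨B₁, p₁, b₁⟩ := hfs h₁.ss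
  obtain ⟨B₂, p₂, b₂⟩ := hfs h₂.ss
  obtain ⟨B₃, p₃, b₃⟩ := hcm 1 h₁.sP
  obtain ⟨B₄, p₄, b₄⟩ := hcm 1 h₂.sP
  obtain ⟨B₅, p₅, b₅⟩ := hcmf (fun _ => 0) h₁.sG
  obtain ⟨B₆, p₆, b₆⟩ := hcmf (fun _ => 0) h₂.sG
  obtain ⟨B₇, p₇, b₇⟩ := hcmf (fun b => Y b 0) (fun i a b => yx_sm sY i a b)
  obtain ⟨B₈, p₈, b₈⟩ := hcmf (fun _ => 0) sD
  refine ⟨B₁ + B₂ + B₃ + B₄ + B₅ + B₆ + B₇ + B₈, by positivity,
    fun i j => H605.cl_le' (b₁ i j) le_rfl (by linarith),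
    fun i j => H605.cl_le' (b₂ i j) le_rfl (by linarith), H605.clC_mono b₃ le_rfl (by linarith),
    H605.clC_mono b₄ le_rfl (by linarith), fun i => H605.clC_mono (b₅ i) le_rfl (by linarith),
    fun i => H605.clC_mono (b₆ i) le_rfl (by linarith),
    fun i => H605.clC_mono (b₇ i) le_rfl (by linarith),
    fun i => H605.clC_mono (b₈ i) le_rfl (by linarith)⟩

/-- The differences vanish at the touching point. -/
theorem at0 {R r : ℝ} {a : V n} {G : Set (V n)} {j₀ : Fin N} {s₁ s₂ : MF n} {P₁ P₂ : MC n N}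
    {G₁ G₂ Y D : Fin n → MC n N} (hR : 0 < R) (hr : 0 < r) (har : HY.sq a = r ^ 2)
    (hG : Eb a r ∩ Eb 0 R ⊆ G) (h : LP (Eb 0 R) Gᶜ j₀ s₁ s₂ P₁ P₂ G₁ G₂ Y D) :
    s₂ 0 = s₁ 0 ∧ P₂ 0 = P₁ 0 ∧
      ∀ a α β, D a 0 α β = 0 ∧ fderiv ℝ (fun x => D a x α β) 0 = 0 := by
  have hn : ∀ x ∈ Eb a r ∩ Eb 0 R, x ∉ Gᶜ := fun x hx h' => h' (hG hx)
  refine ⟨?_, ?_, fun b α β => ?_⟩
  · ext i j
    have h1 := (touch1 (g := fun x => s₂ x i j - s₁ x i j) hR hr har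
      ((h.d₂.ss i j).sub (h.d₁.ss i j)) (fun x hx => by
        rw [h.os x hx.2 (hn x hx), sub_self])).1
    exact sub_eq_zero.1 h1
  · ext i j
    have h1 := (touch1 (g := fun x => P₂ x i j - P₁ x i j) hR hr har
      ((h.d₂.sP i j).sub (h.d₁.sP i j)) (fun x hx => by
        rw [h.oP x hx.2 (hn x hx), sub_self])).1
    exact sub_eq_zero.1 h1
  · exact touch1 (g := fun x => D b x α β) hR hr har (h.sD b α β) (fun x hx => by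
      rw [h.oD b x hx.2 (hn x hx)]; rfl)

/-- The geometry of the zoom. -/
theorem geo (hn0 : 0 < n) {Q : Matrix (Fin n) (Fin n) ℝ} (hP : Q.det ≠ 0) {R r β t Nn : ℝ}
    {a : V n} (har : HY.sq a = r ^ 2) (hR : 0 < R)
    (hβ : 0 < β) (hPa : (Q⁻¹)ᵀ *ᵥ a = -(β • e0 n)) (hN : Nn = ∑ i, ∑ k, Q⁻¹ i k ^ 2) (ht : 0 < t)
    (ht1 : t ≤ 1) (t1 : t * (Nn + 1) ≤ β) (t2 : t * (Nn * (2 * (24 ^ 2 + 1)) + 1) ≤ (R / 2) ^ 2) :
    (∀ z ∈ Eb (0 : V n) 24, px Q t z ∈ Eb (0 : V n) (R / 2)) ∧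
      ∀ z ∈ Eb (0 : V n) 1, px Q t z ∈ Eb a r := by
  have hN0 : 0 ≤ Nn := by
    rw [hN]; exact Finset.sum_nonneg fun _ _ => Finset.sum_nonneg fun _ _ => sq_nonneg _
  have hfa : ∀ z : V n, px Q t z = t • (Q⁻¹ *ᵥ (z - e0 n)) := by
    intro z
    show fa (t⁻¹ • Q) (e0 n) z = _
    unfold fa; rw [inv_sP hP ht, Matrix.smul_mulVec]
  have hfs : ∀ z : V n, HY.sq (px Q t z) ≤ t ^ 2 * (Nn * HY.sq (z - e0 n)) := by
    intro z
    rw [hfa, sq_sm, hN]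
    exact mul_le_mul_of_nonneg_left (sq_mv _ _) (by positivity)
  have he1 : HY.sq (e0 n) = 1 := by rw [sq_dot, e0_dot hn0]
  constructor
  · intro z hz
    have h1 : HY.sq (z - 0) < 24 ^ 2 := hz
    rw [sub_zero] at h1
    show HY.sq (px Q t z - 0) < (R / 2) ^ 2
    rw [sub_zero]
    have h2 := sq_sub_le z (e0 n)
    rw [he1] at h2
    have h3 : Nn * HY.sq (z - e0 n) ≤ Nn * (2 * (24 ^ 2 + 1)) :=
      mul_le_mul_of_nonneg_left (by linarith) hN0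
    have h4 : t ^ 2 * (Nn * HY.sq (z - e0 n)) ≤ t * (Nn * (2 * (24 ^ 2 + 1))) := by
      have u1 : t ^ 2 ≤ t := by nlinarith
      exact mul_le_mul u1 h3 (mul_nonneg hN0 (sq_nn _)) ht.le
    have h5 := hfs z
    nlinarith
  · intro z hz
    have h1 : HY.sq (z - 0) < 1 ^ 2 := hz
    rw [sub_zero] at h1
    show HY.sq (px Q t z - a) < r ^ 2
    obtain ⟨x, hx⟩ : ∃ x : V n, x = px Q t z := ⟨_, rfl⟩
    obtain ⟨w, hw⟩ : ∃ w : V n, w = z - e0 n := ⟨_, rfl⟩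
    have e1 : HY.sq (x - a) = HY.sq x - 2 * (x ⬝ᵥ a) + HY.sq a := by
      rw [sq_dot, sq_dot, sq_dot, sub_dotProduct, dotProduct_sub, dotProduct_sub,
        dotProduct_comm a x]
      ring
    have e2 : x ⬝ᵥ a = -(t * β * (w ⬝ᵥ e0 n)) := by
      have h2 : x = t • (Q⁻¹ *ᵥ w) := by rw [hx, hfa, hw]
      rw [h2, smul_dotProduct, smul_eq_mul, dotProduct_comm, Matrix.dotProduct_mulVec,
        ← Matrix.mulVec_transpose, hPa, neg_dotProduct, smul_dotProduct, smul_eq_mul,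
        dotProduct_comm (e0 n) w]
      ring
    have e3 : HY.sq z = HY.sq w + 2 * (w ⬝ᵥ e0 n) + 1 := by
      have h2 : z = w + e0 n := by rw [hw, sub_add_cancel]
      rw [h2, sq_dot, add_dotProduct, dotProduct_add, dotProduct_add, e0_dot hn0,
        dotProduct_comm (e0 n) w, sq_dot]
      ring
    have e4 := hfs z
    rw [← hx, ← hw] at e4
    rw [← hx, e1, har, e2]
    have hw0 := sq_nn w
    obtain ⟨m, hm⟩ : ∃ m : ℝ, m = -(w ⬝ᵥ e0 n) := ⟨_, rfl⟩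
    have e5 : w ⬝ᵥ e0 n = -m := by rw [hm, neg_neg]
    rw [e5] at e3 ⊢
    have hm0 : HY.sq w < 2 * m := by linarith
    have hmp : 0 < m := by linarith
    have e6 : t ^ 2 * (Nn * HY.sq w) ≤ t * (t * Nn * (2 * m)) := by
      have u1 : Nn * HY.sq w ≤ Nn * (2 * m) := mul_le_mul_of_nonneg_left hm0.le hN0
      nlinarith [mul_le_mul_of_nonneg_left u1 (by positivity : (0 : ℝ) ≤ t ^ 2)]
    have e7 : t * Nn < β := by nlinarith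
    have e8 : t * (t * Nn * (2 * m)) < t * (β * (2 * m)) :=
      mul_lt_mul_of_pos_left (mul_lt_mul_of_pos_right e7 (by linarith)) ht
    nlinarith

section

variable {K : ℕ} {C L t R B δ q : ℝ} {χ' χ : V n → ℝ} {Q : Matrix (Fin n) (Fin n) ℝ}

theorem ctr2 {W : Type*} [AddCommGroup W] [Module ℂ W] {A : Matrix (Fin n) (Fin n) ℝ}
    (hA : A.det ≠ 0) (X : Fin n → W) (l : Fin n) :
    ∑ i, ((A⁻¹ l i : ℝ) : ℂ) • ∑ k, ((A i k : ℝ) : ℂ) • X k = X l := by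
  have hB : (A⁻¹).det ≠ 0 := by
    rw [Matrix.det_nonsing_inv, Ring.inverse_eq_inv']
    exact inv_ne_zero hA
  have h := ctr1 (A := (A⁻¹)ᵀ) (by rwa [Matrix.det_transpose]) X l
  have e : ((A⁻¹)ᵀ)⁻¹ = Aᵀ := by
    rw [← Matrix.transpose_nonsing_inv, Matrix.nonsing_inv_nonsing_inv _ hA.isUnit]
  rw [e] at h
  exact h

/-- Back to the chart. -/
theorem back (h : Zm K C L t χ' Q) (c : Ct R t χ χ' Q) {s₁ s₂ : MF n} {P₁ P₂ : MC n N}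
    {G₁ G₂ D : Fin n → MC n N} {z : V n} (hz : z ∈ Eb (0 : V n) 24)
    (e1 : sn χ' χ Q t s₂ z = sn χ' χ Q t s₁ z) (e2 : nP χ' χ Q t P₂ z = nP χ' χ Q t P₁ z)
    (e3 : ∀ i, nG χ' χ Q t G₂ i z = nG χ' χ Q t G₁ i z) (e4 : ∀ a, nD χ' χ Q t D a z = 0) :
    s₂ (px Q t z) = s₁ (px Q t z) ∧ P₂ (px Q t z) = P₁ (px Q t z) ∧
      (∀ i, G₂ i (px Q t z) = G₁ i (px Q t z)) ∧ ∀ a, D a (px Q t z) = 0 := by
  have hx := c.hin z hz
  have hA : (t⁻¹ • Q).det ≠ 0 := det_sP h.Qd h.t0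
  refine ⟨?_, ?_, fun i => ?_, fun a => ?_⟩
  · rw [sn_on h c 0 s₂ hz, sn_on h c 0 s₁ hz, psl_P h.t0, psl_P h.t0, tS_on c 0 s₂ hx,
      tS_on c 0 s₁ hx] at e1
    have hAu : IsUnit Q.det := h.Qd.isUnit
    have hBu : IsUnit Qᵀ.det := by rw [Matrix.det_transpose]; exact hAu
    have h7 : ∀ S : Matrix (Fin n) (Fin n) ℝ, Q⁻¹ * (Q * S * Qᵀ) * (Qᵀ)⁻¹ = S := fun S => by
      rw [Matrix.mul_assoc Q, ← Matrix.mul_assoc, Matrix.nonsing_inv_mul Q hAu, Matrix.one_mul,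
        Matrix.mul_assoc, Matrix.mul_nonsing_inv _ hBu, Matrix.mul_one]
    rw [← h7 (s₂ (px Q t z)), e1, h7]
  · rw [nP_on c P₂ hz, nP_on c P₁ hz] at e2
    unfold pbM at e2
    rw [tP_on c P₂ hx, tP_on c P₁ hx] at e2
    exact e2
  · have h1 : ∀ j, ∑ k, (((t⁻¹ • Q)⁻¹ k j : ℝ) : ℂ) • G₂ k (px Q t z) =
        ∑ k, (((t⁻¹ • Q)⁻¹ k j : ℝ) : ℂ) • G₁ k (px Q t z) := by
      intro j
      have h2 := e3 j
      rw [nG_on c G₂ j hz, nG_on c G₁ j hz] at h2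
      unfold loG at h2
      simp only [cM_on c _ _ hx, sub_zero] at h2
      exact h2
    rw [← ctr1 hA (fun k => G₂ k (px Q t z)) i, ← ctr1 hA (fun k => G₁ k (px Q t z)) i]
    simp only [h1]
  · have h1 : ∀ b, ∑ k, (((t⁻¹ • Q) b k : ℝ) : ℂ) • D k (px Q t z) = 0 := by
      intro b
      have h2 := e4 b
      rw [nD_on c D b hz] at h2
      simp only [cM_on c _ _ hx, sub_zero] at h2
      exact h2
    rw [← ctr2 hA (fun k => D k (px Q t z)) a]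
    simp only [h1, smul_zero, Finset.sum_const_zero]

end

end Vale.Agent.P088.R2.H794.S4
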