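import Vale.Agent.P088.R2.H794.S4.Norm4

/-!
# P088, stage 4: the normalisation of pairs (NORM), assembly
-/

open MeasureTheory Set
open scoped ContDiff Matrix Topology

noncomputable section

namespace Vale.Agent.P088.R2.H794.S4

open Vale.Agent.P088.LR Vale.Agent.P088.LR.U Vale.Agent.P088.LR.H158
open Vale.Agent.P088.PJ
open Vale.Agent.P088.HY.T3 (Eb e0)
open Vale.Agent.P088.R2.H238.S3 Vale.Agent.P088.R2.H238.S3.A Vale.Agent.P088.R2.H238.S3.Nm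
open Vale.Agent.P088.S4 (Da L1 LP RL IG PD RLP NrmN EqA StpD StpN RowCORE4 RowCORE4n RowNORM4)

variable {n N : ℕ}

/-- **NORM** for pairs. -/
theorem rowNORM4 : RowNORM4 := by
  intro hcore n N hn hN1 R r a G j₀ s₁ s₂ P₁ P₂ G₁ G₂ Y D hR hr har oG hG hLP hP0 hY0 hst
  obtain ⟨k, ε, hε, hcore⟩ := hcore n N hn hN1
  obtain ⟨δ₁, hδ₁, hδε, hfill⟩ := fill n N k hε
  have hn0 : 0 < n := by omega
  have m0 : (0 : V n) ∈ Eb (0 : V n) R := by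
    show HY.sq (0 - 0) < R ^ 2
    rw [sub_zero]
    have : HY.sq (0 : V n) = 0 := by unfold HY.sq; simp
    rw [this]; positivity
  have ha0 : a ≠ 0 := by
    intro h
    rw [h] at har
    have : HY.sq (0 : V n) = 0 := by unfold HY.sq; simp
    rw [this] at har
    have : 0 < r ^ 2 := by positivity
    linarith
  obtain ⟨hS, hP20, hD0⟩ := at0 hR hr har hG hLP
  obtain ⟨Q, hQ, hQS, β, hβ, hQa⟩ := nmat hn0 (hLP.d₁.ps 0 m0) ha0
  obtain ⟨χ, g1, g2, g3⟩ := ball_cut (n := n) (half_pos hR) (by linarith : R / 2 < R)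
  obtain ⟨χ', f1, f2, f3⟩ := ball_cut (n := n) (r := 24) (R := 32) (by norm_num) (by norm_num)
  obtain ⟨K, hK⟩ : ∃ K : ℕ, K = k + 2 := ⟨_, rfl⟩
  obtain ⟨C, hC0, hC⟩ := cl_compact f1 (cpt (by norm_num) f2) K
  obtain ⟨B, hB0, bS₁, bS₂, bP₁, bP₂, bG₁, bG₂, bY, bD⟩ :=
    exB8 (K := K + 2) hR g1 g2 Q hLP.d₁ hLP.d₂ hLP.sY hLP.sD
  obtain ⟨Nn, hNn⟩ : ∃ M : ℝ, M = ∑ i, ∑ k, Q⁻¹ i k ^ 2 := ⟨_, rfl⟩
  obtain ⟨L, hL⟩ : ∃ L : ℝ, L = ‖lm Q⁻¹‖ := ⟨_, rfl⟩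
  have hL0 : 0 ≤ L := by rw [hL]; exact norm_nonneg _
  obtain ⟨q, hq⟩ : ∃ q : ℝ, q = (∑ i, ∑ j, |Q⁻¹ i j|) + ∑ i, ∑ j, |Q i j| := ⟨_, rfl⟩
  have qa : 0 ≤ ∑ i, ∑ j, |Q⁻¹ i j| :=
    Finset.sum_nonneg fun _ _ => Finset.sum_nonneg fun _ _ => abs_nonneg _
  have qb : 0 ≤ ∑ i, ∑ j, |Q i j| :=
    Finset.sum_nonneg fun _ _ => Finset.sum_nonneg fun _ _ => abs_nonneg _
  have hq0 : 0 ≤ q := by rw [hq]; exact add_nonneg qa qb
  have entry : ∀ (M : Matrix (Fin n) (Fin n) ℝ) (i j : Fin n), |M i j| ≤ ∑ i, ∑ j, |M i j| := by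
    intro M i j
    exact (Finset.single_le_sum (f := fun j => |M i j|) (fun _ _ => abs_nonneg _)
      (Finset.mem_univ j)).trans (Finset.single_le_sum (f := fun i => ∑ j, |M i j|)
        (fun _ _ => Finset.sum_nonneg fun _ _ => abs_nonneg _) (Finset.mem_univ i))
  have q1 : ∀ i j, |Q⁻¹ i j| ≤ q := fun i j => by
    rw [hq]; linarith [entry Q⁻¹ i j]
  have q2 : ∀ i j, |Q i j| ≤ q := fun i j => by
    rw [hq]; linarith [entry Q i j]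
  obtain ⟨X₁, hX₁⟩ : ∃ X : ℝ, X = 2 ^ K * (C * (B * L * 33)) := ⟨_, rfl⟩
  obtain ⟨X₂, hX₂⟩ : ∃ X : ℝ, X = n * (q * (2 ^ K * (C * B))) := ⟨_, rfl⟩
  obtain ⟨X₃, hX₃⟩ : ∃ X : ℝ, X = n * (q * (2 ^ K * (C * (B * L ^ 2 * 33 ^ 2)))) := ⟨_, rfl⟩
  have x1 : 0 ≤ X₁ := by rw [hX₁]; positivity
  have x2 : 0 ≤ X₂ := by rw [hX₂]; positivity
  have x3 : 0 ≤ X₃ := by rw [hX₃]; positivity
  obtain ⟨t, ht, ht1, t1, t2, t3, t4⟩ := ex_t (X₁ := Nn + 1) (Y₁ := β)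
    (X₂ := Nn * (2 * (24 ^ 2 + 1)) + 1) (Y₂ := (R / 2) ^ 2) (X₃ := L) (Y₃ := 1)
    (X₄ := X₁ + X₂ + X₃) (Y₄ := δ₁) hβ (by positivity) one_pos hδ₁
  have y1 : 0 ≤ t * X₁ := by positivity
  have y2 : 0 ≤ t * X₂ := by positivity
  have y3 : 0 ≤ t * X₃ := by positivity
  have ts : t * X₁ + t * X₂ + t * X₃ ≤ δ₁ := by
    have : t * X₁ + t * X₂ + t * X₃ = t * (X₁ + X₂ + X₃) := by ring
    rw [this]; exact t4
  have e1 : 2 ^ K * (C * (B * (t * L) * 33)) ≤ δ₁ := by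
    have : 2 ^ K * (C * (B * (t * L) * 33)) = t * X₁ := by rw [hX₁]; ring
    linarith
  have e2 : n * (t * q * (2 ^ K * (C * B))) ≤ δ₁ := by
    have : n * (t * q * (2 ^ K * (C * B))) = t * X₂ := by rw [hX₂]; ring
    linarith
  have e3 : n * (t⁻¹ * q * (2 ^ K * (C * (B * (t * L) ^ 2 * 33 ^ 2)))) ≤ δ₁ := by
    have : n * (t⁻¹ * q * (2 ^ K * (C * (B * (t * L) ^ 2 * 33 ^ 2)))) = t * X₃ := by
      rw [hX₃]
      field_simp
    linarith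
  obtain ⟨hin, hball⟩ := geo hn0 hQ har hR hβ hQa hNn ht ht1 t1 t2
  have z : Zm K C L t χ' Q := ⟨hn0, hQ, ht, t3, hL0, hL.ge, f1, f2, hC⟩
  have c : Ct R t χ χ' Q := ⟨hR, g1, g2, g3, f3, hin⟩
  have hA : (t⁻¹ • Q).det ≠ 0 := det_sP hQ ht
  obtain ⟨G', hG'⟩ : ∃ G' : Set (V n), G' = (px Q t) ⁻¹' G := ⟨_, rfl⟩
  have oG' : IsOpen G' := by rw [hG']; exact oG.preimage (fa_c (t⁻¹ • Q) (e0 n))
  -- the fields
  have D₁ := one_pair z c hLP.d₁ hQS hP0 (fun i j => H605.cl_le' (bS₁ i j) (by omega) le_rfl)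
    (H605.clC_mono bP₁ (by omega) le_rfl) (fun i => H605.clC_mono (bG₁ i) (by omega) le_rfl)
    q1 e1 e2
  have D₂ := one_pair z c hLP.d₂ (by rw [hS]; exact hQS) (hP20.trans hP0)
    (fun i j => H605.cl_le' (bS₂ i j) (by omega) le_rfl)
    (H605.clC_mono bP₂ (by omega) le_rfl) (fun i => H605.clC_mono (bG₂ i) (by omega) le_rfl)
    q1 e1 e2
  have hY := Y_facts z c hLP.sY hY0 bY q2 e3
  have hD := D_facts z c hLP.sD hD0 bD q2 e3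
  obtain ⟨u₁, ig, sβ, cβ, ⟨τ, sτ, iτ⟩, uP⟩ := hfill (sn χ' χ Q t s₁) (nY χ' χ Q t Y) D₁.ss
    (fun i j => H605.cl_le' (D₁.cs i j) (by omega) le_rfl) (fun a => (hY a).1)
    (fun a α β => H605.cl_le' ((hY a).2 α β) (by omega) le_rfl)
  have hMY : ∀ a, ∀ x ∈ Eb (0 : V n) 24 ∩ ((px Q t) ⁻¹' G)ᶜ,
      MoC (TP (sn χ' χ Q t s₁) (nP χ' χ Q t P₁)) (kp (sn χ' χ Q t s₁) (nG χ' χ Q t G₁))
        (nY χ' χ Q t Y a) x = 0 := fun a x hx =>
    mo_pair z c hLP.d₁ (fun b => sm_tY c hLP.sY b) (fun b x hx => tY_on c Y b hx)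
      (fun b => (((t⁻¹ • Q) a b : ℝ) : ℂ)) (((e0 n a : ℝ) : ℂ) • 1)
      (fun z' hz' => nY_on z c Y a hz') hLP.hY hx
  have hMG : ∀ a, ∀ x ∈ Eb (0 : V n) 24 ∩ ((px Q t) ⁻¹' G)ᶜ,
      MoC (TP (sn χ' χ Q t s₂) (nP χ' χ Q t P₂)) (kp (sn χ' χ Q t s₂) (nG χ' χ Q t G₂))
        (fun x => nY χ' χ Q t Y a x + nD χ' χ Q t D a x) x = 0 := fun a x hx =>
    mo_pair z c hLP.d₂ (W := fun b x => Y b x + D b x) (W' := fun b x => tY χ Y b x + cM χ (D b) 0 x)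
      (fun b => H605.smC_add (sm_tY c hLP.sY b) (sm_cM c.c1 c.c2 (hLP.sD b) 0))
      (S := fun b => Y b 0) (fun b x hx => by
        rw [tY_on c Y b hx, cM_on c _ _ hx]; abel)
      (fun b => (((t⁻¹ • Q) a b : ℝ) : ℂ)) (((e0 n a : ℝ) : ℂ) • 1)
      (fun z' hz' => by
        rw [nY_on z c Y a hz', nD_on c D a hz']
        simp only [smul_add, Finset.sum_add_distrib]
        abel) hLP.gi hx
  obtain ⟨d, hd⟩ : ∃ d : PD n N, d = ⟨j₀, sn χ' χ Q t s₁, sn χ' χ Q t s₂, nP χ' χ Q t P₁,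
    nP χ' χ Q t P₂, nG χ' χ Q t G₁, nG χ' χ Q t G₂, btY (sn χ' χ Q t s₁) (nY χ' χ Q t Y),
    nY χ' χ Q t Y, nD χ' χ Q t D, gmY (nY χ' χ Q t Y), τ⟩ := ⟨_, rfl⟩
  have hm : ∀ x ∈ Eb (0 : V n) 24, x ∉ ((px Q t) ⁻¹' G)ᶜ → px Q t x ∈ Eb (0 : V n) R ∧
      px Q t x ∉ Gᶜ := fun x hx hx' => ⟨c.in' x hx, hx'⟩
  have hrl : RL k ε (Eb 0 24) ((px Q t) ⁻¹' G)ᶜ j₀ (sn χ' χ Q t s₁) (sn χ' χ Q t s₂)
      (nP χ' χ Q t P₁) (nP χ' χ Q t P₂) (nG χ' χ Q t G₁) (nG χ' χ Q t G₂)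
      (btY (sn χ' χ Q t s₁) (nY χ' χ Q t Y)) (nY χ' χ Q t Y) (nD χ' χ Q t D) :=
    { op := Eb_open 0 24
      cl := (hG' ▸ oG').isClosed_compl
      d₁ := Da_mono D₁ (by omega) hδε
      d₂ := Da_mono D₂ (by omega) hδε
      sβ := sβ
      cβ := cβ
      eβ := fun i x hx => btY_bL D₁.ss D₁.sP _ (fun a => (hY a).1)
        (uP _ D₁.sP (H605.clC_mono D₁.cP (by omega) le_rfl) x) (u₁ x) (fun a => hMY a x hx) i
      LY := fun a x _ => btY_L _ (u₁ x) a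
      os := fun x hx hx' => by
        obtain ⟨h1, h2⟩ := hm x hx hx'
        have h3 := hLP.os _ h1 h2
        ext i j
        show (1 : Matrix (Fin n) (Fin n) ℝ) i j + χ' x * fs χ Q s₂ i j (px Q t x) =
          (1 : Matrix (Fin n) (Fin n) ℝ) i j + χ' x * fs χ Q s₁ i j (px Q t x)
        unfold fs
        rw [h3]
      oP := fun x hx hx' => by
        obtain ⟨h1, h2⟩ := hm x hx hx'
        unfold nP cM
        rw [hLP.oP _ h1 h2]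
      oG := fun i x hx hx' => by
        obtain ⟨h1, h2⟩ := hm x hx hx'
        unfold nG cM
        exact Finset.sum_congr rfl fun l _ => by rw [hLP.oG l _ h1 h2]
      oD := fun b x hx hx' => by
        obtain ⟨h1, h2⟩ := hm x hx hx'
        unfold nD cM
        refine Finset.sum_eq_zero fun l _ => ?_
        rw [hLP.oD l _ h1 h2, sub_zero, smul_zero, smul_zero, smul_zero]
      sY := fun b => (hY b).1
      sD := fun b => (hD b).1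
      cY := fun b => H605.clC_mono (hY b).2 (by omega) hδε
      cD := fun b => H605.clC_mono (hD b).2 (by omega) hδε
      tD := fun b x hx => by
        rw [nD_on c D b hx, Matrix.sum_apply, Complex.re_sum]
        refine Finset.sum_eq_zero fun l _ => ?_
        rw [cM_on c _ _ (c.hin x hx), sub_zero, Matrix.smul_apply, smul_eq_mul,
          Complex.re_ofReal_mul, hLP.tD l _ (c.in' x hx), mul_zero]
      hY := hMY
      gi := hMG }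
  have hN : NrmN k ε d G' :=
    { oG := oG'
      b1 := fun x hx => by
        rw [hG']
        exact hG ⟨hball x hx, c.in' x (Eb_mono (by norm_num) (by norm_num) _ hx)⟩
      rp := by
        rw [hd, hG']
        exact ⟨hrl, ig, sτ, iτ⟩
      of := fun x hx => by
        rw [hd]
        obtain ⟨o1, o2, o3, o4⟩ := off_all (χ := χ) z P₁ G₁ Y D hx
        obtain ⟨o1', o2', -, -⟩ := off_all (χ := χ) z P₂ G₂ Y D hx
        obtain ⟨-, -, -, v1⟩ := sn_facts z c hLP.d₁.ss hLP.d₁.ps hQS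
          (fun i j => H605.cl_le' (bS₁ i j) (by omega : K + 1 ≤ K + 2) le_rfl) e1
        obtain ⟨-, -, -, v2⟩ := sn_facts z c hLP.d₂.ss hLP.d₂.ps (by rw [hS]; exact hQS)
          (fun i j => H605.cl_le' (bS₂ i j) (by omega : K + 1 ≤ K + 2) le_rfl) e1
        exact ⟨v1 x hx, v2 x hx, o1, o1', o2, o2', fun i => off_b z _ Y hx i fun b => (hY b).1,
          o3, o4⟩ }
  have hst' : StpD (Eb 0 24) G' d := by
    rw [hd, hG']
    exact stp_all z c oG hLP.d₁ hst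
  obtain ⟨δ, hδ, hfin⟩ := hcore d G' hN hst'
  -- back
  obtain ⟨M, hM⟩ : ∃ M : ℝ, M = ∑ i, ∑ k, (t⁻¹ • Q) i k ^ 2 := ⟨_, rfl⟩
  have hM0 : 0 ≤ M := by
    rw [hM]; exact Finset.sum_nonneg fun _ _ => Finset.sum_nonneg fun _ _ => sq_nonneg _
  obtain ⟨δ', h1, h2, h3, h4, -, -⟩ := ex_t (X₁ := M) (Y₁ := δ ^ 2 / 2) (X₂ := M) (Y₂ := 1)
    (X₃ := 0) (Y₃ := 1) (X₄ := 0) (Y₄ := 1) (by positivity) one_pos one_pos one_pos
  refine ⟨δ', h1, fun x hx => ?_⟩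
  have hx1 : HY.sq (x - 0) < δ' ^ 2 := hx
  rw [sub_zero] at hx1
  obtain ⟨w, hw⟩ : ∃ w : V n, w = af (t⁻¹ • Q) (e0 n) x := ⟨_, rfl⟩
  have hwx : px Q t w = x := by rw [hw]; exact fa_af hA (e0 n) x
  have hwe : w - e0 n = (t⁻¹ • Q) *ᵥ x := by rw [hw]; unfold af; rw [add_sub_cancel_right]
  have he1 : HY.sq (e0 n) = 1 := by rw [sq_dot, e0_dot hn0]
  have hws : HY.sq (w - e0 n) ≤ δ' * M := by
    rw [hwe]
    refine (sq_mv (t⁻¹ • Q) x).trans ?_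
    rw [← hM, mul_comm]
    exact mul_le_mul_of_nonneg_right (by nlinarith) hM0
  have hw1 : w ∈ Eb (e0 n) δ := by
    show HY.sq (w - e0 n) < δ ^ 2
    have : 0 < δ ^ 2 := by positivity
    linarith
  have hw2 : w ∈ Eb (0 : V n) 24 := by
    show HY.sq (w - 0) < 24 ^ 2
    rw [sub_zero]
    have h5 := sq_sub_le (w - e0 n) (-(e0 n))
    rw [sub_neg_eq_add, sub_add_cancel] at h5
    have h6 : HY.sq (-(e0 n)) = 1 := by
      rw [← he1]; unfold HY.sq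
      exact Finset.sum_congr rfl fun i _ => by rw [Pi.neg_apply]; ring
    rw [h6] at h5
    linarith
  obtain ⟨k1, k2, k3, k4⟩ := hfin w hw1
  rw [hd] at k1 k2 k3 k4
  have hb := back z c hw2 k1 k2 k3 k4
  rw [hwx] at hb
  exact hb

end Vale.Agent.P088.R2.H794.S4
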