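import Vale.Agent.P088.R2.H794.S4.Aff
import Vale.Agent.P088.R2.H238.S3.Res

/-!
# P088, stage 4: affine change of coordinates, restriction and congruence of `StpN`
-/

open MeasureTheory Set
open scoped ContDiff Matrix Topology

noncomputable section

namespace Vale.Agent.P088.R2.H794.S4

open Vale.Agent.P088.LR Vale.Agent.P088.LR.U Vale.Agent.P088.LR.H158
open Vale.Agent.P088.PJ
open Vale.Agent.P088.R2.H238.S3.A
open Vale.Agent.P088.S4 (MoV pdv nv StpN)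

variable {n N : ℕ}

/-! ### algebra -/

/-- `c A T Aᵀ`. -/
def ra2 (c : ℝ) (A : Matrix (Fin n) (Fin n) ℝ) (T : Fin n → Fin n → Matrix (Fin N) (Fin N) ℂ)
    (j i : Fin n) : Matrix (Fin N) (Fin N) ℂ :=
  (c : ℂ) • ∑ k, ((A j k : ℝ) : ℂ) • ∑ l, ((A i l : ℝ) : ℂ) • T k l

/-- `c A κ`. -/
def ra1 (c : ℝ) (A : Matrix (Fin n) (Fin n) ℝ) (κ : Fin n → Matrix (Fin N) (Fin N) ℂ)
    (i : Fin n) : Matrix (Fin N) (Fin N) ℂ := (c : ℂ) • ∑ k, ((A i k : ℝ) : ℂ) • κ k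

/-- `A⁻ᵀ X`. -/
def lo1 {W : Type*} [AddCommGroup W] [Module ℂ W] (A : Matrix (Fin n) (Fin n) ℝ) (X : Fin n → W)
    (i : Fin n) : W := ∑ k, ((A⁻¹ k i : ℝ) : ℂ) • X k

variable {A : Matrix (Fin n) (Fin n) ℝ}

theorem ctr {W : Type*} [AddCommGroup W] [Module ℂ W] (hA : A.det ≠ 0) (X : Fin n → W)
    (l : Fin n) : ∑ i, ((A i l : ℝ) : ℂ) • lo1 A X i = X l := ctr1 hA X l

theorem ra2_lo (hA : A.det ≠ 0) (c : ℝ) (T : Fin n → Fin n → Matrix (Fin N) (Fin N) ℂ)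
    (X : Fin n → Fin N → ℂ) (j : Fin n) :
    ∑ i, ra2 c A T j i *ᵥ lo1 A X i =
      (c : ℂ) • ∑ k, ((A j k : ℝ) : ℂ) • ∑ l, T k l *ᵥ X l := by
  have h1 : ∀ i, ra2 c A T j i *ᵥ lo1 A X i = (c : ℂ) • ∑ k, ((A j k : ℝ) : ℂ) •
      ∑ l, T k l *ᵥ (((A i l : ℝ) : ℂ) • lo1 A X i) := by
    intro i
    unfold ra2
    simp only [Matrix.smul_mulVec, Matrix.sum_mulVec, Matrix.mulVec_smul]
  simp only [h1]
  rw [← Finset.smul_sum, Finset.sum_comm]
  congr 1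
  refine Finset.sum_congr rfl fun k _ => ?_
  rw [← Finset.smul_sum, Finset.sum_comm]
  congr 1
  refine Finset.sum_congr rfl fun l _ => ?_
  rw [← Matrix.mulVec_sum, ctr hA]

theorem ra1_lo (hA : A.det ≠ 0) (c : ℝ) (κ : Fin n → Matrix (Fin N) (Fin N) ℂ)
    (X : Fin n → Fin N → ℂ) :
    ∑ i, ra1 c A κ i *ᵥ lo1 A X i = (c : ℂ) • ∑ k, κ k *ᵥ X k := by
  have h1 : ∀ i, ra1 c A κ i *ᵥ lo1 A X i = (c : ℂ) • ∑ k, κ k *ᵥ
      (((A i k : ℝ) : ℂ) • lo1 A X i) := by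
    intro i
    unfold ra1
    simp only [Matrix.smul_mulVec, Matrix.sum_mulVec, Matrix.mulVec_smul]
  simp only [h1]
  rw [← Finset.smul_sum, Finset.sum_comm]
  congr 1
  refine Finset.sum_congr rfl fun l _ => ?_
  rw [← Matrix.mulVec_sum, ctr hA]

/-- The integrand of the weak equation. -/
def Wk (T : Fin n → Fin n → Matrix (Fin N) (Fin N) ℂ) (κ : Fin n → Matrix (Fin N) (Fin N) ℂ)
    (ψ : Fin N → ℂ) (Ψ X : Fin n → Fin N → ℂ) : ℂ :=
  (∑ i, ∑ j, Ψ j ⬝ᵥ (T j i *ᵥ X i)) - ∑ i, ψ ⬝ᵥ (κ i *ᵥ X i)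

theorem wk_aff (hA : A.det ≠ 0) (c : ℝ) (T : Fin n → Fin n → Matrix (Fin N) (Fin N) ℂ)
    (κ : Fin n → Matrix (Fin N) (Fin N) ℂ) (ψ : Fin N → ℂ) (Ψ X : Fin n → Fin N → ℂ) :
    Wk (ra2 c A T) (ra1 c A κ) ψ (lo1 A Ψ) (lo1 A X) = (c : ℂ) * Wk T κ ψ Ψ X := by
  unfold Wk
  have h1 : ∑ i, ∑ j, lo1 A Ψ j ⬝ᵥ (ra2 c A T j i *ᵥ lo1 A X i) =
      (c : ℂ) * ∑ i, ∑ j, Ψ j ⬝ᵥ (T j i *ᵥ X i) := by
    rw [Finset.sum_comm]
    have h2 : ∀ j, ∑ i, lo1 A Ψ j ⬝ᵥ (ra2 c A T j i *ᵥ lo1 A X i) =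
        (c : ℂ) * ∑ k, (((A j k : ℝ) : ℂ) • lo1 A Ψ j) ⬝ᵥ ∑ l, T k l *ᵥ X l := by
      intro j
      rw [← dotProduct_sum, ra2_lo hA, dotProduct_smul, dotProduct_sum, smul_eq_mul]
      congr 1
      refine Finset.sum_congr rfl fun k _ => ?_
      rw [dotProduct_smul, smul_dotProduct]
    simp only [h2]
    rw [← Finset.mul_sum, Finset.sum_comm]
    congr 1
    rw [Finset.sum_comm (s := Finset.univ) (t := Finset.univ) (f := fun i j => Ψ j ⬝ᵥ (T j i *ᵥ X i))]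
    refine Finset.sum_congr rfl fun k _ => ?_
    rw [← sum_dotProduct, ctr hA, dotProduct_sum]
  have h3 : ∑ i, ψ ⬝ᵥ (ra1 c A κ i *ᵥ lo1 A X i) = (c : ℂ) * ∑ i, ψ ⬝ᵥ (κ i *ᵥ X i) := by
    rw [← dotProduct_sum, ra1_lo hA, dotProduct_smul, dotProduct_sum, smul_eq_mul]
  rw [h1, h3]
  ring

theorem ra2_sub (c : ℝ) (T₁ T₂ : Fin n → Fin n → Matrix (Fin N) (Fin N) ℂ) (j i : Fin n) :
    ra2 c A (fun k l => T₁ k l - T₂ k l) j i = ra2 c A T₁ j i - ra2 c A T₂ j i := by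
  unfold ra2
  simp only [smul_sub, Finset.sum_sub_distrib]

theorem ra1_sub (c : ℝ) (κ₁ κ₂ : Fin n → Matrix (Fin N) (Fin N) ℂ) (i : Fin n) :
    ra1 c A (fun k => κ₁ k - κ₂ k) i = ra1 c A κ₁ i - ra1 c A κ₂ i := by
  unfold ra1
  simp only [smul_sub, Finset.sum_sub_distrib]

/-! ### the norm of columns -/

theorem nv_nn (v : Fin N → ℂ) : 0 ≤ nv v := Finset.sum_nonneg fun _ _ => sq_nonneg _

theorem nv_zero : nv (0 : Fin N → ℂ) = 0 := by
  unfold nv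
  simp

theorem nv_smulr (c : ℝ) (v : Fin N → ℂ) : nv ((c : ℂ) • v) = c ^ 2 * nv v := by
  unfold nv
  rw [Finset.mul_sum]
  refine Finset.sum_congr rfl fun a _ => ?_
  rw [Pi.smul_apply, smul_eq_mul, norm_mul, mul_pow, Complex.norm_real, Real.norm_eq_abs, sq_abs]

theorem quadv (B : Fin n → Fin n → ℝ) (X : Fin n → Fin N → ℂ) :
    ∑ i, nv (∑ k, ((B k i : ℝ) : ℂ) • X k) ≤ (∑ i, ∑ k, B k i ^ 2) * ∑ k, nv (X k) := by
  rw [Finset.sum_mul]
  refine Finset.sum_le_sum fun i _ => ?_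
  unfold nv
  rw [Finset.sum_comm (s := Finset.univ) (t := Finset.univ) (f := fun k a => ‖X k a‖ ^ 2),
    Finset.mul_sum]
  refine Finset.sum_le_sum fun a _ => ?_
  have h1 : ‖(∑ k, ((B k i : ℝ) : ℂ) • X k) a‖ ≤ ∑ k, |B k i| * ‖X k a‖ := by
    rw [Finset.sum_apply]
    refine (norm_sum_le _ _).trans (le_of_eq (Finset.sum_congr rfl fun k _ => ?_))
    rw [Pi.smul_apply, smul_eq_mul, norm_mul, Complex.norm_real, Real.norm_eq_abs]
  have h2 := Finset.sum_mul_sq_le_sq_mul_sq Finset.univ (fun k => |B k i|) (fun k => ‖X k a‖)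
  simp only [sq_abs] at h2
  exact (pow_le_pow_left₀ (norm_nonneg _) h1 2).trans h2

theorem combv {d : ℕ} {μ : Measure (V n)} {u : Fin d → V n → Fin N → ℂ}
    (h : ∀ q a, MemLp (fun x => u q x a) 2 μ) (c : Fin d → ℝ) :
    Integrable (fun x => nv (∑ q, (c q : ℂ) • u q x)) μ := by
  unfold nv
  refine integrable_finsetSum _ fun a _ => ?_
  have h1 : MemLp (fun x => ∑ q, (c q : ℂ) * u q x a) 2 μ :=
    memLp_finsetSum _ fun q _ => (h q a).const_mul (c q : ℂ)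
  have h2 : (fun x => ‖(∑ q, (c q : ℂ) • u q x) a‖ ^ 2) =
      fun x => ‖∑ q, (c q : ℂ) * u q x a‖ ^ 2 := by
    funext x
    rw [Finset.sum_apply]
    rfl
  rw [h2]
  exact h1.integrable_norm_pow (by norm_num)

theorem memLp_csv {f : V n → ℂ} (hf : Continuous f) (hc : HasCompactSupport f) (D : Set (V n)) :
    MemLp f 2 (volume.restrict D) :=
  (hf.memLp_of_hasCompactSupport hc).restrict D

/-! ### smooth columns -/

theorem cde {u : V n → Fin N → ℂ} (hu : ContDiff ℝ ∞ u) (a : Fin N) :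
    ContDiff ℝ ∞ fun x => u x a := (contDiff_apply ℝ ℂ a).comp hu

theorem cd_pdv {u : V n → Fin N → ℂ} (hu : ContDiff ℝ ∞ u) (i : Fin n) : ContDiff ℝ ∞ (pdv i u) :=
  contDiff_pi.2 fun a => cpF (cde hu a) i

theorem ts_e {u : V n → Fin N → ℂ} (a : Fin N) : tsupport (fun x => u x a) ⊆ tsupport u := by
  refine closure_mono fun x hx => ?_
  intro h
  exact hx (by show u x a = 0; rw [h]; rfl)

theorem hc_e {u : V n → Fin N → ℂ} (hu : HasCompactSupport u) (a : Fin N) :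
    HasCompactSupport (fun x => u x a) := hu.of_isClosed_subset (isClosed_tsupport _) (ts_e a)

theorem poffF {F : Type*} [NormedAddCommGroup F] [NormedSpace ℝ F] {f : V n → F} {x : V n}
    (hx : x ∉ tsupport f) (i : Fin n) : pd i f x = 0 := by
  have h : f =ᶠ[𝓝 x] fun _ => 0 := notMem_tsupport_iff_eventuallyEq.1 hx
  unfold pd
  rw [h.fderiv_eq]
  simp

theorem pdv_off {u : V n → Fin N → ℂ} {x : V n} (hx : x ∉ tsupport u) (i : Fin n) :
    pdv i u x = 0 := by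
  funext a
  exact poffF (fun h => hx (ts_e a h)) i

theorem hc_pdv {u : V n → Fin N → ℂ} (hu : HasCompactSupport u) (i : Fin n) :
    HasCompactSupport (pdv i u) := by
  refine hu.of_isClosed_subset (isClosed_tsupport _) (closure_minimal (fun x hx => ?_)
    (isClosed_tsupport _))
  by_contra h
  exact hx (pdv_off h i)

theorem pdv_loc {U : Set (V n)} (hU : IsOpen U) {f g : V n → Fin N → ℂ}
    (h : ∀ x ∈ U, f x = g x) {x : V n} (hx : x ∈ U) (i : Fin n) : pdv i f x = pdv i g x := by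
  funext a
  exact pd_congr hU (fun y hy => by rw [h y hy]) hx i

theorem MoV_off {T : Fin n → Fin n → MC n N} {κ : Fin n → MC n N} {u : V n → Fin N → ℂ} {x : V n}
    (hx : x ∉ tsupport u) : MoV T κ u x = 0 := by
  unfold MoV
  have h0 : ∀ i, pdv i u x = 0 := fun i => pdv_off hx i
  have hO : IsOpen (tsupport u)ᶜ := (isClosed_tsupport u).isOpen_compl
  have h1 : ∀ i, pdv i (fun y => ∑ l, T i l y *ᵥ pdv l u y) x = 0 := by
    intro i
    rw [pdv_loc hO (g := fun _ => 0) (fun y hy => by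
      simp only [pdv_off hy, Matrix.mulVec_zero, Finset.sum_const_zero]) hx i]
    funext a
    exact pd_const (0 : ℂ) x i
  simp only [h0, h1, Matrix.mulVec_zero, Finset.sum_const_zero, add_zero]

theorem MoV_congr {O : Set (V n)} (hO : IsOpen O) {T T' : Fin n → Fin n → MC n N}
    {κ κ' : Fin n → MC n N} (hT : ∀ i l, ∀ x ∈ O, T' i l x = T i l x)
    (hκ : ∀ i, ∀ x ∈ O, κ' i x = κ i x) (u : V n → Fin N → ℂ) {x : V n} (hx : x ∈ O) :
    MoV T' κ' u x = MoV T κ u x := by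
  unfold MoV
  congr 1
  · refine Finset.sum_congr rfl fun i _ => ?_
    exact pdv_loc hO (fun y hy => by simp only [hT i _ y hy]) hx i
  · exact Finset.sum_congr rfl fun i _ => by rw [hκ i x hx]

/-! ### congruence, restriction -/

theorem stpN_congr {D G : Set (V n)} (hD : IsOpen D) (hGm : MeasurableSet G)
    {T₁ T₂ T₁' T₂' : Fin n → Fin n → MC n N} {κ₁ κ₂ κ₁' κ₂' : Fin n → MC n N}
    (h1 : ∀ i l, ∀ x ∈ D, T₁' i l x = T₁ i l x) (h2 : ∀ i l, ∀ x ∈ D, T₂' i l x = T₂ i l x)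
    (h3 : ∀ i, ∀ x ∈ D, κ₁' i x = κ₁ i x) (h4 : ∀ i, ∀ x ∈ D, κ₂' i x = κ₂ i x)
    (h : StpN D G T₁ κ₁ T₂ κ₂) : StpN D G T₁' κ₁' T₂' κ₂' := by
  obtain ⟨C₀, hC₀, h⟩ := h
  refine ⟨C₀, hC₀, ?_⟩
  intro d f hf hfc hfD ε hε
  obtain ⟨w, dv, w1, w0, w2, w3, w4, wk, wb⟩ := h d f hf hfc hfD ε hε
  have hDG : MeasurableSet (D \ G) := hD.measurableSet.diff hGm
  refine ⟨w, dv, w1, w0, w2, w3, w4, fun q φ hφ hφc hφD => ?_, fun c => ?_⟩
  · have e1 : (∫ x in D, ((∑ i, ∑ j, pdv j φ x ⬝ᵥ (T₂' j i x *ᵥ pdv i (w q) x)) -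
            ∑ i, φ x ⬝ᵥ (κ₂' i x *ᵥ pdv i (w q) x))) =
        ∫ x in D, ((∑ i, ∑ j, pdv j φ x ⬝ᵥ (T₂ j i x *ᵥ pdv i (w q) x)) -
            ∑ i, φ x ⬝ᵥ (κ₂ i x *ᵥ pdv i (w q) x)) :=
      setIntegral_congr_fun hD.measurableSet fun x hx => by
        simp only [h2 _ _ x hx, h4 _ x hx]
    have e2 : (∫ x in D \ G, ((∑ i, ∑ j, pdv j φ x ⬝ᵥ ((T₁' j i x - T₂' j i x) *ᵥ dv q i x)) -
            ∑ i, φ x ⬝ᵥ ((κ₁' i x - κ₂' i x) *ᵥ dv q i x))) =
        ∫ x in D \ G, ((∑ i, ∑ j, pdv j φ x ⬝ᵥ ((T₁ j i x - T₂ j i x) *ᵥ dv q i x)) -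
            ∑ i, φ x ⬝ᵥ ((κ₁ i x - κ₂ i x) *ᵥ dv q i x)) :=
      setIntegral_congr_fun hDG fun x hx => by
        simp only [h1 _ _ x hx.1, h2 _ _ x hx.1, h3 _ x hx.1, h4 _ x hx.1]
    rw [e1, e2]
    exact wk q φ hφ hφc hφD
  · have e3 : ∫ x in D \ G, nv (∑ q, (c q : ℂ) • MoV T₁' κ₁' (f q) x) =
        ∫ x in D \ G, nv (∑ q, (c q : ℂ) • MoV T₁ κ₁ (f q) x) :=
      setIntegral_congr_fun hDG fun x hx => by
        simp only [MoV_congr hD h1 h3 _ hx.1]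
    rw [e3]
    exact wb c

theorem stpN_res {D D₁ G : Set (V n)} (hD : IsOpen D) (hG : MeasurableSet G)
    (hsub : D₁ ⊆ D) {T₁ T₂ : Fin n → Fin n → MC n N} {κ₁ κ₂ : Fin n → MC n N}
    (h : StpN D G T₁ κ₁ T₂ κ₂) : StpN D₁ G T₁ κ₁ T₂ κ₂ := by
  obtain ⟨C₀, hC₀, h⟩ := h
  refine ⟨C₀, hC₀, ?_⟩
  intro d f hf hfc hfD ε hε
  have hsd : D₁ \ G ⊆ D \ G := fun x hx => ⟨hsub hx.1, hx.2⟩
  obtain ⟨w, dv, w1, w0, w2, w3, w4, wk, wb⟩ := h d f hf hfc
    (fun q => (hfD q).trans hsub) ε hε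
  -- integrals over the larger set
  have big : ∀ (F : V n → ℂ), (∀ x ∉ D₁, F x = 0) → ∫ x in D, F x = ∫ x in D₁, F x := by
    intro F hF
    refine (setIntegral_eq_of_subset_of_forall_sdiff_eq_zero hD.measurableSet hsub ?_)
    exact fun x hx => hF x hx.2
  have big' : ∀ (F : V n → ℂ), (∀ x ∉ D₁, F x = 0) → ∫ x in D \ G, F x = ∫ x in D₁ \ G, F x := by
    intro F hF
    refine (setIntegral_eq_of_subset_of_forall_sdiff_eq_zero (hD.measurableSet.diff hG) hsd ?_)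
    intro x hx
    exact hF x fun h' => hx.2 ⟨h', hx.1.2⟩
  have bigr : ∀ (F : V n → ℝ), (∀ x ∉ D₁, F x = 0) → ∫ x in D \ G, F x = ∫ x in D₁ \ G, F x := by
    intro F hF
    refine (setIntegral_eq_of_subset_of_forall_sdiff_eq_zero (hD.measurableSet.diff hG) hsd ?_)
    intro x hx
    exact hF x fun h' => hx.2 ⟨h', hx.1.2⟩
  have hz : ∀ (u : V n → Fin N → ℂ) (x : V n), tsupport u ⊆ D₁ → x ∉ D₁ → u x = 0 ∧
      (∀ i, pdv i u x = 0) ∧ MoV T₁ κ₁ u x = 0 := fun u x hu hx =>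
    ⟨image_eq_zero_of_notMem_tsupport fun h' => hx (hu h'), fun i =>
      pdv_off (fun h' => hx (hu h')) i, MoV_off fun h' => hx (hu h')⟩
  refine ⟨w, dv, fun q => (w1 q).mono hsub, fun q x hx => w0 q x ⟨hx.1, hsub hx.2⟩,
    fun q a => (w2 q a).mono_measure (Measure.restrict_mono hsub le_rfl),
    fun q i a => (w3 q i a).mono_measure (Measure.restrict_mono hsub le_rfl),
    fun q i a => (w4 q i a).mono_measure (Measure.restrict_mono hsd le_rfl),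
    fun q φ hφ hφc hφD => ?_, fun c => ⟨?_, ?_⟩⟩
  · have hk := wk q φ hφ hφc (hφD.trans hsub)
    rw [big _ (fun x hx => by
      obtain ⟨z1, z2, -⟩ := hz φ x hφD hx
      simp only [z1, z2, zero_dotProduct, Finset.sum_const_zero, sub_zero]), big' _ (fun x hx => by
      obtain ⟨z1, z2, -⟩ := hz φ x hφD hx
      simp only [z1, z2, zero_dotProduct, Finset.sum_const_zero, sub_zero])] at hk
    exact hk
  · have hb := (wb c).1
    rw [bigr (fun x => nv (∑ q, (c q : ℂ) • MoV T₁ κ₁ (f q) x)) (fun x hx => by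
      have : ∀ q, MoV T₁ κ₁ (f q) x = 0 := fun q => (hz (f q) x (hfD q) hx).2.2
      simp only [this, smul_zero, Finset.sum_const_zero, nv_zero])] at hb
    refine le_trans ?_ hb
    refine setIntegral_mono_set ?_ (Filter.Eventually.of_forall fun x =>
      Finset.sum_nonneg fun _ _ => nv_nn _) (LE.le.eventuallyLE hsd)
    exact integrable_finsetSum _ fun i _ => combv (u := fun q x => dv q i x - pdv i (f q) x)
      (fun q a => (w4 q i a).sub (memLp_csv (cde (cd_pdv (hf q) i) a).continuous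
        (hc_e (hc_pdv (hfc q) i) a) _)) c
  · have hb := (wb c).2
    rw [bigr (fun x => nv (∑ q, (c q : ℂ) • MoV T₁ κ₁ (f q) x)) (fun x hx => by
      have : ∀ q, MoV T₁ κ₁ (f q) x = 0 := fun q => (hz (f q) x (hfD q) hx).2.2
      simp only [this, smul_zero, Finset.sum_const_zero, nv_zero]),
      bigr (fun x => nv (∑ q, (c q : ℂ) • f q x) + ∑ i, nv (∑ q, (c q : ℂ) • pdv i (f q) x))
      (fun x hx => by
      have h1 : ∀ q, f q x = 0 := fun q => (hz (f q) x (hfD q) hx).1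
      have h2 : ∀ q i, pdv i (f q) x = 0 := fun q i => (hz (f q) x (hfD q) hx).2.1 i
      simp only [h1, h2, smul_zero, Finset.sum_const_zero, nv_zero, add_zero])] at hb
    refine le_trans ?_ hb
    refine setIntegral_mono_set ?_ (Filter.Eventually.of_forall fun x =>
      add_nonneg (nv_nn _) (Finset.sum_nonneg fun _ _ => nv_nn _))
      (LE.le.eventuallyLE hsub)
    exact (combv w2 c).add (integrable_finsetSum _ fun i _ =>
      combv (u := fun q x => pdv i (w q) x) (fun q a => w3 q i a) c)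

end Vale.Agent.P088.R2.H794.S4
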