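import Vale.Agent.P088.R2.H794.S4.StN

/-!
# P088, stage 4: affine change of coordinates in `StpN`
-/

open MeasureTheory Set
open scoped ContDiff Matrix Topology

noncomputable section

namespace Vale.Agent.P088.R2.H794.S4

open Vale.Agent.P088.LR Vale.Agent.P088.LR.U Vale.Agent.P088.LR.H158
open Vale.Agent.P088.PJ
open Vale.Agent.P088.R2.H238.S3.A
open Vale.Agent.P088.S4 (MoV pdv nv StpN)

variable {n N : ℕ} {A : Matrix (Fin n) (Fin n) ℝ}

/-- The transformed second order coefficients. -/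
def raT (c : ℝ) (A : Matrix (Fin n) (Fin n) ℝ) (v : V n) (T : Fin n → Fin n → MC n N)
    (i j : Fin n) : MC n N := fun z => ra2 c A (fun k l => T k l (fa A v z)) i j

/-- The transformed first order coefficients. -/
def raK (c : ℝ) (A : Matrix (Fin n) (Fin n) ℝ) (v : V n) (κ : Fin n → MC n N)
    (i : Fin n) : MC n N := fun z => ra1 c A (fun k => κ k (fa A v z)) i

/-- The divergence of a raised field of columns. -/
theorem div_raiV (hA : A.det ≠ 0) (c : ℝ) (v : V n) {F : Fin n → V n → Fin N → ℂ}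
    (hF : ∀ k, ContDiff ℝ ∞ (F k)) (z : V n) :
    ∑ i, pdv i (fun y => (c : ℂ) • ∑ k, ((A i k : ℝ) : ℂ) • F k (fa A v y)) z =
      (c : ℂ) • ∑ k, pdv k (F k) (fa A v z) := by
  have h1 : ∀ i, pdv i (fun y => (c : ℂ) • ∑ k, ((A i k : ℝ) : ℂ) • F k (fa A v y)) z =
      (c : ℂ) • ∑ k, ((A i k : ℝ) : ℂ) • lo1 A (fun m => pdv m (F k) (fa A v z)) i := by
    intro i
    have h2 : ∀ k, lo1 A (fun m => pdv m (F k) (fa A v z)) i =
        pdv i (fun y => F k (fa A v y)) z := fun k =>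
      (pdv_fa A v (u := F k) (z := z) (fun a => dfa (cde (hF k) a) _) i).symm
    simp only [h2]
    funext a
    have hd : ∀ k, HasFDerivAt (fun y => F k (fa A v y) a)
        (fderiv ℝ (fun y => F k (fa A v y) a) z) z := fun k =>
      (dfa ((cde (hF k) a).comp (fa_cd A v)) z).hasFDerivAt
    have h3 : HasFDerivAt (fun y => (c : ℂ) * ∑ k, ((A i k : ℝ) : ℂ) * F k (fa A v y) a)
        ((c : ℂ) • ∑ k, ((A i k : ℝ) : ℂ) • fderiv ℝ (fun y => F k (fa A v y) a) z) z :=
      (HasFDerivAt.fun_sum fun k _ => (hd k).const_mul ((A i k : ℝ) : ℂ)).const_mul (c : ℂ)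
    have h4 : (fun y => ((c : ℂ) • ∑ k, ((A i k : ℝ) : ℂ) • F k (fa A v y)) a) =
        fun y => (c : ℂ) * ∑ k, ((A i k : ℝ) : ℂ) * F k (fa A v y) a := by
      funext y
      rw [Pi.smul_apply, Finset.sum_apply]
      rfl
    show pd i (fun y => ((c : ℂ) • ∑ k, ((A i k : ℝ) : ℂ) • F k (fa A v y)) a) z = _
    rw [h4]
    unfold pd
    rw [h3.fderiv, Pi.smul_apply, Finset.sum_apply, smul_apply, sum_apply]
    rfl
  simp only [h1]
  rw [← Finset.smul_sum, Finset.sum_comm]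
  congr 1
  exact Finset.sum_congr rfl fun k _ => ctr hA (fun m => pdv m (F k) (fa A v z)) k

theorem cd_mulVec {P : MC n N} (hP : SmC P) {u : V n → Fin N → ℂ} (hu : ContDiff ℝ ∞ u) :
    ContDiff ℝ ∞ fun x => P x *ᵥ u x := contDiff_mulVec hP hu

/-- The operator on columns. -/
theorem MoV_aff (hA : A.det ≠ 0) (c : ℝ) (v : V n) {T : Fin n → Fin n → MC n N}
    (hT : ∀ i j, SmC (T i j)) (κ : Fin n → MC n N) {f : V n → Fin N → ℂ} (hf : ContDiff ℝ ∞ f)
    (x : V n) : MoV (raT c A v T) (raK c A v κ) f (af A v x) =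
      (c : ℂ) • MoV T κ (fun x => f (af A v x)) x := by
  obtain ⟨g, hg⟩ : ∃ g : V n → Fin N → ℂ, g = fun x => f (af A v x) := ⟨_, rfl⟩
  have hgs : ContDiff ℝ ∞ g := by rw [hg]; exact hf.comp (af_cd A v)
  have hfg : f = fun y => g (fa A v y) := by
    funext y; rw [hg]; simp only [af_fa hA v]
  rw [← hg]
  have h1 : ∀ l y, pdv l f y = lo1 A (fun m => pdv m g (fa A v y)) l := by
    intro l y
    rw [hfg]
    exact pdv_fa A v (u := g) (z := y) (fun a => dfa (cde hgs a) _) l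
  unfold MoV
  have h2 : ∀ i, (fun y => ∑ l, raT c A v T i l y *ᵥ pdv l f y) =
      fun y => (c : ℂ) • ∑ k, ((A i k : ℝ) : ℂ) •
        (fun x => ∑ l, T k l x *ᵥ pdv l g x) (fa A v y) := by
    intro i
    funext y
    simp only [h1]
    exact ra2_lo hA c (fun k l => T k l (fa A v y)) (fun m => pdv m g (fa A v y)) i
  simp only [h2]
  rw [div_raiV hA c v (F := fun k x => ∑ l, T k l x *ᵥ pdv l g x) (fun k =>
    ContDiff.sum fun l _ => contDiff_mulVec (hT k l) (cd_pdv hgs l)), fa_af hA v, smul_add]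
  congr 1
  simp only [h1]
  have h3 := ra1_lo hA c (fun k => κ k (fa A v (af A v x)))
    (fun m => pdv m g (fa A v (af A v x)))
  unfold raK
  rw [h3, fa_af hA v]

/-- Change of variables, backwards. -/
theorem int_mvE {E : Type*} [NormedAddCommGroup E] [NormedSpace ℝ E] (hA : A.det ≠ 0) (v : V n)
    (D : Set (V n)) (f : V n → E) :
    ∫ x in (fun x => fa A v x) ⁻¹' D, f x = |A.det⁻¹|⁻¹ • ∫ x in D, f (af A v x) := by
  have e : (fun x => af A v x) ⁻¹' ((fun x => fa A v x) ⁻¹' D) = D := by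
    ext x
    show fa A v (af A v x) ∈ D ↔ x ∈ D
    rw [fa_af hA v]
  have h := (hma A hA v).measurableEmbedding.integral_map
    (μ := volume.restrict ((fun x => af A v x) ⁻¹' ((fun x => fa A v x) ⁻¹' D))) f
  have h2 : Measure.map (hma A hA v) (volume.restrict
      ((fun x => af A v x) ⁻¹' ((fun x => fa A v x) ⁻¹' D))) =
      ENNReal.ofReal |A.det⁻¹| • volume.restrict ((fun x => fa A v x) ⁻¹' D) := map_res hA v _
  rw [h2, integral_smul_measure, ENNReal.toReal_ofReal (abs_nonneg _), e] at h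
  have h3 : ∫ x in D, f (af A v x) = |A.det⁻¹| • ∫ x in (fun x => fa A v x) ⁻¹' D, f x := h.symm
  rw [h3, smul_smul, inv_mul_cancel₀ (abs_pos.2 (inv_ne_zero hA)).ne', one_smul]

theorem mem_mvE {E : Type*} [NormedAddCommGroup E] (hA : A.det ≠ 0) (v : V n) {D : Set (V n)}
    {f : V n → E} (h : MemLp f 2 (volume.restrict D)) :
    MemLp (fun x => f (fa A v x)) 2 (volume.restrict ((fun x => fa A v x) ⁻¹' D)) := by
  have e : (fun x => af A v x) ⁻¹' ((fun x => fa A v x) ⁻¹' D) = D := by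
    ext x
    show fa A v (af A v x) ∈ D ↔ x ∈ D
    rw [fa_af hA v]
  have h1 : MemLp (fun x => f (fa A v x)) 2
      (Measure.map (hma A hA v) (volume.restrict
        ((fun x => af A v x) ⁻¹' ((fun x => fa A v x) ⁻¹' D)))) := by
    rw [(hma A hA v).measurableEmbedding.memLp_map_measure_iff, e]
    refine h.ae_eq (Filter.Eventually.of_forall fun x => ?_)
    show f x = f (fa A v (af A v x))
    rw [fa_af hA v]
  have h2 : Measure.map (hma A hA v) (volume.restrict
      ((fun x => af A v x) ⁻¹' ((fun x => fa A v x) ⁻¹' D))) =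
      ENNReal.ofReal |A.det⁻¹| • volume.restrict ((fun x => fa A v x) ⁻¹' D) := map_res hA v _
  rw [h2] at h1
  have hc : ENNReal.ofReal |A.det⁻¹| ≠ 0 := by
    rw [ne_eq, ENNReal.ofReal_eq_zero, not_le]
    exact abs_pos.2 (inv_ne_zero hA)
  refine h1.of_measure_le_smul (c := (ENNReal.ofReal |A.det⁻¹|)⁻¹) (ENNReal.inv_ne_top.2 hc) ?_
  rw [smul_smul, ENNReal.inv_mul_cancel hc ENNReal.ofReal_ne_top, one_smul]

theorem lo1_app (X : Fin n → Fin N → ℂ) (i : Fin n) (a : Fin N) :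
    lo1 A X i a = ∑ k, ((A⁻¹ k i : ℝ) : ℂ) * X k a := by
  unfold lo1
  rw [Finset.sum_apply]
  rfl

theorem lo1_comb {d : ℕ} (c : Fin d → ℝ) (X : Fin d → Fin n → Fin N → ℂ) (i : Fin n) :
    ∑ q, (c q : ℂ) • lo1 A (X q) i = ∑ k, ((A⁻¹ k i : ℝ) : ℂ) • ∑ q, (c q : ℂ) • X q k := by
  unfold lo1
  simp only [Finset.smul_sum]
  rw [Finset.sum_comm]
  exact Finset.sum_congr rfl fun k _ => Finset.sum_congr rfl fun q _ => smul_comm _ _ _

/-- **Affine change of coordinates in `StpN`.** -/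
theorem stpN_aff (hA : A.det ≠ 0) (v : V n) {c : ℝ} (hc : 0 < c) {D G : Set (V n)}
    (hD : IsOpen D) {T₁ T₂ : Fin n → Fin n → MC n N} (hT : ∀ i j, SmC (T₁ i j))
    {κ₁ κ₂ : Fin n → MC n N} (h : StpN D G T₁ κ₁ T₂ κ₂) :
    StpN ((fun x => fa A v x) ⁻¹' D) ((fun x => fa A v x) ⁻¹' G) (raT c A v T₁) (raK c A v κ₁)
      (raT c A v T₂) (raK c A v κ₂) := by
  obtain ⟨C₀, hC₀, h⟩ := h
  obtain ⟨J, hJ⟩ : ∃ J : ℝ, J = |A.det⁻¹| := ⟨_, rfl⟩
  have hJ0 : 0 < J := by rw [hJ]; exact abs_pos.2 (inv_ne_zero hA)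
  obtain ⟨NA, hNA⟩ : ∃ N : ℝ, N = ∑ i, ∑ k, A i k ^ 2 := ⟨_, rfl⟩
  obtain ⟨NB, hNB⟩ : ∃ N : ℝ, N = ∑ i, ∑ k, A⁻¹ k i ^ 2 := ⟨_, rfl⟩
  have hNA0 : 0 ≤ NA := by
    rw [hNA]; exact Finset.sum_nonneg fun _ _ => Finset.sum_nonneg fun _ _ => sq_nonneg _
  have hNB0 : 0 ≤ NB := by
    rw [hNB]; exact Finset.sum_nonneg fun _ _ => Finset.sum_nonneg fun _ _ => sq_nonneg _
  have hci : 0 ≤ (c ^ 2)⁻¹ := by positivity
  refine ⟨(1 + NB) * (1 + NA) * (1 + (c ^ 2)⁻¹) * C₀, by positivity, ?_⟩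
  intro d f hf hfc hfD ε hε
  have eDG' : (fun x => fa A v x) ⁻¹' D \ (fun x => fa A v x) ⁻¹' G =
      (fun x => fa A v x) ⁻¹' (D \ G) := rfl
  -- supports
  have hcs : ∀ {u : V n → Fin N → ℂ}, HasCompactSupport u → HasCompactSupport fun x => u (af A v x) :=
    fun {u} hu => hu.comp_homeomorph (hma A hA v)
  have hts : ∀ {u : V n → Fin N → ℂ}, tsupport (fun x => u (af A v x)) =
      (fun x => af A v x) ⁻¹' tsupport u := by
    intro u
    exact (tsupport_comp_eq_preimage u (hma A hA v))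
  have hmem : ∀ {S : Set (V n)} {u : V n → Fin N → ℂ}, tsupport u ⊆ (fun x => fa A v x) ⁻¹' S →
      tsupport (fun x => u (af A v x)) ⊆ S := by
    intro S u hu x hx
    rw [hts] at hx
    have := hu hx
    have h3 : fa A v (af A v x) ∈ S := this
    rwa [fa_af hA v] at h3
  have hfa : ∀ q, ContDiff ℝ ∞ (fun x => f q (af A v x)) := fun q => (hf q).comp (af_cd A v)
  obtain ⟨w, dv, w1, w0, w2, w3, w4, wk, wb⟩ := h d (fun q x => f q (af A v x))
    hfa (fun q => hcs (hfc q)) (fun q => hmem (hfD q)) (ε * J / (1 + NB)) (by positivity)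
  -- the gradients
  have hwd : ∀ q a, ∀ x ∈ D, DifferentiableAt ℝ (fun x => w q x a) x := fun q a x hx => by
    have h1 : DifferentiableAt ℝ (w q) x :=
      ((w1 q).contDiffAt (hD.mem_nhds hx)).differentiableAt (by simp)
    exact (differentiableAt_pi.1 h1) a
  have gw : ∀ q i, ∀ z ∈ (fun x => fa A v x) ⁻¹' D, pdv i (fun x => w q (fa A v x)) z =
      lo1 A (fun k => pdv k (w q) (fa A v z)) i := fun q i z hz =>
    pdv_fa A v (u := w q) (z := z) (fun a => hwd q a _ hz) i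
  have gf : ∀ (φ : V n → Fin N → ℂ), ContDiff ℝ ∞ φ → ∀ i x, pdv i φ (af A v x) =
      lo1 A (fun k => pdv k (fun x => φ (af A v x)) x) i := by
    intro φ hφ i x
    have h3 := pdv_fa A v (u := fun x => φ (af A v x)) (z := af A v x)
      (fun a => dfa ((cde hφ a).comp (af_cd A v)) _) i
    have h4 : (fun y => (fun x => φ (af A v x)) (fa A v y)) = φ := by
      funext y; simp only [af_fa hA v]
    rw [h4, fa_af hA v] at h3
    exact h3
  have hDm : MeasurableSet D := hD.measurableSet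
  have hD'o : IsOpen ((fun x => fa A v x) ⁻¹' D) := hD.preimage (fa_c A v)
  have pull : ∀ {D : Set (V n)} (i : Fin n) {u : Fin n → V n → Fin N → ℂ} (a : Fin N),
      (∀ k, MemLp (fun x => u k x a) 2 (volume.restrict D)) →
      MemLp (fun z => lo1 A (fun k => u k (fa A v z)) i a) 2
        (volume.restrict ((fun x => fa A v x) ⁻¹' D)) := by
    intro D i u a hu
    have e : (fun z => lo1 A (fun k => u k (fa A v z)) i a) =
        fun z => ∑ k, ((A⁻¹ k i : ℝ) : ℂ) * u k (fa A v z) a := by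
      funext z; exact lo1_app _ i a
    rw [e]
    exact memLp_finsetSum _ fun k _ => (mem_mvE hA v (hu k)).const_mul _
  refine ⟨fun q x => w q (fa A v x), fun q i z => lo1 A (fun k => dv q k (fa A v z)) i,
    fun q => ?_, fun q x hx => w0 q _ hx, fun q a => mem_mvE hA v (w2 q a), fun q i a => ?_,
    fun q i a => pull i a fun k => w4 q k a, fun q φ hφ hφc hφD => ?_, fun cc => ⟨?_, ?_⟩⟩
  · exact (w1 q).comp ((fa_cd A v).of_le (by exact_mod_cast le_top)).contDiffOn fun x hx => hx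
  · refine (pull i a fun k => w3 q k a).ae_eq ?_
    refine (ae_restrict_mem hD'o.measurableSet).mono fun x hx => ?_
    exact (congrFun (gw q i x hx) a).symm
  · -- the weak equation
    have hk := wk q (fun x => φ (af A v x)) (hφ.comp (af_cd A v)) (hcs hφc) (hmem hφD)
    rw [eDG', int_mvE hA v, int_mvE hA v]
    congr 1
    have e1 : ∫ x in D, ((∑ i, ∑ j, pdv j φ (af A v x) ⬝ᵥ (raT c A v T₂ j i (af A v x) *ᵥ
          pdv i (fun x => w q (fa A v x)) (af A v x))) -
          ∑ i, φ (af A v x) ⬝ᵥ (raK c A v κ₂ i (af A v x) *ᵥ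
            pdv i (fun x => w q (fa A v x)) (af A v x))) =
        (c : ℂ) * ∫ x in D, ((∑ i, ∑ j, pdv j (fun x => φ (af A v x)) x ⬝ᵥ (T₂ j i x *ᵥ
          pdv i (w q) x)) - ∑ i, φ (af A v x) ⬝ᵥ (κ₂ i x *ᵥ pdv i (w q) x)) := by
      rw [← integral_const_mul]
      refine setIntegral_congr_fun hDm fun x hx => ?_
      have e2 := wk_aff hA c (fun k l => T₂ k l x) (fun k => κ₂ k x) (φ (af A v x))
        (fun j => pdv j (fun x => φ (af A v x)) x) (fun i => pdv i (w q) x)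
      have e3 : ∀ i, pdv i (fun x => w q (fa A v x)) (af A v x) =
          lo1 A (fun k => pdv k (w q) x) i := by
        intro i
        have := gw q i (af A v x) (by show fa A v (af A v x) ∈ D; rwa [fa_af hA v])
        rw [fa_af hA v] at this
        exact this
      unfold Wk at e2
      simp only [e3, gf φ hφ]
      rw [← e2]
      unfold raT raK
      rw [fa_af hA v]
    have e4 : ∫ x in D \ G, ((∑ i, ∑ j, pdv j φ (af A v x) ⬝ᵥ ((raT c A v T₁ j i (af A v x) -
          raT c A v T₂ j i (af A v x)) *ᵥ lo1 A (fun k => dv q k (fa A v (af A v x))) i)) -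
          ∑ i, φ (af A v x) ⬝ᵥ ((raK c A v κ₁ i (af A v x) - raK c A v κ₂ i (af A v x)) *ᵥ
            lo1 A (fun k => dv q k (fa A v (af A v x))) i)) =
        (c : ℂ) * ∫ x in D \ G, ((∑ i, ∑ j, pdv j (fun x => φ (af A v x)) x ⬝ᵥ
          ((T₁ j i x - T₂ j i x) *ᵥ dv q i x)) - ∑ i, φ (af A v x) ⬝ᵥ
            ((κ₁ i x - κ₂ i x) *ᵥ dv q i x)) := by
      rw [← integral_const_mul]
      congr 1
      funext x
      have e2 := wk_aff hA c (fun k l => T₁ k l x - T₂ k l x) (fun k => κ₁ k x - κ₂ k x)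
        (φ (af A v x)) (fun j => pdv j (fun x => φ (af A v x)) x) (fun i => dv q i x)
      unfold Wk at e2
      simp only [gf φ hφ, fa_af hA v]
      rw [← e2]
      simp only [ra2_sub, ra1_sub]
      unfold raT raK
      rw [fa_af hA v]
    rw [e1, hk, e4]
  · -- the first bound
    have hb := (wb cc).1
    have i4 : ∀ k, Integrable (fun x => nv (∑ q, (cc q : ℂ) • (dv q k x -
        pdv k (fun x => f q (af A v x)) x))) (volume.restrict (D \ G)) := fun k =>
      combv (u := fun q x => dv q k x - pdv k (fun x => f q (af A v x)) x) (fun q a =>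
        (w4 q k a).sub (memLp_csv (cde (cd_pdv (hfa q) k) a).continuous
        (hc_e (hc_pdv (hcs (hfc q)) k) a) _)) cc
    rw [eDG', int_mvE hA v, int_mvE hA v, ← hJ, smul_eq_mul, smul_eq_mul]
    have b1 : ∫ x in D \ G, ∑ i, nv (∑ q, (cc q : ℂ) • (lo1 A (fun k => dv q k
        (fa A v (af A v x))) i - pdv i (f q) (af A v x))) ≤
        ∫ x in D \ G, NB * ∑ k, nv (∑ q, (cc q : ℂ) • (dv q k x -
        pdv k (fun x => f q (af A v x)) x)) := by
      refine integral_mono_of_nonneg (Filter.Eventually.of_forall fun x =>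
        Finset.sum_nonneg fun _ _ => nv_nn _)
        ((integrable_finsetSum _ fun k _ => i4 k).const_mul NB)
        (Filter.Eventually.of_forall fun x => ?_)
      have q1 := quadv (fun k i => A⁻¹ k i) (fun k => ∑ q, (cc q : ℂ) • (dv q k x -
        pdv k (fun x => f q (af A v x)) x))
      rw [← hNB] at q1
      refine le_trans (le_of_eq ?_) q1
      refine Finset.sum_congr rfl fun i _ => ?_
      congr 1
      rw [← lo1_comb cc (fun q k => dv q k x - pdv k (fun x => f q (af A v x)) x) i]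
      refine Finset.sum_congr rfl fun q _ => ?_
      rw [gf (f q) (hf q) i x, fa_af hA v]
      congr 1
      unfold lo1
      rw [← Finset.sum_sub_distrib]
      exact Finset.sum_congr rfl fun k _ => by rw [smul_sub]
    have b2 : ∀ x, nv (∑ q, (cc q : ℂ) • MoV (raT c A v T₁) (raK c A v κ₁) (f q) (af A v x)) =
        c ^ 2 * nv (∑ q, (cc q : ℂ) • MoV T₁ κ₁ (fun x => f q (af A v x)) x) := by
      intro x
      rw [← nv_smulr, Finset.smul_sum]
      congr 1
      refine Finset.sum_congr rfl fun q _ => ?_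
      rw [MoV_aff hA c v hT κ₁ (hf q), smul_comm]
    simp only [b2]
    rw [integral_const_mul]
    obtain ⟨X, hX⟩ : ∃ X : ℝ, X = ∫ x in D \ G, nv (∑ q, (cc q : ℂ) •
      MoV T₁ κ₁ (fun x => f q (af A v x)) x) := ⟨_, rfl⟩
    rw [← hX] at hb
    rw [← hX]
    rw [integral_const_mul] at b1
    have hX0 : 0 ≤ X := by rw [hX]; exact integral_nonneg fun x => nv_nn _
    have hs0 : 0 ≤ ∑ q, cc q ^ 2 := Finset.sum_nonneg fun _ _ => sq_nonneg _
    refine (mul_le_mul_of_nonneg_left (b1.trans (mul_le_mul_of_nonneg_left hb hNB0))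
      (inv_nonneg.2 hJ0.le)).trans ?_
    have e5 : J⁻¹ * (NB * (C₀ * X + ε * J / (1 + NB) * ∑ q, cc q ^ 2)) =
        NB * C₀ * (J⁻¹ * X) + NB / (1 + NB) * (ε * ∑ q, cc q ^ 2) := by
      field_simp
    rw [e5]
    have b3 : NB / (1 + NB) ≤ 1 := by
      rw [div_le_one (by positivity)]; linarith
    have b4 : NB / (1 + NB) * (ε * ∑ q, cc q ^ 2) ≤ 1 * (ε * ∑ q, cc q ^ 2) :=
      mul_le_mul_of_nonneg_right b3 (by positivity)
    have b5 : NB * C₀ * (J⁻¹ * X) ≤
        (1 + NB) * (1 + NA) * (1 + (c ^ 2)⁻¹) * C₀ * (J⁻¹ * (c ^ 2 * X)) := by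
      have u0 : 0 ≤ C₀ * (J⁻¹ * X) := by positivity
      have u1 : NB ≤ (1 + NB) * (1 + NA) := by nlinarith [mul_nonneg hNA0 hNB0]
      have u2 : (1 + (c ^ 2)⁻¹) * c ^ 2 = c ^ 2 + 1 := by field_simp
      have u3 : (1 + NB) * (1 + NA) * (1 + (c ^ 2)⁻¹) * C₀ * (J⁻¹ * (c ^ 2 * X)) =
          (1 + NB) * (1 + NA) * ((1 + (c ^ 2)⁻¹) * c ^ 2) * (C₀ * (J⁻¹ * X)) := by ring
      rw [u3, u2]
      have u4 : NB ≤ (1 + NB) * (1 + NA) * (c ^ 2 + 1) := by
        have : 0 ≤ (1 + NB) * (1 + NA) * c ^ 2 := by positivity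
        nlinarith
      calc NB * C₀ * (J⁻¹ * X) = NB * (C₀ * (J⁻¹ * X)) := by ring
        _ ≤ _ := mul_le_mul_of_nonneg_right u4 u0
    linarith
  · -- the second bound
    have hb := (wb cc).2
    have i1 := combv w2 cc
    have i2 : ∀ k, Integrable (fun x => nv (∑ q, (cc q : ℂ) • pdv k (w q) x))
        (volume.restrict D) :=
      fun k => combv (u := fun q x => pdv k (w q) x) (fun q a => w3 q k a) cc
    rw [eDG', int_mvE hA v, int_mvE hA v, int_mvE hA v, ← hJ, smul_eq_mul, smul_eq_mul,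
      smul_eq_mul]
    have b1 : ∫ x in D, (nv (∑ q, (cc q : ℂ) • w q (fa A v (af A v x))) +
        ∑ i, nv (∑ q, (cc q : ℂ) • pdv i (fun x => w q (fa A v x)) (af A v x))) ≤
        ∫ x in D, (1 + NB) * (nv (∑ q, (cc q : ℂ) • w q x) +
          ∑ k, nv (∑ q, (cc q : ℂ) • pdv k (w q) x)) := by
      refine integral_mono_of_nonneg (Filter.Eventually.of_forall fun x =>
        add_nonneg (nv_nn _) (Finset.sum_nonneg fun _ _ => nv_nn _))
        ((i1.add (integrable_finsetSum _ fun k _ => i2 k)).const_mul (1 + NB))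
        ((ae_restrict_mem hDm).mono fun x hx => ?_)
      have q1 := quadv (fun k i => A⁻¹ k i) (fun k => ∑ q, (cc q : ℂ) • pdv k (w q) x)
      rw [← hNB] at q1
      have q2 : ∑ i, nv (∑ q, (cc q : ℂ) • pdv i (fun x => w q (fa A v x)) (af A v x)) =
          ∑ i, nv (∑ k, ((A⁻¹ k i : ℝ) : ℂ) • ∑ q, (cc q : ℂ) • pdv k (w q) x) := by
        refine Finset.sum_congr rfl fun i _ => ?_
        congr 1
        rw [← lo1_comb cc (fun q k => pdv k (w q) x) i]
        refine Finset.sum_congr rfl fun q _ => ?_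
        rw [gw q i (af A v x) (by show fa A v (af A v x) ∈ D; rwa [fa_af hA v]), fa_af hA v]
      show nv (∑ q, (cc q : ℂ) • w q (fa A v (af A v x))) +
        ∑ i, nv (∑ q, (cc q : ℂ) • pdv i (fun x => w q (fa A v x)) (af A v x)) ≤
        (1 + NB) * (nv (∑ q, (cc q : ℂ) • w q x) + ∑ k, nv (∑ q, (cc q : ℂ) • pdv k (w q) x))
      rw [q2, fa_af hA v]
      have q3 : 0 ≤ ∑ k, nv (∑ q, (cc q : ℂ) • pdv k (w q) x) :=
        Finset.sum_nonneg fun _ _ => nv_nn _
      nlinarith [mul_nonneg hNB0 (nv_nn (∑ q, (cc q : ℂ) • w q x))]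
    have b2 : ∀ x, nv (∑ q, (cc q : ℂ) • MoV (raT c A v T₁) (raK c A v κ₁) (f q) (af A v x)) =
        c ^ 2 * nv (∑ q, (cc q : ℂ) • MoV T₁ κ₁ (fun x => f q (af A v x)) x) := by
      intro x
      rw [← nv_smulr, Finset.smul_sum]
      congr 1
      refine Finset.sum_congr rfl fun q _ => ?_
      rw [MoV_aff hA c v hT κ₁ (hf q), smul_comm]
    simp only [b2]
    rw [integral_const_mul]
    have b3 : ∫ x in D \ G, (nv (∑ q, (cc q : ℂ) • f q (af A v x)) +
        ∑ i, nv (∑ q, (cc q : ℂ) • pdv i (fun x => f q (af A v x)) x)) ≤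
        (1 + NA) * ∫ x in D \ G, (nv (∑ q, (cc q : ℂ) • f q (af A v x)) +
          ∑ i, nv (∑ q, (cc q : ℂ) • pdv i (f q) (af A v x))) := by
      rw [← integral_const_mul]
      have j1 : Integrable (fun x => nv (∑ q, (cc q : ℂ) • f q (af A v x)))
          (volume.restrict (D \ G)) :=
        combv (u := fun q x => f q (af A v x)) (fun q a => memLp_csv
          (cde (hfa q) a).continuous (hc_e (hcs (hfc q)) a) _) cc
      have j2 : ∀ i, Integrable (fun x => nv (∑ q, (cc q : ℂ) • pdv i (f q) (af A v x)))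
          (volume.restrict (D \ G)) := fun i =>
        combv (u := fun q x => pdv i (f q) (af A v x)) (fun q a => memLp_csv
          ((cde (cd_pdv (hf q) i) a).comp (af_cd A v)).continuous
          (hc_e (hcs (hc_pdv (hfc q) i)) a) _) cc
      refine integral_mono_of_nonneg (Filter.Eventually.of_forall fun x =>
        add_nonneg (nv_nn _) (Finset.sum_nonneg fun _ _ => nv_nn _))
        ((j1.add (integrable_finsetSum _ fun i _ => j2 i)).const_mul (1 + NA))
        (Filter.Eventually.of_forall fun x => ?_)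
      have q1 := quadv (fun l i => A l i) (fun l => ∑ q, (cc q : ℂ) • pdv l (f q) (af A v x))
      have q4 : ∑ i, ∑ k, A k i ^ 2 = NA := by rw [hNA, Finset.sum_comm]
      rw [q4] at q1
      have q2 : ∑ i, nv (∑ q, (cc q : ℂ) • pdv i (fun x => f q (af A v x)) x) =
          ∑ i, nv (∑ l, ((A l i : ℝ) : ℂ) • ∑ q, (cc q : ℂ) • pdv l (f q) (af A v x)) := by
        refine Finset.sum_congr rfl fun i _ => ?_
        congr 1
        simp only [Finset.smul_sum]
        rw [Finset.sum_comm]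
        refine Finset.sum_congr rfl fun q _ => ?_
        rw [pdv_af A v (u := f q) (x := x) (fun a => dfa (cde (hf q) a) _) i, Finset.smul_sum]
        exact Finset.sum_congr rfl fun k _ => smul_comm _ _ _
      show nv (∑ q, (cc q : ℂ) • f q (af A v x)) +
        ∑ i, nv (∑ q, (cc q : ℂ) • pdv i (fun x => f q (af A v x)) x) ≤
        (1 + NA) * (nv (∑ q, (cc q : ℂ) • f q (af A v x)) +
          ∑ i, nv (∑ q, (cc q : ℂ) • pdv i (f q) (af A v x)))
      rw [q2]
      have q3 : 0 ≤ ∑ i, nv (∑ q, (cc q : ℂ) • pdv i (f q) (af A v x)) :=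
        Finset.sum_nonneg fun _ _ => nv_nn _
      nlinarith [mul_nonneg hNA0 (nv_nn (∑ q, (cc q : ℂ) • f q (af A v x)))]
    rw [integral_const_mul] at b1
    obtain ⟨X, hX⟩ : ∃ X : ℝ, X = ∫ x in D \ G, nv (∑ q, (cc q : ℂ) •
      MoV T₁ κ₁ (fun x => f q (af A v x)) x) := ⟨_, rfl⟩
    obtain ⟨Y, hY⟩ : ∃ Y : ℝ, Y = ∫ x in D \ G, (nv (∑ q, (cc q : ℂ) • f q (af A v x)) +
          ∑ i, nv (∑ q, (cc q : ℂ) • pdv i (f q) (af A v x))) := ⟨_, rfl⟩
    rw [← hX] at hb
    rw [← hY] at b3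
    rw [← hX, ← hY]
    have hX0 : 0 ≤ X := by rw [hX]; exact integral_nonneg fun x => nv_nn _
    have hY0 : 0 ≤ Y := by
      rw [hY]
      exact integral_nonneg fun x => add_nonneg (nv_nn _) (Finset.sum_nonneg fun _ _ => nv_nn _)
    have hs0 : 0 ≤ ∑ q, cc q ^ 2 := Finset.sum_nonneg fun _ _ => sq_nonneg _
    have b6 : C₀ * ((∫ x in D \ G, (nv (∑ q, (cc q : ℂ) • f q (af A v x)) +
        ∑ i, nv (∑ q, (cc q : ℂ) • pdv i (fun x => f q (af A v x)) x))) + X) ≤
        C₀ * ((1 + NA) * Y + X) :=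
      mul_le_mul_of_nonneg_left (by linarith) hC₀
    have b7 := hb.trans (add_le_add b6 le_rfl)
    refine (mul_le_mul_of_nonneg_left (b1.trans (mul_le_mul_of_nonneg_left b7 (by positivity)))
      (inv_nonneg.2 hJ0.le)).trans ?_
    have e5 : J⁻¹ * ((1 + NB) * (C₀ * ((1 + NA) * Y + X) +
        ε * J / (1 + NB) * ∑ q, cc q ^ 2)) =
        (1 + NB) * C₀ * (J⁻¹ * ((1 + NA) * Y + X)) + ε * ∑ q, cc q ^ 2 := by
      field_simp
    rw [e5]
    have u2 : (1 + (c ^ 2)⁻¹) * c ^ 2 = c ^ 2 + 1 := by field_simp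
    have b8 : (1 + NA) * Y + X ≤ (1 + NA) * (1 + (c ^ 2)⁻¹) * (Y + c ^ 2 * X) := by
      have e7 : (1 + NA) * (1 + (c ^ 2)⁻¹) * (Y + c ^ 2 * X) =
          (1 + NA) * Y + (1 + NA) * (c ^ 2)⁻¹ * Y + (1 + NA) * (((1 + (c ^ 2)⁻¹) * c ^ 2) * X) := by
        ring
      rw [e7, u2]
      have v1 : 0 ≤ (1 + NA) * (c ^ 2)⁻¹ * Y := by positivity
      have v2 : 0 ≤ (1 + NA) * (c ^ 2 * X) := by positivity
      have v3 : 0 ≤ NA * X := by positivity
      nlinarith
    have b9 := mul_le_mul_of_nonneg_left (mul_le_mul_of_nonneg_left b8 (inv_nonneg.2 hJ0.le))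
      (by positivity : (0 : ℝ) ≤ (1 + NB) * C₀)
    have e6 : (1 + NB) * C₀ * (J⁻¹ * ((1 + NA) * (1 + (c ^ 2)⁻¹) * (Y + c ^ 2 * X))) =
      (1 + NB) * (1 + NA) * (1 + (c ^ 2)⁻¹) * C₀ * (J⁻¹ * Y + J⁻¹ * (c ^ 2 * X)) := by ring
    rw [e6] at b9
    linarith

end Vale.Agent.P088.R2.H794.S4
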