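import Vale.Agent.P088.R2.H238.S3.Nrm1
import Vale.Agent.P088.R2.H349.S4.Defs
import Vale.Agent.P088.H91.UInv

/-!
# P088, stage 4: tools for the normalisation of pairs
-/

open MeasureTheory Set
open scoped ContDiff Matrix Topology

noncomputable section

namespace Vale.Agent.P088.R2.H794.S4

open Vale.Agent.P088.LR Vale.Agent.P088.LR.U Vale.Agent.P088.LR.H158
open Vale.Agent.P088.R2.H238.S3.A

variable {n N : ℕ}

section Gen

variable {F : Type*} [NormedAddCommGroup F] [NormedSpace ℝ F]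

theorem cpF {f : V n → F} (hf : ContDiff ℝ ∞ f) (i : Fin n) : ContDiff ℝ ∞ (pd i f) :=
  (hf.fderiv_right (m := ∞) (by simp)).clm_apply contDiff_const

theorem cpFO {O : Set (V n)} (hO : IsOpen O) {f : V n → F} (hf : ContDiffOn ℝ ∞ f O) (i : Fin n) :
    ContDiffOn ℝ ∞ (pd i f) O := by
  have h1 : ContDiffOn ℝ ∞ (fderiv ℝ f) O := hf.fderiv_of_isOpen hO (by simp)
  exact h1.clm_apply contDiffOn_const

theorem cl_pdF {k : ℕ} {δ : ℝ} {f : V n → F} (hf : ContDiff ℝ ∞ f) (h : Cl (k + 1) δ f)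
    (i : Fin n) : Cl k δ (pd i f) := by
  intro l hl x
  have h1 : iteratedFDeriv ℝ l (pd i f) x =
      (ContinuousLinearMap.apply ℝ F (Pi.single i (1 : ℝ) : V n)).compContinuousMultilinearMap
        (iteratedFDeriv ℝ l (fderiv ℝ f) x) :=
    (ContinuousLinearMap.apply ℝ F (Pi.single i (1 : ℝ) : V n)).iteratedFDeriv_comp_left
      (hf.fderiv_right (m := ∞) (by simp)).contDiffAt (mod_cast le_top)
  have h2 : ‖(Pi.single i (1 : ℝ) : V n)‖ ≤ 1 := by
    rw [pi_norm_le_iff_of_nonneg zero_le_one]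
    intro j
    rw [Pi.single_apply]
    split_ifs <;> simp
  have h3 : ‖ContinuousLinearMap.apply ℝ F (Pi.single i (1 : ℝ) : V n)‖ ≤ 1 := by
    refine ContinuousLinearMap.opNorm_le_bound _ zero_le_one fun L => ?_
    rw [ContinuousLinearMap.apply_apply, one_mul]
    exact (L.le_opNorm _).trans (mul_le_of_le_one_right (norm_nonneg _) h2)
  rw [h1]
  refine ((ContinuousLinearMap.apply ℝ F
    (Pi.single i (1 : ℝ) : V n)).norm_compContinuousMultilinearMap_le _).trans ?_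
  refine (mul_le_of_le_one_left (norm_nonneg _) h3).trans ?_
  rw [norm_iteratedFDeriv_fderiv]
  exact h (l + 1) (by omega) x

/-- derivatives of `f ∘ fa` -/
theorem ifd_faF {f : V n → F} (hf : ContDiff ℝ ∞ f) (A : Matrix (Fin n) (Fin n) ℝ) (v : V n)
    (l : ℕ) (y : V n) : ‖iteratedFDeriv ℝ l (fun y => f (fa A v y)) y‖ ≤
      ‖lm A⁻¹‖ ^ l * ‖iteratedFDeriv ℝ l f (fa A v y)‖ := by
  have h1 : iteratedFDeriv ℝ l (fun y => f (fa A v y)) y =
      iteratedFDeriv ℝ l (fun z => f (lm A⁻¹ z)) (y - v) := by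
    have := iteratedFDeriv_comp_sub' (𝕜 := ℝ) (f := fun z => f (lm A⁻¹ z)) l v
    have h2 := congrFun this y
    simp only [lm_apply] at h2 ⊢
    exact h2
  have h2 : iteratedFDeriv ℝ l (fun z => f (lm A⁻¹ z)) (y - v) =
      (iteratedFDeriv ℝ l f (fa A v y)).compContinuousLinearMap fun _ => lm A⁻¹ := by
    have := ContinuousLinearMap.iteratedFDeriv_comp_right (lm A⁻¹)
      (f := f) (n := ∞) hf (y - v) (i := l) (by exact_mod_cast le_top)
    rw [lm_apply] at this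
    exact this
  rw [h1, h2]
  refine (ContinuousMultilinearMap.norm_compContinuousLinearMap_le _ _).trans ?_
  rw [Finset.prod_const, Finset.card_univ, Fintype.card_fin, mul_comm]

theorem mv0 {f : V n → F} (hf : ContDiff ℝ ∞ f) {B : ℝ} (hB : ∀ x, ‖fderiv ℝ f x‖ ≤ B) (x : V n) :
    ‖f x - f 0‖ ≤ B * ‖x‖ := by
  have h1 : ‖f x - f 0‖ ≤ B * ‖x - 0‖ :=
    Convex.norm_image_sub_le_of_norm_fderiv_le (𝕜 := ℝ) (s := univ) (fun x _ =>
      (hf.differentiable (by simp)) x) (fun x _ => hB x) convex_univ (mem_univ _) (mem_univ _)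
  rwa [sub_zero] at h1

/-- The zoomed function is small on a fixed ball. -/
theorem near1 {k : ℕ} {B : ℝ} {f : V n → F} (hf : ContDiff ℝ ∞ f) (hB : Cl (k + 1) B f)
    (hf0 : f 0 = 0) (A : Matrix (Fin n) (Fin n) ℝ) (v : V n) {t : ℝ} (ht : ‖lm A⁻¹‖ ≤ t)
    (ht1 : t ≤ 1) {R : ℝ} (hR : 1 ≤ R) {y : V n} (hy : ‖y - v‖ ≤ R) (l : ℕ) (hl : l ≤ k) :
    ‖iteratedFDeriv ℝ l (fun y => f (fa A v y)) y‖ ≤ B * t * R := by
  have hB0 : 0 ≤ B := (norm_nonneg _).trans (hB 0 (by omega) v)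
  have ht0 : 0 ≤ t := (norm_nonneg _).trans ht
  rcases Nat.eq_zero_or_pos l with rfl | hl0
  · rw [norm_iteratedFDeriv_zero]
    have h1 : ‖f (fa A v y) - f 0‖ ≤ B * ‖fa A v y‖ := mv0 hf (fun x => by
      have := hB 1 (by omega) x
      rwa [norm_iteratedFDeriv_one] at this) _
    rw [hf0, sub_zero] at h1
    refine h1.trans ?_
    have h2 : fa A v y = lm A⁻¹ (y - v) := by rw [lm_apply]; rfl
    rw [h2, mul_assoc]
    refine mul_le_mul_of_nonneg_left ?_ hB0
    exact ((lm A⁻¹).le_opNorm _).trans (mul_le_mul ht hy (norm_nonneg _) ht0)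
  · refine (ifd_faF hf A v l y).trans ?_
    have h3 : ‖lm A⁻¹‖ ^ l ≤ t := by
      calc ‖lm A⁻¹‖ ^ l ≤ t ^ l := pow_le_pow_left₀ (norm_nonneg _) ht l
        _ ≤ t ^ 1 := pow_le_pow_of_le_one ht0 ht1 hl0
        _ = t := pow_one t
    calc ‖lm A⁻¹‖ ^ l * ‖iteratedFDeriv ℝ l f (fa A v y)‖ ≤ t * B := by
          gcongr
          exact hB l (by omega) _
      _ = B * t * 1 := by ring
      _ ≤ B * t * R := by gcongr

/-- The zoomed function with a zero of second order. -/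
theorem near2 {k : ℕ} {B : ℝ} {f : V n → F} (hf : ContDiff ℝ ∞ f) (hB : Cl (k + 2) B f)
    (hf0 : f 0 = 0) (hf1 : fderiv ℝ f 0 = 0) (A : Matrix (Fin n) (Fin n) ℝ) (v : V n) {t : ℝ}
    (ht : ‖lm A⁻¹‖ ≤ t) (ht1 : t ≤ 1) {R : ℝ} (hR : 1 ≤ R) {y : V n} (hy : ‖y - v‖ ≤ R) (l : ℕ)
    (hl : l ≤ k) : ‖iteratedFDeriv ℝ l (fun y => f (fa A v y)) y‖ ≤ B * t ^ 2 * R ^ 2 := by
  have hB0 : 0 ≤ B := (norm_nonneg _).trans (hB 0 (by omega) v)
  have ht0 : 0 ≤ t := (norm_nonneg _).trans ht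
  have hd : ContDiff ℝ ∞ (fderiv ℝ f) := hf.fderiv_right (m := ∞) (by simp)
  have hn2 : ∀ x, ‖fderiv ℝ (fderiv ℝ f) x‖ ≤ B := by
    intro x
    have h1 := hB 2 (by omega) x
    rw [← norm_iteratedFDeriv_fderiv, norm_iteratedFDeriv_one] at h1
    exact h1
  have hg : ∀ x, ‖fderiv ℝ f x‖ ≤ B * ‖x‖ := by
    intro x
    have h1 := mv0 hd hn2 x
    rwa [hf1, sub_zero] at h1
  have hx : ‖fa A v y‖ ≤ t * R := by
    have h2 : fa A v y = lm A⁻¹ (y - v) := by rw [lm_apply]; rfl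
    rw [h2]
    exact ((lm A⁻¹).le_opNorm _).trans (mul_le_mul ht hy (norm_nonneg _) ht0)
  have hR0 : 0 ≤ R := by linarith
  rcases Nat.eq_zero_or_pos l with rfl | hl0
  · rw [norm_iteratedFDeriv_zero]
    have h1 : ‖f (fa A v y) - f 0‖ ≤ B * ‖fa A v y‖ * ‖fa A v y - 0‖ := by
      refine Convex.norm_image_sub_le_of_norm_fderiv_le (𝕜 := ℝ) (s := Metric.closedBall 0 ‖fa A v y‖)
        (fun x _ => (hf.differentiable (by simp)) x) (fun x hx => ?_) (convex_closedBall _ _)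
        (by simp) (by simp)
      refine (hg x).trans (mul_le_mul_of_nonneg_left ?_ hB0)
      simpa using hx
    rw [hf0, sub_zero, sub_zero] at h1
    refine h1.trans ?_
    calc B * ‖fa A v y‖ * ‖fa A v y‖ ≤ B * (t * R) * (t * R) := by gcongr
      _ = B * t ^ 2 * R ^ 2 := by ring
  · rcases Nat.lt_or_ge 1 l with hl2 | hl2
    · refine (ifd_faF hf A v l y).trans ?_
      have h3 : ‖lm A⁻¹‖ ^ l ≤ t ^ 2 := by
        calc ‖lm A⁻¹‖ ^ l ≤ t ^ l := pow_le_pow_left₀ (norm_nonneg _) ht l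
          _ ≤ t ^ 2 := pow_le_pow_of_le_one ht0 ht1 hl2
      calc ‖lm A⁻¹‖ ^ l * ‖iteratedFDeriv ℝ l f (fa A v y)‖ ≤ t ^ 2 * B := by
            gcongr
            exact hB l (by omega) _
        _ = B * t ^ 2 * 1 := by ring
        _ ≤ B * t ^ 2 * R ^ 2 := by
            gcongr
            exact one_le_pow₀ hR
    · have hl1 : l = 1 := by omega
      subst hl1
      refine (ifd_faF hf A v 1 y).trans ?_
      rw [norm_iteratedFDeriv_one, pow_one]
      calc ‖lm A⁻¹‖ * ‖fderiv ℝ f (fa A v y)‖ ≤ t * (B * (t * R)) := by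
            gcongr
            exact (hg _).trans (mul_le_mul_of_nonneg_left hx hB0)
        _ = B * t ^ 2 * (R * 1) := by ring
        _ ≤ B * t ^ 2 * (R * R) := by gcongr
        _ = B * t ^ 2 * R ^ 2 := by ring

/-- The zoomed function is bounded. -/
theorem near0 {k : ℕ} {B : ℝ} {f : V n → F} (hf : ContDiff ℝ ∞ f) (hB : Cl k B f)
    (A : Matrix (Fin n) (Fin n) ℝ) (v : V n) (ht : ‖lm A⁻¹‖ ≤ 1) (y : V n) (l : ℕ)
    (hl : l ≤ k) : ‖iteratedFDeriv ℝ l (fun y => f (fa A v y)) y‖ ≤ B := by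
  refine (ifd_faF hf A v l y).trans ?_
  calc ‖lm A⁻¹‖ ^ l * ‖iteratedFDeriv ℝ l f (fa A v y)‖ ≤ 1 * B := by
        refine mul_le_mul (pow_le_one₀ (norm_nonneg _) ht) (hB l hl _) (norm_nonneg _) zero_le_one
    _ = B := one_mul B

/-- Cut-off of a function which is small on the support of the cut-off. -/
theorem cl_cutF {k : ℕ} {χ : V n → ℝ} {f : V n → F} (hχ : ContDiff ℝ ∞ χ) (hf : ContDiff ℝ ∞ f)
    {C δ R : ℝ} (hC : Cl k C χ) (hs : ∀ y ∈ tsupport χ, ‖y‖ ≤ R)
    (hδ : ∀ y : V n, ‖y‖ ≤ R → ∀ l ≤ k, ‖iteratedFDeriv ℝ l f y‖ ≤ δ) (hδ0 : 0 ≤ δ) :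
    Cl k (2 ^ k * (C * δ)) (fun y => χ y • f y) := by
  intro l hl y
  have hC0 : 0 ≤ C := (norm_nonneg _).trans (hC 0 (by omega) y)
  by_cases hy : y ∈ tsupport χ
  · have hyR : ‖y‖ ≤ R := hs y hy
    refine (norm_iteratedFDeriv_smul_le (𝕜 := ℝ) (n := l) (N := ∞) hχ hf y
      (by exact_mod_cast le_top)).trans ?_
    calc ∑ i ∈ Finset.range (l + 1), (l.choose i : ℝ) * ‖iteratedFDeriv ℝ i χ y‖ *
          ‖iteratedFDeriv ℝ (l - i) f y‖
        ≤ ∑ i ∈ Finset.range (l + 1), (l.choose i : ℝ) * (C * δ) := by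
          refine Finset.sum_le_sum fun i hi => ?_
          have hi' : i ≤ l := Nat.lt_succ_iff.1 (Finset.mem_range.1 hi)
          rw [mul_assoc]
          gcongr
          · exact hC i (hi'.trans hl) y
          · exact hδ y hyR (l - i) (by omega)
      _ = 2 ^ l * (C * δ) := by
          rw [← Finset.sum_mul]
          congr 1
          have := Nat.sum_range_choose l
          exact_mod_cast this
      _ ≤ 2 ^ k * (C * δ) := by
          gcongr
          norm_num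
  · have h1 : y ∉ Function.support (iteratedFDeriv ℝ l (fun y => χ y • f y)) := fun h =>
      hy (tsupport_smul_subset_left χ f (support_iteratedFDeriv_subset l h))
    rw [Function.notMem_support.1 h1, norm_zero]
    positivity

/-- A compactly supported smooth function has bounded derivatives. -/
theorem cl_compactF {χ : V n → F} (hχ : ContDiff ℝ ∞ χ) (hc : HasCompactSupport χ) (k : ℕ) :
    ∃ C > 0, Cl k C χ := by
  have h : ∀ l : ℕ, ∃ C, ∀ x, ‖iteratedFDeriv ℝ l χ x‖ ≤ C := fun l =>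
    (hc.iteratedFDeriv l).exists_bound_of_continuous
      (hχ.continuous_iteratedFDeriv (by exact_mod_cast le_top))
  choose C hC using h
  refine ⟨∑ l ∈ Finset.range (k + 1), |C l| + 1, by positivity, fun l hl x => ?_⟩
  calc ‖iteratedFDeriv ℝ l χ x‖ ≤ C l := hC l x
    _ ≤ |C l| := le_abs_self _
    _ ≤ ∑ l ∈ Finset.range (k + 1), |C l| :=
        Finset.single_le_sum (f := fun l => |C l|) (fun i _ => abs_nonneg _)
          (Finset.mem_range.2 (by omega))
    _ ≤ _ := by linarith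

/-- Extension by zero. -/
theorem smxF {O : Set (V n)} (hO : IsOpen O) {χ : V n → ℝ} {f : V n → F} (hχ : ContDiff ℝ ∞ χ)
    (hs : tsupport χ ⊆ O) (hf : ContDiffOn ℝ ∞ f O) : ContDiff ℝ ∞ fun x => χ x • f x := by
  rw [contDiff_iff_contDiffAt]
  intro x
  by_cases hx : x ∈ tsupport χ
  · exact hχ.contDiffAt.smul (hf.contDiffAt (hO.mem_nhds (hs hx)))
  · have h : χ =ᶠ[𝓝 x] fun _ => 0 := notMem_tsupport_iff_eventuallyEq.1 hx
    have h1 : (fun y => χ y • f y) =ᶠ[𝓝 x] fun _ => 0 := by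
      filter_upwards [h] with y hy
      rw [hy, zero_smul]
    exact contDiffAt_const.congr_of_eventuallyEq h1

/-- chain rule -/
theorem pd_faF (A : Matrix (Fin n) (Fin n) ℝ) (v : V n) {f : V n → F} {x : V n}
    (hf : DifferentiableAt ℝ f (fa A v x)) (i : Fin n) :
    pd i (fun y => f (fa A v y)) x = ∑ k, A⁻¹ k i • pd k f (fa A v x) := by
  have h1 : HasFDerivAt (fa A v : V n → V n) (lm A⁻¹) x := by
    have h : (fa A v : V n → V n) = fun x => lm A⁻¹ (x - v) := by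
      funext x; rw [lm_apply]; rfl
    rw [h]
    have := (lm A⁻¹).hasFDerivAt.comp x ((hasFDerivAt_id x).sub_const v)
    simpa using this
  have h2 : HasFDerivAt (fun y => f (fa A v y)) ((fderiv ℝ f (fa A v x)).comp (lm A⁻¹)) x :=
    hf.hasFDerivAt.comp x h1
  unfold pd
  rw [h2.fderiv, ContinuousLinearMap.comp_apply, lm_apply, mv_single, map_sum]
  refine Finset.sum_congr rfl fun k _ => ?_
  rw [map_smul]

theorem pd_afF (A : Matrix (Fin n) (Fin n) ℝ) (v : V n) {f : V n → F} {x : V n}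
    (hf : DifferentiableAt ℝ f (af A v x)) (i : Fin n) :
    pd i (fun y => f (af A v y)) x = ∑ k, A k i • pd k f (af A v x) := by
  have h1 : HasFDerivAt (af A v : V n → V n) (lm A) x := by
    have h : (af A v : V n → V n) = fun x => lm A x + v := by
      funext x; rw [lm_apply]; rfl
    rw [h]
    exact (lm A).hasFDerivAt.add_const v
  have h2 : HasFDerivAt (fun y => f (af A v y)) ((fderiv ℝ f (af A v x)).comp (lm A)) x :=
    hf.hasFDerivAt.comp x h1
  unfold pd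
  rw [h2.fderiv, ContinuousLinearMap.comp_apply, lm_apply, mv_single, map_sum]
  refine Finset.sum_congr rfl fun k _ => ?_
  rw [map_smul]

end Gen

end Vale.Agent.P088.R2.H794.S4
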